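import Mathlib
import Crest.Prelude.Def_SymmetricAlgebra

/-! Row 186: interface for the endomorphism algebra (infinite dominant dimension). -/

set_option autoImplicit false

universe u

namespace Crest.Agent.H5.Mu
open CategoryTheory Crest.AlgebraR

/-- a counterexample to Tachikawa's conjecture over `K` -/
def Tach (K : Type u) [Field K] : Prop :=
  ∃ (A : Type u) (_ : Ring A) (_ : Algebra K A), FiniteDimensional K A ∧ IsSymmetricAlgebra K A ∧
    ∃ M : ModuleCat.{u} A, Module.Finite A M ∧ ¬ Module.Projective A M ∧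
      ∀ i : ℕ, 0 < i → Subsingleton (Abelian.Ext M M i)

/-- `Γ` has a non-split coresolution by powers of the projective-injective module `W` -/
structure Dom (Γ : Type u) [Ring Γ] (W : Type u) [AddCommGroup W] [Module Γ W] where
  fin : Module.Finite Γ W
  proj : Module.Projective Γ W
  inj : Module.Injective Γ W
  n : ℕ → ℕ
  ε : Γ →ₗ[Γ] (Fin (n 0) → W)
  d : ∀ j, (Fin (n j) → W) →ₗ[Γ] (Fin (n (j + 1)) → W)
  ε_inj : Function.Injective ε
  ex0 : Function.Exact ε (d 0)
  ex : ∀ j, Function.Exact (d j) (d (j + 1))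
  nsplit : ∀ r : (Fin (n 0) → W) →ₗ[Γ] Γ, r (ε 1) ≠ 1
  simple : ∃ S : ModuleCat.{u} Γ, IsSimpleModule Γ S ∧ ∀ f : S →ₗ[Γ] W, f = 0

def DomStmt (K : Type u) [Field K] : Prop :=
  ∃ (Γ : Type u) (_ : Ring Γ) (_ : Algebra K Γ) (W : Type u) (_ : AddCommGroup W) (_ : Module Γ W),
    FiniteDimensional K Γ ∧ Nonempty (Dom Γ W)

end Crest.Agent.H5.Mu
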