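import Mathlib

/-! The two-sided exponential law on the line and a one-dimensional transport map. -/

set_option autoImplicit false

namespace Crest.Agent.H5

open Filter Topology Set MeasureTheory
open scoped ENNReal

noncomputable def lh (x : ℝ) : ℝ := Real.exp (-|x|) / 2

noncomputable def lH (u : ℝ) : ℝ := ∫ s in Iic u, lh s

noncomputable def eta : Measure ℝ := volume.withDensity fun x => ENNReal.ofReal (lh x)

def ell (t x : ℝ) : ℝ := |x| - |x - t|

lemma lh_pos (x : ℝ) : 0 < lh x := by unfold lh; positivity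

lemma continuous_lh : Continuous lh := by unfold lh; fun_prop

lemma integral_lh : ∫ x, lh x = 1 := by
  have := integral_comp_abs (f := fun x => Real.exp (-x) / 2)
  unfold lh
  rw [this, integral_div, integral_exp_neg_Ioi_zero]
  norm_num

lemma integrable_lh : Integrable lh :=
  Integrable.of_integral_ne_zero (by rw [integral_lh]; exact one_ne_zero)

lemma abs_ell_le (t x : ℝ) : |ell t x| ≤ |t| := by
  have := abs_abs_sub_abs_le_abs_sub x (x - t)
  simpa [ell] using this

lemma ell_lip (t t' x x' : ℝ) : |ell t x - ell t' x'| ≤ |t - t'| + 2 * |x - x'| := by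
  unfold ell
  have h1 := abs_abs_sub_abs_le_abs_sub x x'
  have h2 := abs_abs_sub_abs_le_abs_sub (x - t) (x' - t')
  have h3 : |x - t - (x' - t')| ≤ |x - x'| + |t - t'| := by
    rw [show x - t - (x' - t') = (x - x') - (t - t') by ring]; exact abs_sub _ _
  rw [abs_le] at h1 h2 ⊢
  constructor <;> linarith [h1.1, h1.2, h2.1, h2.2]

lemma ell_zero (x : ℝ) : ell 0 x = 0 := by simp [ell]

lemma continuous_ell (t : ℝ) : Continuous (ell t) := by unfold ell; fun_prop

lemma exp_ell_mul (t x : ℝ) : Real.exp (ell t x) * lh x = lh (x - t) := by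
  unfold ell lh
  rw [← mul_div_assoc, ← Real.exp_add]; congr 2; ring

lemma lH_sub (x u : ℝ) : lH u - lH x = ∫ s in x..u, lh s :=
  intervalIntegral.integral_Iic_sub_Iic integrable_lh.integrableOn integrable_lh.integrableOn

lemma lH_strictMono : StrictMono lH := by
  intro x u h
  have := intervalIntegral.intervalIntegral_pos_of_pos (f := lh) (a := x) (b := u)
    integrable_lh.intervalIntegrable lh_pos h
  linarith [lH_sub x u]

lemma continuous_lH : Continuous lH := by
  have : lH = fun u => lH 0 + ∫ s in (0 : ℝ)..u, lh s := by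
    ext u; rw [← lH_sub]; ring
  rw [this]
  exact continuous_const.add
    (intervalIntegral.continuous_primitive (fun _ _ => integrable_lh.intervalIntegrable) 0)

lemma lH_nonneg (u : ℝ) : 0 ≤ lH u := integral_nonneg fun s => (lh_pos s).le

lemma lH_le_exp (u : ℝ) : lH u ≤ Real.exp u := by
  rw [← integral_exp_Iic]
  refine setIntegral_mono integrable_lh.integrableOn (integrableOn_exp_Iic u) fun s => ?_
  unfold lh
  have := Real.exp_le_exp.2 (neg_abs_le s)
  have := Real.exp_pos (-|s|)
  linarith

lemma one_sub_lH_le (u : ℝ) : 1 - lH u ≤ Real.exp (-u) := by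
  have h1 := intervalIntegral.integral_Iic_add_Ioi (f := lh) (b := u) (μ := volume)
    integrable_lh.integrableOn integrable_lh.integrableOn
  rw [integral_lh] at h1
  have : ∫ s in Ioi u, lh s ≤ ∫ s in Ioi u, Real.exp (-s) := by
    refine setIntegral_mono integrable_lh.integrableOn (integrableOn_exp_neg_Ioi u) fun s => ?_
    unfold lh
    have := Real.exp_le_exp.2 (neg_le_neg (le_abs_self s))
    have := Real.exp_pos (-|s|)
    linarith
  rw [integral_exp_neg_Ioi] at this
  unfold lH
  linarith

lemma lH_taylor (x s : ℝ) (hs : |s| ≤ 1) : |lH (x + s) - lH x - s * lh x| ≤ 2 * s ^ 2 * lh x := by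
  have h1 : lH (x + s) - lH x - s * lh x = ∫ r in x..x + s, (lh r - lh x) := by
    rw [lH_sub, intervalIntegral.integral_sub integrable_lh.intervalIntegrable (by simp)]
    simp
  rw [h1]
  have := intervalIntegral.norm_integral_le_of_norm_le_const (a := x) (b := x + s)
    (f := fun r => lh r - lh x) (C := 2 * |s| * lh x) (fun r hr => by
      have hr' : |r - x| ≤ |s| := by
        have := abs_sub_left_of_mem_uIcc (uIoc_subset_uIcc hr)
        simpa using this
      have e : lh r - lh x = (Real.exp (|x| - |r|) - 1) * lh x := by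
        unfold lh
        rw [sub_mul, ← mul_div_assoc, ← Real.exp_add, one_mul]; congr 3; ring
      have e2 : |(|x| - |r|)| ≤ |s| := by
        refine (abs_abs_sub_abs_le_abs_sub x r).trans ?_
        rwa [abs_sub_comm]
      rw [e, Real.norm_eq_abs, abs_mul, abs_of_pos (lh_pos x)]
      refine mul_le_mul_of_nonneg_right ?_ (lh_pos x).le
      refine (Real.abs_exp_sub_one_le (e2.trans hs)).trans ?_
      linarith)
  rw [Real.norm_eq_abs] at this
  refine this.trans (le_of_eq ?_)
  rw [add_sub_cancel_left, ← sq_abs s]; ring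

lemma measurable_lh' : Measurable fun x => ENNReal.ofReal (lh x) :=
  continuous_lh.measurable.ennreal_ofReal

instance : IsProbabilityMeasure eta := by
  constructor
  rw [eta, withDensity_apply _ MeasurableSet.univ, Measure.restrict_univ,
    ← ofReal_integral_eq_lintegral_ofReal integrable_lh (ae_of_all _ fun x => (lh_pos x).le),
    integral_lh, ENNReal.ofReal_one]

/-- mixture density -/
noncomputable def dens (A B t x : ℝ) : ℝ≥0∞ := ENNReal.ofReal (A + B * Real.exp (ell t x))

lemma measurable_dens (A B t : ℝ) : Measurable (dens A B t) := by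
  have := continuous_ell t
  unfold dens
  exact Measurable.ennreal_ofReal (by fun_prop)

noncomputable def lG (A B t x : ℝ) : ℝ := A * lH x + B * lH (x - t)

lemma lintegral_dens {A B : ℝ} (hA : 0 ≤ A) (hB : 0 ≤ B) (t : ℝ) {s : Set ℝ}
    (hs : MeasurableSet s) :
    eta.withDensity (dens A B t) s =
      ENNReal.ofReal (A * (∫ x in s, lh x) + B * ∫ x in s, lh (x - t)) := by
  rw [eta, ← withDensity_mul _ measurable_lh' (measurable_dens A B t), withDensity_apply _ hs]
  have hi : Integrable fun x => lh (x - t) := integrable_lh.comp_sub_right t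
  rw [← integral_const_mul, ← integral_const_mul, ← integral_add
    (integrable_lh.integrableOn.const_mul A) (hi.integrableOn.const_mul B),
    ofReal_integral_eq_lintegral_ofReal (f := fun x => A * lh x + B * lh (x - t))
      ((integrable_lh.integrableOn.const_mul A).add (hi.integrableOn.const_mul B))
      (ae_of_all _ fun x => add_nonneg (mul_nonneg hA (lh_pos _).le) (mul_nonneg hB (lh_pos _).le))]
  refine lintegral_congr fun x => ?_
  simp only [Pi.mul_apply, dens]
  rw [← ENNReal.ofReal_mul (lh_pos x).le, ← exp_ell_mul]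
  congr 1; ring

lemma integral_Iic_shift (t u : ℝ) : ∫ x in Iic u, lh (x - t) = lH (u - t) := by
  rw [lH, ← integral_indicator measurableSet_Iic, ← integral_indicator measurableSet_Iic,
    ← integral_sub_right_eq_self (fun x => (Iic (u - t)).indicator lh x) t]
  congr 1
  ext x
  simp [indicator]

lemma mu_Iic {A B : ℝ} (hA : 0 ≤ A) (hB : 0 ≤ B) (t u : ℝ) :
    eta.withDensity (dens A B t) (Iic u) = ENNReal.ofReal (lG A B t u) := by
  rw [lintegral_dens hA hB t measurableSet_Iic, integral_Iic_shift]; rfl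

lemma mu_univ {A B : ℝ} (hA : 0 ≤ A) (hB : 0 ≤ B) (t : ℝ) :
    eta.withDensity (dens A B t) univ = ENNReal.ofReal (A + B) := by
  rw [lintegral_dens hA hB t MeasurableSet.univ, Measure.restrict_univ,
    integral_sub_right_eq_self lh t, integral_lh, mul_one, mul_one]

lemma lG_strictMono {A B : ℝ} (hA : 0 ≤ A) (hB : 0 ≤ B) (hAB : 0 < A + B) (t : ℝ) :
    StrictMono (lG A B t) := by
  intro x u h
  have h1 := lH_strictMono h
  have h2 := lH_strictMono (sub_lt_sub_right h t)
  unfold lG
  rcases hA.eq_or_lt with h0 | h0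
  · subst h0; simp only [zero_add] at hAB; nlinarith
  · nlinarith

lemma continuous_lG (A B t : ℝ) : Continuous (lG A B t) := by
  have := continuous_lH
  unfold lG; fun_prop

/-- the monotone transport map -/
noncomputable def lT (A B t δ x : ℝ) : ℝ := sInf {u | lG A B t x ≤ lG A B (t + δ) u}

section
variable {A B t δ : ℝ} (hA : 0 ≤ A) (hB : 0 ≤ B) (hAB : 0 < A + B) (hδ : 0 ≤ δ)
include hA hB hδ

omit hB in
lemma lG_le_shift (x : ℝ) : lG A B t x ≤ lG A B (t + δ) (x + δ) := by
  unfold lG
  have := lH_strictMono.monotone (le_add_of_nonneg_right hδ : x ≤ x + δ)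
  rw [add_sub_add_right_eq_sub]
  nlinarith

omit hA in
lemma lG_shift_le (x : ℝ) : lG A B (t + δ) x ≤ lG A B t x := by
  unfold lG
  have := lH_strictMono.monotone (show x - (t + δ) ≤ x - t by linarith)
  nlinarith

include hAB

lemma lT_le_iff (x u : ℝ) : lT A B t δ x ≤ u ↔ lG A B t x ≤ lG A B (t + δ) u := by
  have hne : {u | lG A B t x ≤ lG A B (t + δ) u}.Nonempty := ⟨x + δ, lG_le_shift hA hδ x⟩
  have hbdd : BddBelow {u | lG A B t x ≤ lG A B (t + δ) u} :=
    ⟨x, fun u hu => (lG_strictMono hA hB hAB t).le_iff_le.1 (le_trans hu (lG_shift_le hB hδ u))⟩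
  have hcl : IsClosed {u | lG A B t x ≤ lG A B (t + δ) u} :=
    isClosed_le continuous_const (continuous_lG _ _ _)
  exact ⟨fun h => le_trans (hcl.csInf_mem hne hbdd) ((lG_strictMono hA hB hAB _).monotone h),
    fun h => csInf_le hbdd h⟩

lemma measurable_lT : Measurable (lT A B t δ) := by
  refine measurable_of_Iic fun u => ?_
  have : lT A B t δ ⁻¹' Iic u = {x | lG A B t x ≤ lG A B (t + δ) u} := by
    ext x; exact lT_le_iff hA hB hAB hδ x u
  rw [this]
  exact (isClosed_le (continuous_lG _ _ _) continuous_const).measurableSet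

lemma map_lT : (eta.withDensity (dens A B t)).map (lT A B t δ) =
    eta.withDensity (dens A B (t + δ)) := by
  have : IsFiniteMeasure (eta.withDensity (dens A B t)) :=
    ⟨by rw [mu_univ hA hB]; exact ENNReal.ofReal_lt_top⟩
  refine Measure.ext_of_Iic _ _ fun u => ?_
  rw [Measure.map_apply (measurable_lT hA hB hAB hδ) measurableSet_Iic, mu_Iic hA hB]
  have h1 : lG A B t (u - δ) ≤ lG A B (t + δ) u := by
    simpa using lG_le_shift (B := B) (t := t) hA hδ (u - δ)
  obtain ⟨x₀, -, hx₀⟩ := intermediate_value_Icc (show u - δ ≤ u by linarith)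
    (continuous_lG A B t).continuousOn ⟨h1, lG_shift_le hB hδ u⟩
  have : lT A B t δ ⁻¹' Iic u = Iic x₀ := by
    ext x
    rw [mem_preimage, mem_Iic, lT_le_iff hA hB hAB hδ, ← hx₀,
      (lG_strictMono hA hB hAB t).le_iff_le, mem_Iic]
  rw [this, mu_Iic hA hB, hx₀]

lemma lintegral_lT {φ : ℝ → ℝ≥0∞} (hφ : Measurable φ) :
    ∫⁻ x, dens A B t x * φ (lT A B t δ x) ∂eta = ∫⁻ x, dens A B (t + δ) x * φ x ∂eta := by
  have h1 := lintegral_withDensity_eq_lintegral_mul eta (measurable_dens A B (t + δ)) hφ
  have h2 := lintegral_withDensity_eq_lintegral_mul eta (measurable_dens A B t)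
    (hφ.comp (measurable_lT (t := t) hA hB hAB hδ))
  simp only [Pi.mul_apply, Function.comp] at h1 h2
  rw [← h1, ← h2, ← map_lT hA hB hAB hδ, lintegral_map hφ (measurable_lT hA hB hAB hδ)]

lemma lT_approx (hδ8 : δ ≤ 1 / 8) (x : ℝ) :
    |lT A B t δ x - x - δ * (B * Real.exp (ell t x) / (A + B * Real.exp (ell t x)))| ≤
      8 * δ ^ 2 := by
  set v := B * Real.exp (ell t x) / (A + B * Real.exp (ell t x)) with hv
  have he := Real.exp_pos (ell t x)
  have hZ : 0 < A + B * Real.exp (ell t x) := by
    rcases hA.eq_or_lt with h0 | h0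
    · subst h0; simp only [zero_add] at hAB ⊢; positivity
    · positivity
  have hv0 : 0 ≤ v := by positivity
  have hv1 : v ≤ 1 := div_le_one_of_le₀ (by linarith) hZ.le
  set a := A * lh x with ha
  set b := B * lh (x - t) with hb
  have ha0 : 0 ≤ a := mul_nonneg hA (lh_pos _).le
  have hb0 : 0 ≤ b := mul_nonneg hB (lh_pos _).le
  have hvb : (a + b) * v = b := by
    rw [ha, hb, hv, ← exp_ell_mul]; field_simp
  have key : ∀ s : ℝ, |s| ≤ 2 * δ → |s - δ| ≤ 2 * δ →
      |lG A B (t + δ) (x + s) - lG A B t x - (a + b) * (s - δ * v)| ≤ (a + b) * (8 * δ ^ 2) := by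
    intro s h1 h2
    have e1 := lH_taylor x s (by linarith)
    have e2 := lH_taylor (x - t) (s - δ) (by linarith)
    have e3 : s ^ 2 ≤ 4 * δ ^ 2 := by
      rw [← sq_abs s]; nlinarith [abs_nonneg s]
    have e4 : (s - δ) ^ 2 ≤ 4 * δ ^ 2 := by
      rw [← sq_abs (s - δ)]; nlinarith [abs_nonneg (s - δ)]
    have e5 : lG A B (t + δ) (x + s) - lG A B t x - (a + b) * (s - δ * v) =
        A * (lH (x + s) - lH x - s * lh x) +
          B * (lH (x - t + (s - δ)) - lH (x - t) - (s - δ) * lh (x - t)) := by
      have : (a + b) * (s - δ * v) = a * s + b * (s - δ) := by linear_combination (-δ) * hvb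
      rw [this, ha, hb, lG, lG, show x + s - (t + δ) = x - t + (s - δ) by ring]
      ring
    rw [e5]
    refine (abs_add_le _ _).trans ?_
    rw [abs_mul, abs_mul, abs_of_nonneg hA, abs_of_nonneg hB]
    have f1 : A * |lH (x + s) - lH x - s * lh x| ≤ a * (8 * δ ^ 2) := by
      calc _ ≤ A * (2 * s ^ 2 * lh x) := by gcongr
        _ = a * (2 * s ^ 2) := by rw [ha]; ring
        _ ≤ _ := mul_le_mul_of_nonneg_left (by linarith) ha0
    have f2 : B * |lH (x - t + (s - δ)) - lH (x - t) - (s - δ) * lh (x - t)| ≤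
        b * (8 * δ ^ 2) := by
      calc _ ≤ B * (2 * (s - δ) ^ 2 * lh (x - t)) := by gcongr
        _ = b * (2 * (s - δ) ^ 2) := by rw [hb]; ring
        _ ≤ _ := mul_le_mul_of_nonneg_left (by linarith) hb0
    linarith
  have hδ2 : 8 * δ ^ 2 ≤ δ := by nlinarith
  have hδv : 0 ≤ δ * v := mul_nonneg hδ hv0
  have hδv1 : δ * v ≤ δ := by nlinarith
  have hsq : 0 ≤ 8 * δ ^ 2 := by positivity
  rw [abs_le]
  constructor
  · by_contra hlt
    push Not at hlt
    have h1 := (lT_le_iff hA hB hAB hδ x _).1 (le_refl (lT A B t δ x))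
    have h2 := lG_strictMono hA hB hAB (t + δ)
      (show lT A B t δ x < x + (δ * v - 8 * δ ^ 2) by linarith)
    have h3 := abs_le.1 (key (δ * v - 8 * δ ^ 2) (abs_le.2 ⟨by linarith, by linarith⟩)
      (abs_le.2 ⟨by linarith, by linarith⟩))
    nlinarith [h3.2]
  · have h3 := abs_le.1 (key (δ * v + 8 * δ ^ 2) (abs_le.2 ⟨by linarith, by linarith⟩)
      (abs_le.2 ⟨by linarith, by linarith⟩))
    have := (lT_le_iff (t := t) hA hB hAB hδ x (x + (δ * v + 8 * δ ^ 2))).2 (by nlinarith [h3.1])
    linarith

end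

end Crest.Agent.H5
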