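import Mathlib
import Crest.Prelude.Def_Labels
import Crest.Agent.H5.Lap

/-! Independent labels on the edges of a locally finite graph from labels on the vertices. -/

set_option autoImplicit false

namespace Crest.Agent.H5

open MeasureTheory Set
open Crest.ProbabilityR

noncomputable def rk (G : SimpleGraph ℕ) (α : ℕ → ℝ) (u v : ℕ) : ℕ :=
  {w | G.Adj u w ∧ α w < α v}.ncard

noncomputable def lab (G : SimpleGraph ℕ) (α : ℕ → ℝ) (β : ℕ × ℕ → ℝ) : Sym2 ℕ → ℝ :=
  Sym2.lift ⟨fun u v => if α u < α v then β (u, rk G α u v)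
    else if α v < α u then β (v, rk G α v u) else 0, fun u v => by
      rcases lt_trichotomy (α u) (α v) with h | h | h
      · simp [h, h.not_gt]
      · simp [h]
      · simp [h, h.not_gt]⟩

noncomputable def ix (G : SimpleGraph ℕ) (α : ℕ → ℝ) : Sym2 ℕ → ℕ × ℕ :=
  Sym2.lift ⟨fun u v => if α u < α v then (u, rk G α u v)
    else if α v < α u then (v, rk G α v u) else 0, fun u v => by
      rcases lt_trichotomy (α u) (α v) with h | h | h
      · simp [h, h.not_gt]
      · simp [h]
      · simp [h, h.not_gt]⟩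

lemma measurable_lab {Ω : Type*} [MeasurableSpace Ω] (G : Ω → SimpleGraph ℕ)
    (hG : ∀ u v, MeasurableSet {ω | (G ω).Adj u v}) (α : Ω → ℕ → ℝ) (hα : Measurable α)
    (β : Ω → ℕ × ℕ → ℝ) (hβ : Measurable β) : Measurable fun ω => lab (G ω) (α ω) (β ω) := by
  have hα' : ∀ v, Measurable fun ω => α ω v := fun v => (measurable_pi_apply v).comp hα
  have hr : ∀ u v, Measurable fun ω => β ω (u, rk (G ω) (α ω) u v) := by
    intro u v
    have h1 : Measurable fun ω => rk (G ω) (α ω) u v := by
      refine measurable_ncard.comp (measurable_set_iff.2 fun w => ?_)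
      exact (measurableSet_setOfPred.1 (hG u w)).and
        (measurableSet_setOfPred.1 (measurableSet_lt (hα' w) (hα' v)))
    have h2 : Measurable fun q : Ω × ℕ => β q.1 (u, q.2) :=
      measurable_from_prod_countable_left fun k => (measurable_pi_apply (u, k)).comp hβ
    exact h2.comp (measurable_id.prodMk h1)
  refine measurable_pi_lambda _ fun e => ?_
  induction e using Sym2.ind with
  | h u v =>
    exact Measurable.ite (measurableSet_lt (hα' u) (hα' v)) (hr u v)
      (Measurable.ite (measurableSet_lt (hα' v) (hα' u)) (hr v u) measurable_const)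

lemma lab_equiv (σ : Equiv.Perm ℕ) (G : SimpleGraph ℕ) (α : ℕ → ℝ) (β : ℕ × ℕ → ℝ) :
    lab (G.comap σ) (α ∘ σ) (fun p => β (σ p.1, p.2)) = lab G α β ∘ Sym2.map σ := by
  have hr : ∀ u v, rk (G.comap σ) (α ∘ σ) u v = rk G α (σ u) (σ v) := by
    intro u v
    unfold rk
    rw [← Set.ncard_image_of_injective _ σ.injective]
    congr 1
    ext w
    obtain ⟨w, rfl⟩ := σ.surjective w
    simp
  ext e
  induction e using Sym2.ind with
  | h u v => simp [lab, hr]

lemma lab_eq_ix (G : SimpleGraph ℕ) {α : ℕ → ℝ} (hα : Function.Injective α) (β : ℕ × ℕ → ℝ)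
    {e : Sym2 ℕ} (he : e ∈ G.edgeSet) : lab G α β e = β (ix G α e) := by
  induction e using Sym2.ind with
  | h u v =>
    have : α u ≠ α v := fun h => G.ne_of_adj he (hα h)
    rcases lt_or_gt_of_ne this with h | h
    · simp [lab, ix, h]
    · simp [lab, ix, h, h.not_gt]

lemma ix_injOn (G : SimpleGraph ℕ) (hfin : ∀ v, (G.neighborSet v).Finite) {α : ℕ → ℝ}
    (hα : Function.Injective α) : InjOn (ix G α) G.edgeSet := by
  have h1 : ∀ e ∈ G.edgeSet, ∃ u v, e = s(u, v) ∧ G.Adj u v ∧ ix G α e = (u, rk G α u v) := by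
    intro e he
    induction e using Sym2.ind with
    | h u v =>
      have : α u ≠ α v := fun h => G.ne_of_adj he (hα h)
      rcases lt_or_gt_of_ne this with h | h
      · exact ⟨u, v, rfl, he, by simp [ix, h]⟩
      · exact ⟨v, u, Sym2.eq_swap, G.adj_symm he, by simp [ix, h, h.not_gt]⟩
  have h2 : ∀ u v v', G.Adj u v → α v < α v' → rk G α u v < rk G α u v' := by
    intro u v v' h hlt
    refine Set.ncard_lt_ncard ⟨fun w hw => ⟨hw.1, hw.2.trans hlt⟩, fun hs => ?_⟩
      ((hfin u).subset fun w hw => hw.1)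
    exact lt_irrefl _ (hs ⟨h, hlt⟩).2
  intro e he e' he' h
  obtain ⟨u, v, rfl, ha, hi⟩ := h1 e he
  obtain ⟨u', v', rfl, ha', hi'⟩ := h1 e' he'
  rw [hi, hi', Prod.mk.injEq] at h
  obtain ⟨rfl, h⟩ := h
  rcases lt_trichotomy (α v) (α v') with hlt | heq | hlt
  · exact absurd h (h2 u v v' ha hlt).ne
  · rw [hα heq]
  · exact absurd h (h2 u v' v ha' hlt).ne'

instance : NullSingletonClass eta := by unfold eta; infer_instance

noncomputable def muP : Measure (ℕ × ℕ → ℝ) := Measure.infinitePi fun _ => eta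

instance : IsProbabilityMeasure muP := by unfold muP; infer_instance

lemma ae_injective : ∀ᵐ a ∂muP, Function.Injective fun v => a (v, 0) := by
  have : ∀ᵐ a ∂muP, ∀ u v : ℕ, u ≠ v → a (u, 0) ≠ a (v, 0) := by
    rw [ae_all_iff]; intro u
    rw [ae_all_iff]; intro v
    by_cases huv : u = v
    · exact ae_of_all _ fun _ h => absurd huv h
    have h1 := Measure.infinitePi_map_eval_prod (P := fun _ : ℕ × ℕ => eta)
      (i := (u, 0)) (j := (v, 0)) (by simpa using huv)
    have hm : MeasurableSet {p : ℝ × ℝ | p.1 = p.2} := measurableSet_eq_fun measurable_fst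
      measurable_snd
    have h2 : (eta.prod eta) {p : ℝ × ℝ | p.1 = p.2} = 0 := by
      rw [Measure.prod_apply hm]
      simp
    rw [← h1, Measure.map_apply (by fun_prop) hm] at h2
    filter_upwards [measure_eq_zero_iff_ae_notMem.1 h2] with a ha _ using ha
  filter_upwards [this] with a ha u v h
  by_contra hne
  exact ha u v hne h

lemma law_lab (G : SimpleGraph ℕ) (hfin : ∀ v, (G.neighborSet v).Finite) (F : Finset (Sym2 ℕ))
    (hF : ∀ e ∈ F, e ∈ G.edgeSet) :
    (muP.prod muP).map (fun p => F.restrict (lab G (fun v => p.1 (v, 0)) p.2)) =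
      Measure.pi fun _ => eta := by
  have hm : Measurable fun p : (ℕ × ℕ → ℝ) × (ℕ × ℕ → ℝ) =>
      F.restrict (lab G (fun v => p.1 (v, 0)) p.2) :=
    (Finset.measurable_restrict F).comp (measurable_lab (fun _ => G)
      (fun _ _ => MeasurableSet.const _) _ (by fun_prop) _ measurable_snd)
  ext T hT
  rw [Measure.map_apply hm hT, Measure.prod_apply (hm hT), lintegral_congr_ae
    (g := fun _ => Measure.pi (fun _ : F => eta) T)]
  · simp
  filter_upwards [ae_injective] with a ha
  have h1 := Measure.map_infinitePi_infinitePi_of_inj (P := fun _ : ℕ × ℕ => eta)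
    (f := fun e : F => ix G (fun v => a (v, 0)) e) (fun e e' h =>
      Subtype.ext (ix_injOn G hfin ha (hF _ e.2) (hF _ e'.2) h))
  rw [← Measure.infinitePi_eq_pi, ← h1, Measure.map_apply (by fun_prop) hT]
  congr 1
  ext b
  simp only [mem_preimage]
  rw [show F.restrict (lab G (fun v => a (v, 0)) b) = fun e : F => b (ix G (fun v => a (v, 0)) e)
    from funext fun e => lab_eq_ix G ha b (hF _ e.2)]

lemma exists_split : ∃ g : unitInterval → (Bool × ℕ → ℝ), Measurable g ∧
    (Labels.labelMeasure ℕ).map (fun x => ((fun p : ℕ × ℕ => g (x p.1) (false, p.2)),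
      (fun p : ℕ × ℕ => g (x p.1) (true, p.2)))) = muP.prod muP := by
  obtain ⟨g, hg, hgm⟩ := Measure.exists_measurable_map_eq
    (Measure.infinitePi fun _ : Bool × ℕ => eta)
  refine ⟨g, hg, ?_⟩
  have h1 := Measure.infinitePi_map_pi (fun _ : ℕ => (volume : Measure unitInterval))
    (f := fun _ => g) fun _ => hg
  simp only [hgm] at h1
  have h2 := Measure.infinitePi_map_curry_symm (fun (_ : ℕ) (_ : Bool × ℕ) => eta)
  have h3 := Measure.map_infinitePi_infinitePi_of_inj (P := fun _ : ℕ × (Bool × ℕ) => eta)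
    (f := fun q : Bool × (ℕ × ℕ) => (q.2.1, (q.1, q.2.2))) (fun q q' h => by
      simp only [Prod.mk.injEq] at h
      exact Prod.ext h.2.1 (Prod.ext h.1 h.2.2))
  have h4 := Measure.infinitePi_map_curry (fun (_ : Bool) (_ : ℕ × ℕ) => eta)
  have h5 := Measure.infinitePi_map_eval_prod
    (P := fun _ : Bool => Measure.infinitePi fun _ : ℕ × ℕ => eta) (i := false) (j := true)
    (by simp)
  unfold muP
  rw [← h5, ← h4, ← h3, ← h2, ← h1, Measure.map_map, Measure.map_map, Measure.map_map,
    Measure.map_map]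
  · rfl
  all_goals fun_prop

end Crest.Agent.H5
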