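import Crest.Agent.H9.FdI
import Crest.Agent.Lead.FDHom

/-! Row 178: homological bookkeeping. -/

set_option autoImplicit false

namespace Crest.Agent.H5.Fd
open CategoryTheory Abelian Crest.Agent.H9.Fd Crest.Agent.Lead.FD

variable {A : Type} [Ring A]

theorem V_iff (S : ModuleCat.{0} A) (n : ℕ) (M : Type) [AddCommGroup M] [Module A M] :
    V S n M ↔ Van A S M n := Iff.rfl

section
variable {X Y Z : Type} [AddCommGroup X] [Module A X] [AddCommGroup Y] [Module A Y]
  [AddCommGroup Z] [Module A Z]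

theorem pd2 {f : X →ₗ[A] Y} {g : Y →ₗ[A] Z} (h : SES f g) (n : ℕ) (h1 : PD (A := A) n X)
    (h3 : PD (A := A) n Z) : PD (A := A) n Y :=
  h.se.hasProjectiveDimensionLT_X₂ n h1 h3

theorem pd3 {f : X →ₗ[A] Y} {g : Y →ₗ[A] Z} (h : SES f g) (n : ℕ) (h1 : PD (A := A) n X)
    (h2 : PD (A := A) (n + 1) Y) : PD (A := A) (n + 1) Z :=
  h.se.hasProjectiveDimensionLT_X₃ n h1 h2

theorem pd_mono {n m : ℕ} (h : n ≤ m) (h1 : PD (A := A) n X) : PD (A := A) m X :=
  haveI : HasProjectiveDimensionLT (ModuleCat.of A X) n := h1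
  hasProjectiveDimensionLT_of_ge (ModuleCat.of A X) n m h

theorem pd_van (S : ModuleCat.{0} A) {n m : ℕ} (h : n ≤ m) (h1 : PD (A := A) n X) : V S m X :=
  haveI : HasProjectiveDimensionLT (ModuleCat.of A X) n := h1
  fun e => e.eq_zero_of_hasProjectiveDimensionLT n h

theorem pd_proj (h : Module.Projective A X) : PD (A := A) 1 X :=
  (inferInstance : HasProjectiveDimensionLT (ModuleCat.of A X) 1)

theorem pd_equiv (e : X ≃ₗ[A] Y) (n : ℕ) (h : PD (A := A) n X) : PD (A := A) n Y :=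
  haveI : HasProjectiveDimensionLT (ModuleCat.of A X) n := h
  hasProjectiveDimensionLT_of_iso e.toModuleIso n

theorem v_equiv (e : X ≃ₗ[A] Y) (S : ModuleCat.{0} A) (n : ℕ) (h : V S n X) : V S n Y := by
  intro x
  have h1 : (Ext.mk₀ e.toModuleIso.inv).comp ((Ext.mk₀ e.toModuleIso.hom).comp x (zero_add n))
      (zero_add n) = x := by
    rw [Ext.mk₀_comp_mk₀_assoc, Iso.inv_hom_id, Ext.mk₀_id_comp]
  rw [← h1, h ((Ext.mk₀ e.toModuleIso.hom).comp x (zero_add n)), Ext.comp_zero]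

theorem v_zero (S : ModuleCat.{0} A) (h : ∀ f : X →ₗ[A] S, f = 0) : V S 0 X := by
  intro x
  obtain ⟨u, rfl⟩ := (Ext.mk₀_bijective _ _).2 x
  have : u = 0 := ModuleCat.hom_ext (h u.hom)
  rw [this, Ext.mk₀_zero]

end

theorem homStmt : HomStmt where
  se f g hf he hg S n :=
    have h : SES f g := ⟨he, hf, hg⟩
    ⟨pd2 h n, pd3 h n, fun h2 h3 => h.van1 (I := S) n h2 h3⟩
  pdv S _ _ h h1 := ⟨pd_mono h h1, pd_van S h h1⟩
  equiv f hf S n :=
    ⟨⟨pd_equiv (LinearEquiv.ofBijective f hf) n, pd_equiv (LinearEquiv.ofBijective f hf).symm n⟩,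
      ⟨v_equiv (LinearEquiv.ofBijective f hf) S n, v_equiv (LinearEquiv.ofBijective f hf).symm S n⟩⟩
  res := by
    intro A _ Q0 Q1 Q2 Q3 Q4 M _ _ _ _ _ _ _ _ _ _ _ _ ε d1 d2 d3 d4 p0 p1 p2 p3 p4 hε e0 e1 e2 e3
      inj S
    have s3 : SES d4 d3.rangeRestrict :=
      ⟨fun x => by
        rw [← e3 x]
        exact ⟨fun h => congrArg Subtype.val h, fun h => Subtype.ext h⟩,
       inj, d3.surjective_rangeRestrict⟩
    have s2 := ses_range e2
    have s1 := ses_range e1
    have s0 : SES (LinearMap.range d1).subtype ε :=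
      ⟨fun x => by
        rw [e0 x]
        constructor
        · rintro ⟨y, hy⟩
          exact ⟨⟨x, y, hy⟩, rfl⟩
        · rintro ⟨⟨_, y, rfl⟩, rfl⟩
          exact ⟨y, rfl⟩,
       Subtype.val_injective, hε⟩
    have q0 := pd_proj p0
    have q1 := pd_proj p1
    have q2 := pd_proj p2
    have q3 := pd_proj p3
    have q4 := pd_proj p4
    refine ⟨?_, fun h => ?_, fun h hv f => ?_⟩
    · exact pd3 s0 4 (pd3 s1 3 (pd3 s2 2 (pd3 s3 1 q4 (pd_mono (by omega) q3))
        (pd_mono (by omega) q2)) (pd_mono (by omega) q1)) (pd_mono (by omega) q0)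
    · exact s0.van3 (I := S) 3 (s1.van3 2 (s2.van3 1 (s3.van3 0 (v_zero S h)
        (pd_van S (by omega) q3)) (pd_van S (by omega) q2)) (pd_van S (by omega) q1))
        (pd_van S (by omega) q0)
    · have a1 : Van A S (LinearMap.range d1) 3 := s0.van1 3 (pd_van S (by omega) q0) hv
      have a2 : Van A S (LinearMap.range d2) 2 := s1.van1 2 (pd_van S (by omega) q1) a1
      have a3 : Van A S (LinearMap.range d3) 1 := s2.van1 1 (pd_van S (by omega) q2) a2
      obtain ⟨v, hv⟩ := s3.ext_of_van a3 f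
      exact LinearMap.ext fun x => by rw [← hv x, h v]; rfl

end Crest.Agent.H5.Fd
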