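import Mathlib

/-! Harnack-type bounds for holomorphic functions mapping the upper half-plane to itself,
and a Hurwitz-type non-vanishing lemma. -/

set_option autoImplicit false

namespace Crest.Agent.H5

open Complex Metric Set Filter Topology

/-- Harnack inequality for the real part of a holomorphic function on a disc. -/
lemma harnack_re {p : ℂ → ℂ} {c : ℂ} {R r : ℝ} (hr0 : 0 ≤ r) (hr : r < R)
    (hp : DiffContOnCl ℂ p (ball c R)) (hpos : ∀ z ∈ sphere c R, 0 ≤ (p z).re) :
    ∃ m : ℝ, 0 ≤ m ∧ ∀ w : ℂ, ‖w - c‖ ≤ r →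
      (R - r) / (R + r) * m ≤ (p w).re ∧ (p w).re ≤ (R + r) / (R - r) * m := by
  have hR : 0 < R := lt_of_le_of_lt hr0 hr
  have hpc : ContinuousOn p (sphere c R) :=
    hp.2.mono <| sphere_subset_closedBall.trans_eq (closure_ball c hR.ne').symm
  have hpc' : ContinuousOn (fun z => (p z).re) (sphere c R) :=
    Complex.continuous_re.comp_continuousOn hpc
  have hint : CircleIntegrable (fun z => (p z).re) c R := hpc'.circleIntegrable hR.le
  refine ⟨Real.circleAverage (fun z => (p z).re) c R, ?_, ?_⟩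
  · apply Real.circleAverage_nonneg_of_nonneg
    intro z hz
    rw [abs_of_pos hR] at hz
    exact hpos z hz
  intro w hw
  have hwb : w ∈ ball c R := by rw [mem_ball, dist_eq_norm]; linarith
  have hK : ContinuousOn (fun z => (herglotzRieszKernel c w z).re) (sphere c R) := by
    have := continuousOn_herglotzRieszKernel_sphere hwb
    rw [abs_of_pos hR] at this
    exact Complex.continuous_re.comp_continuousOn this
  have h1 := hp.circleAverage_re_herglotzRieszKernel_smul hwb
  have hint2 : CircleIntegrable ((re ∘ herglotzRieszKernel c w) • p) c R := by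
    apply ContinuousOn.circleIntegrable hR.le
    exact hK.smul hpc
  have h2 : (p w).re = Real.circleAverage
      (fun z => (herglotzRieszKernel c w z).re * (p z).re) c R := by
    rw [← h1]
    have := Complex.reCLM.circleAverage_comp_comm hint2
    simp only [Complex.reCLM_apply] at this
    rw [← this]
    congr 1
    ext z
    simp
  have hint3 : CircleIntegrable (fun z => (herglotzRieszKernel c w z).re * (p z).re) c R :=
    (hK.mul hpc').circleIntegrable hR.le
  have hwn : ‖w - c‖ < R := by linarith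
  constructor
  · rw [h2, ← smul_eq_mul, ← Real.circleAverage_fun_smul]
    apply Real.circleAverage_mono _ hint3
    · intro z hz
      rw [abs_of_pos hR] at hz
      simp only [smul_eq_mul]
      apply mul_le_mul_of_nonneg_right _ (hpos z hz)
      refine le_trans ?_ (le_re_herglotzRieszKernel hz hwb)
      rw [div_le_div_iff₀ (by linarith) (by linarith [norm_nonneg (w - c)])]
      nlinarith [norm_nonneg (w - c)]
    · exact ContinuousOn.circleIntegrable hR.le (hpc'.fun_const_smul _)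
  · rw [h2, ← smul_eq_mul, ← Real.circleAverage_fun_smul]
    apply Real.circleAverage_mono hint3
    · exact ContinuousOn.circleIntegrable hR.le (hpc'.fun_const_smul _)
    · intro z hz
      rw [abs_of_pos hR] at hz
      simp only [smul_eq_mul]
      apply mul_le_mul_of_nonneg_right _ (hpos z hz)
      refine le_trans (re_herglotzRieszKernel_le hz hwb) ?_
      rw [div_le_div_iff₀ (by linarith) (by linarith [norm_nonneg (w - c)])]
      nlinarith [norm_nonneg (w - c)]

/-- Harnack inequality for divided differences of a Pick function on the right half-plane. -/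
lemma harnack_pick (a b : ℝ) (ha : 0 < a) (ha1 : a ≤ 1) (hb : 1 ≤ b) :
    ∃ κ : ℝ, 0 < κ ∧ ∀ φ : ℂ → ℂ, DifferentiableOn ℂ φ {z | 0 < z.re} →
      (∀ z : ℂ, 0 < z.re → 0 ≤ z.im * (φ z).im) → (φ 1).im = 0 →
      0 ≤ (deriv φ 1).re ∧ ∀ x : ℝ, a ≤ x → x ≤ b →
        ∃ d : ℝ, 0 ≤ d ∧ d ≤ κ * (deriv φ 1).re ∧ (deriv φ 1).re ≤ κ * d ∧
          (φ x).re - (φ 1).re = (x - 1) * d := by
  set r : ℝ := b - a with hr
  set R : ℝ := b - a / 2 with hR
  have hr0 : 0 ≤ r := by linarith
  have hrR : r < R := by linarith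
  have hR0 : 0 < R := by linarith
  have hRR : 0 < R ^ 2 - r ^ 2 := by nlinarith
  set k1 : ℝ := (R + r) / (R - r) with hk1
  set k2 : ℝ := (R ^ 2 + r ^ 2) / (R ^ 2 - r ^ 2) with hk2
  have hk1p : 0 < k1 := div_pos (by linarith) (by linarith)
  have hk2p : 0 < k2 := div_pos (by positivity) hRR
  refine ⟨k1 ^ 2 * k2, by positivity, fun φ hφ him h1 => ?_⟩
  have hU : IsOpen {z : ℂ | 0 < z.re} := isOpen_lt continuous_const Complex.continuous_re
  have hsub : closedBall (b : ℂ) R ⊆ {z : ℂ | 0 < z.re} := by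
    intro z hz
    rw [mem_closedBall, dist_eq_norm] at hz
    have := (abs_le.1 ((Complex.abs_re_le_norm (z - b)).trans hz)).1
    simp only [sub_re, ofReal_re] at this
    show 0 < z.re
    linarith
  have h1U : {z : ℂ | 0 < z.re} ∈ 𝓝 (1 : ℂ) := hU.mem_nhds (by simp)
  have hds : DifferentiableOn ℂ (dslope φ 1) {z | 0 < z.re} := (differentiableOn_dslope h1U).2 hφ
  have hb1 : |1 - b| ≤ r := by rw [abs_le]; constructor <;> linarith
  have hden : ∀ z ∈ closedBall (b : ℂ) R, ((R : ℂ) ^ 2 - (1 - b) * (z - b)) ≠ 0 := by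
    intro z hz h
    rw [mem_closedBall, dist_eq_norm] at hz
    have h2 : ‖((R : ℂ) ^ 2)‖ = ‖(1 - (b : ℂ)) * (z - b)‖ := by rw [sub_eq_zero.1 h]
    rw [norm_mul, norm_pow, Complex.norm_real, Real.norm_eq_abs, abs_of_pos hR0] at h2
    have h3 : ‖(1 - (b : ℂ))‖ ≤ r := by
      have : (1 - (b : ℂ)) = ((1 - b : ℝ) : ℂ) := by push_cast; ring
      rw [this, Complex.norm_real, Real.norm_eq_abs]; exact hb1
    have : ‖(1 - (b : ℂ))‖ * ‖z - b‖ ≤ r * R := mul_le_mul h3 hz (norm_nonneg _) hr0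
    nlinarith
  set p : ℂ → ℂ := fun z => dslope φ 1 z *
    (((R : ℂ) ^ 2 - (z - b) ^ 2) / ((R : ℂ) ^ 2 - (1 - b) * (z - b))) with hp
  have hpd : DifferentiableOn ℂ p (closedBall (b : ℂ) R) := by
    apply DifferentiableOn.mul (hds.mono hsub)
    apply DifferentiableOn.div (by fun_prop) (by fun_prop) hden
  have hpdc : DiffContOnCl ℂ p (ball (b : ℂ) R) := by
    apply DifferentiableOn.diffContOnCl
    rwa [closure_ball _ hR0.ne']
  have hpos : ∀ z ∈ sphere (b : ℂ) R, 0 ≤ (p z).re := by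
    intro z hz
    have hz' := hz
    rw [mem_sphere, dist_eq_norm] at hz
    have hz1 : z ≠ 1 := by
      rintro rfl
      have : (1 - (b : ℂ)) = ((1 - b : ℝ) : ℂ) := by push_cast; ring
      rw [this, Complex.norm_real, Real.norm_eq_abs] at hz
      linarith
    have hzU := hsub (sphere_subset_closedBall hz')
    have hnz : z - b ≠ 0 := by
      intro h; rw [h, norm_zero] at hz; linarith
    have hR2 : (R : ℂ) ^ 2 = (z - b) * (starRingEnd ℂ) (z - b) := by
      rw [Complex.mul_conj, Complex.normSq_eq_norm_sq, hz]; push_cast; ring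
    have hz1' : z - 1 ≠ 0 := sub_ne_zero.2 hz1
    have hcz : (starRingEnd ℂ) (z - 1) ≠ 0 := by
      rw [map_ne_zero]; exact hz1'
    have e1 : p z = (φ z - φ 1) * ((starRingEnd ℂ) z - z) / ((z - 1) * (starRingEnd ℂ) (z - 1)) := by
      simp only [hp]
      rw [dslope_of_ne _ hz1, slope_def_field, hR2]
      have : (z - b) * (starRingEnd ℂ) (z - b) - (1 - b) * (z - b) =
          (z - b) * (starRingEnd ℂ) (z - 1) := by
        simp only [map_sub, Complex.conj_ofReal, map_one]; ring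
      rw [this]
      have h5 : (z - b) * (starRingEnd ℂ) (z - b) - (z - b) ^ 2 =
          (z - b) * ((starRingEnd ℂ) z - z) := by
        simp only [map_sub, Complex.conj_ofReal]; ring
      rw [h5]
      field_simp
    rw [e1, Complex.mul_conj, Complex.div_ofReal_re]
    apply div_nonneg _ (Complex.normSq_nonneg _)
    have := him z hzU
    simp only [mul_re, sub_re, conj_re, sub_self, mul_zero, sub_im, conj_im, h1, sub_zero]
    nlinarith
  obtain ⟨m, hm0, hm⟩ := harnack_re hr0 hrR hpdc hpos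
  have hp1 : p 1 = deriv φ 1 := by
    simp only [hp, dslope_same]
    have := hden 1 (by
      rw [mem_closedBall, dist_eq_norm]
      have : (1 - (b : ℂ)) = ((1 - b : ℝ) : ℂ) := by push_cast; ring
      rw [this, Complex.norm_real, Real.norm_eq_abs]; linarith)
    have e : ((R : ℂ) ^ 2 - (1 - b) ^ 2) = ((R : ℂ) ^ 2 - (1 - b) * (1 - b)) := by ring
    rw [e, div_self this, mul_one]
  have hnorm : ∀ x : ℝ, a ≤ x → x ≤ b → ‖(x : ℂ) - b‖ ≤ r := by
    intro x h1 h2
    have : ((x : ℂ) - (b : ℂ)) = ((x - b : ℝ) : ℂ) := by push_cast; ring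
    rw [this, Complex.norm_real, Real.norm_eq_abs, abs_le]; constructor <;> linarith
  have hm1 := hm 1 (by simpa using hnorm 1 ha1 hb)
  rw [hp1] at hm1
  have hk1inv : (R - r) / (R + r) = k1⁻¹ := by rw [hk1, inv_div]
  rw [hk1inv] at hm1
  have hD0 : 0 ≤ (deriv φ 1).re := le_trans (by positivity) hm1.1
  refine ⟨hD0, fun x hx1 hx2 => ?_⟩
  have hmx := hm x (hnorm x hx1 hx2)
  rw [hk1inv] at hmx
  set f : ℝ := (R ^ 2 - (x - b) ^ 2) / (R ^ 2 - (1 - b) * (x - b)) with hf
  have hxb : |x - b| ≤ r := by rw [abs_le]; constructor <;> linarith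
  have hxb2 : (x - b) ^ 2 ≤ r ^ 2 := by rw [← sq_abs]; exact pow_le_pow_left₀ (abs_nonneg _) hxb 2
  have hprod : |(1 - b) * (x - b)| ≤ r ^ 2 := by
    rw [abs_mul, sq]; exact mul_le_mul hb1 hxb (abs_nonneg _) hr0
  have hprod' := abs_le.1 hprod
  have hfd : 0 < R ^ 2 - (1 - b) * (x - b) := by linarith [hprod'.2]
  have hf1 : k2⁻¹ ≤ f := by
    rw [hk2, inv_div, hf, div_le_div_iff₀ (by positivity) hfd]
    nlinarith [hprod'.1, hprod'.2, sq_nonneg R, sq_nonneg r]
  have hf2 : f ≤ k2 := by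
    rw [hk2, hf, div_le_div_iff₀ hfd hRR]
    nlinarith [hprod'.1, hprod'.2, sq_nonneg R, sq_nonneg r, sq_nonneg (x - b)]
  have hf0 : 0 < f := lt_of_lt_of_le (by positivity) hf1
  have hpx : (p x).re = (dslope φ 1 x).re * f := by
    have : p x = dslope φ 1 x * (f : ℂ) := by
      simp only [hp, hf]; push_cast; ring
    rw [this, Complex.re_mul_ofReal]
  set d := (dslope φ 1 x).re with hd
  rw [hpx] at hmx
  have hd0 : 0 ≤ d := by
    have : 0 ≤ d * f := le_trans (by positivity) hmx.1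
    exact nonneg_of_mul_nonneg_left this hf0
  have hmle : m ≤ k1 * (deriv φ 1).re := by
    have := hm1.1
    rwa [inv_mul_le_iff₀ hk1p] at this
  have hmle2 : m ≤ k1 * (d * f) := by
    have := hmx.1
    rwa [inv_mul_le_iff₀ hk1p] at this
  refine ⟨d, hd0, ?_, ?_, ?_⟩
  · have h1 : d * k2⁻¹ ≤ k1 * (k1 * (deriv φ 1).re) :=
      calc d * k2⁻¹ ≤ d * f := mul_le_mul_of_nonneg_left hf1 hd0
        _ ≤ k1 * m := hmx.2
        _ ≤ _ := mul_le_mul_of_nonneg_left hmle hk1p.le
    rw [mul_inv_le_iff₀ hk2p] at h1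
    nlinarith
  · calc (deriv φ 1).re ≤ k1 * m := hm1.2
      _ ≤ k1 * (k1 * (d * f)) := mul_le_mul_of_nonneg_left hmle2 hk1p.le
      _ ≤ k1 * (k1 * (d * k2)) := by gcongr
      _ = _ := by ring
  · have := sub_smul_dslope φ 1 (x : ℂ)
    have h2 : φ x - φ 1 = ((x - 1 : ℝ) : ℂ) * dslope φ 1 x := by
      rw [← this]; push_cast; rfl
    rw [← Complex.sub_re, h2, Complex.re_ofReal_mul]

/-- A Hurwitz-type lemma: a limit of holomorphic functions without zeros near the origin has no
zero at the origin unless it vanishes identically. -/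
lemma hurwitz_aux (H : ℝ → ℂ → ℂ) (hH : Continuous (fun q : ℝ × ℂ => H q.1 q.2))
    (hd : ∀ ε, Differentiable ℂ (H ε)) (ρ : ℝ) (hρ : 0 < ρ)
    (hne : ∀ ε, 0 < ε → ∀ t ∈ ball (0 : ℂ) ρ, H ε t ≠ 0) (t₁ : ℂ) (h1 : H 0 t₁ ≠ 0) :
    H 0 0 ≠ 0 := by
  intro h0
  have han : AnalyticOnNhd ℂ (H 0) univ := (hd 0).differentiableOn.analyticOnNhd isOpen_univ
  have hev : ∀ᶠ t in 𝓝[≠] (0 : ℂ), H 0 t ≠ 0 := by
    rcases (han 0 (mem_univ _)).eventually_eq_zero_or_eventually_ne_zero with h | h
    · exfalso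
      have := han.eqOn_zero_of_preconnected_of_eventuallyEq_zero isPreconnected_univ
        (mem_univ 0) h
      exact h1 (this (mem_univ t₁))
    · exact h
  rw [eventually_nhdsWithin_iff, Metric.eventually_nhds_iff] at hev
  obtain ⟨r₀, hr₀, hr⟩ := hev
  set r := min r₀ ρ / 2 with hrdef
  have hmin : 0 < min r₀ ρ := lt_min hr₀ hρ
  have hrpos : 0 < r := by positivity
  have hr1 : r < r₀ := by have := min_le_left r₀ ρ; linarith
  have hr2 : r < ρ := by have := min_le_right r₀ ρ; linarith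
  have hsph : ∀ t ∈ sphere (0 : ℂ) r, H 0 t ≠ 0 := by
    intro t ht
    rw [mem_sphere] at ht
    apply hr (by linarith)
    intro h
    rw [mem_singleton_iff] at h
    rw [h, dist_self] at ht
    linarith
  have hc0 : Continuous (fun t => ‖H 0 t‖) := (hd 0).continuous.norm
  obtain ⟨t₀, ht₀, hmin'⟩ := (isCompact_sphere (0 : ℂ) r).exists_isMinOn
    (NormedSpace.sphere_nonempty.2 hrpos.le) hc0.continuousOn
  set m := ‖H 0 t₀‖ with hm
  have hm0 : 0 < m := norm_pos_iff.2 (hsph t₀ ht₀)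
  have e1 : ∀ᶠ ε in 𝓝 (0 : ℝ), ∀ t ∈ sphere (0 : ℂ) r, m / 2 < ‖H ε t‖ := by
    apply (isCompact_sphere (0 : ℂ) r).eventually_forall_of_forall_eventually
    intro t ht
    have : m / 2 < ‖H 0 t‖ := lt_of_lt_of_le (by linarith) (hmin' ht)
    exact (hH.norm.tendsto (0, t)).eventually (lt_mem_nhds this)
  have e2 : ∀ᶠ ε in 𝓝 (0 : ℝ), ‖H ε 0‖ < m / 2 := by
    have hc : Continuous (fun ε : ℝ => ‖H ε 0‖) :=
      (hH.comp (continuous_id.prodMk continuous_const)).norm
    have := hc.tendsto 0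
    simp only [h0, norm_zero] at this
    exact this.eventually (gt_mem_nhds (by linarith))
  have e3 : ∀ᶠ ε in 𝓝[>] (0 : ℝ), 0 < ε := self_mem_nhdsWithin
  obtain ⟨ε, hε, h2, h3⟩ := (e3.and ((e1.and e2).filter_mono nhdsWithin_le_nhds)).exists
  have hsub : closedBall (0 : ℂ) r ⊆ ball 0 ρ := closedBall_subset_ball hr2
  have hdc : DiffContOnCl ℂ (fun t => (H ε t)⁻¹) (ball 0 r) := by
    apply DifferentiableOn.diffContOnCl
    rw [closure_ball _ hrpos.ne']
    exact (hd ε).differentiableOn.inv (fun t ht => hne ε hε t (hsub ht))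
  have := Complex.norm_le_of_forall_mem_frontier_norm_le (isBounded_ball) hdc (C := (m / 2)⁻¹)
    (fun t ht => by
      rw [frontier_ball _ hrpos.ne'] at ht
      rw [norm_inv]
      exact inv_anti₀ (by linarith) (h2 t ht).le)
    (z := 0) (subset_closure (mem_ball_self hrpos))
  rw [norm_inv] at this
  have hpos : 0 < ‖H ε 0‖ := norm_pos_iff.2 (hne ε hε 0 (mem_ball_self hρ))
  have := inv_strictAnti₀ hpos h3
  linarith

end Crest.Agent.H5
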