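import Mathlib
import Crest.Agent.H5.Harnack

/-! Finite strongly Rayleigh systems: tilted one-site means and their regularity. -/

set_option autoImplicit false

namespace Crest.Agent.H5

open Filter Topology Finset

variable {I : Type*} [DecidableEq I]

/-- generating polynomial -/
noncomputable def gen (F : Finset I) (c : Finset I → ℝ) (z : I → ℂ) : ℂ :=
  ∑ S ∈ F.powerset, (c S : ℂ) * ∏ j ∈ S, z j

noncomputable def wt (c : Finset I → ℝ) (y : I → ℝ) (S : Finset I) : ℝ :=
  c S * ∏ j ∈ S, Real.exp (y j)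

noncomputable def Zs (F : Finset I) (c : Finset I → ℝ) (y : I → ℝ) : ℝ :=
  ∑ S ∈ F.powerset, wt c y S

noncomputable def Ns (F : Finset I) (c : Finset I → ℝ) (i : I) (y : I → ℝ) : ℝ :=
  ∑ S ∈ F.powerset, if i ∈ S then wt c y S else 0

noncomputable def mean (F : Finset I) (c : Finset I → ℝ) (i : I) (y : I → ℝ) : ℝ :=
  Ns F c i y / Zs F c y

structure IsSR (F : Finset I) (c : Finset I → ℝ) : Prop where
  nonneg : ∀ S, 0 ≤ c S
  stable : ∀ z : I → ℂ, (∀ j ∈ F, 0 < (z j).im) → gen F c z ≠ 0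

def tilt (y : I → ℝ) (A : Finset I) (s : ℝ) : I → ℝ := fun j => if j ∈ A then y j + s else y j

variable {F : Finset I} {c : Finset I → ℝ}

omit [DecidableEq I] in
lemma IsSR.exists_pos (h : IsSR F c) : ∃ S ∈ F.powerset, 0 < c S := by
  by_contra hc
  push Not at hc
  apply h.stable (fun _ => Complex.I) (by simp)
  apply Finset.sum_eq_zero
  intro S hS
  rw [le_antisymm (hc S hS) (h.nonneg S)]
  simp

omit [DecidableEq I] in
lemma wt_nonneg (h : ∀ S, 0 ≤ c S) (y : I → ℝ) (S : Finset I) : 0 ≤ wt c y S :=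
  mul_nonneg (h S) (Finset.prod_nonneg fun _ _ => (Real.exp_pos _).le)

omit [DecidableEq I] in
lemma Zs_pos' (h : ∀ S, 0 ≤ c S) (hp : ∃ S ∈ F.powerset, 0 < c S) (y : I → ℝ) : 0 < Zs F c y := by
  obtain ⟨S, hS, hc⟩ := hp
  exact Finset.sum_pos' (fun S _ => wt_nonneg h y S)
    ⟨S, hS, mul_pos hc (Finset.prod_pos fun _ _ => Real.exp_pos _)⟩

omit [DecidableEq I] in
lemma IsSR.Zs_pos (h : IsSR F c) (y : I → ℝ) : 0 < Zs F c y := Zs_pos' h.nonneg h.exists_pos y

lemma Ns_nonneg (h : ∀ S, 0 ≤ c S) (i : I) (y : I → ℝ) : 0 ≤ Ns F c i y :=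
  Finset.sum_nonneg fun S _ => by split_ifs; exacts [wt_nonneg h y S, le_rfl]

lemma Ns_le_Zs (h : ∀ S, 0 ≤ c S) (i : I) (y : I → ℝ) : Ns F c i y ≤ Zs F c y :=
  Finset.sum_le_sum fun S _ => by split_ifs; exacts [le_rfl, wt_nonneg h y S]

lemma mean_nonneg (h : ∀ S, 0 ≤ c S) (i : I) (y : I → ℝ) : 0 ≤ mean F c i y :=
  div_nonneg (Ns_nonneg h i y) (Finset.sum_nonneg fun S _ => wt_nonneg h y S)

lemma mean_le_one (h : ∀ S, 0 ≤ c S) (i : I) (y : I → ℝ) : mean F c i y ≤ 1 :=
  div_le_one_of_le₀ (Ns_le_Zs h i y) (Finset.sum_nonneg fun S _ => wt_nonneg h y S)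

omit [DecidableEq I] in
lemma wt_congr {y y' : I → ℝ} {S : Finset I} (h : ∀ j ∈ S, y j = y' j) :
    wt c y S = wt c y' S := by
  unfold wt
  rw [Finset.prod_congr rfl fun j hj => by rw [h j hj]]

omit [DecidableEq I] in
lemma Zs_congr {y y' : I → ℝ} (h : ∀ j ∈ F, y j = y' j) : Zs F c y = Zs F c y' :=
  Finset.sum_congr rfl fun S hS => wt_congr fun j hj => h j (Finset.mem_powerset.1 hS hj)

lemma mean_congr (i : I) {y y' : I → ℝ} (h : ∀ j ∈ F, y j = y' j) :
    mean F c i y = mean F c i y' := by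
  unfold mean Ns
  rw [Zs_congr h]
  congr 1
  exact Finset.sum_congr rfl fun S hS => by
    rw [wt_congr fun j hj => h j (Finset.mem_powerset.1 hS hj)]

lemma wt_tilt (y : I → ℝ) (A : Finset I) (s : ℝ) (S : Finset I) :
    wt c (tilt y A s) S = wt c y S * Real.exp s ^ (S ∩ A).card := by
  unfold wt tilt
  have : ∀ j ∈ S, Real.exp (if j ∈ A then y j + s else y j) =
      Real.exp (y j) * (if j ∈ A then Real.exp s else 1) := by
    intro j _; split_ifs <;> simp [Real.exp_add]
  rw [Finset.prod_congr rfl this, Finset.prod_mul_distrib, Finset.prod_ite_mem, Finset.prod_const,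
    mul_assoc]

omit [DecidableEq I] in
/-- Real specialisation (Hurwitz). -/
lemma IsSR.gen_ne_zero (h : IsSR F c) (z : I → ℂ)
    (hz : ∀ j ∈ F, 0 < (z j).im ∨ ((z j).im = 0 ∧ 0 < (z j).re)) : gen F c z ≠ 0 := by
  classical
  set H : ℝ → ℂ → ℂ := fun ε t =>
    gen F c (fun j => if 0 < (z j).im then z j + t * (1 - z j) else z j + ε * Complex.I) with hH
  have hcont : Continuous (fun q : ℝ × ℂ => H q.1 q.2) := by
    simp only [hH, gen]
    refine continuous_finsetSum _ fun S _ => continuous_const.mul ?_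
    refine continuous_finsetProd _ fun j _ => ?_
    split_ifs <;> fun_prop
  have hd : ∀ ε, Differentiable ℂ (H ε) := by
    intro ε
    simp only [hH, gen]
    refine Differentiable.fun_sum fun S _ => (differentiable_const _).mul ?_
    refine Differentiable.fun_finsetProd fun j _ => ?_
    split_ifs <;> fun_prop
  have hev : ∀ᶠ t in 𝓝 (0 : ℂ), ∀ j ∈ F, 0 < (z j).im → 0 < (z j + t * (1 - z j)).im := by
    rw [Filter.eventually_all_finset]
    intro j _
    by_cases hj : 0 < (z j).im
    · have hc : Continuous (fun t : ℂ => (z j + t * (1 - z j)).im) := by fun_prop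
      have := (hc.tendsto 0).eventually (lt_mem_nhds (show 0 < (z j + 0 * (1 - z j)).im by simpa))
      exact this.mono fun t ht _ => ht
    · exact Eventually.of_forall fun t h => absurd h hj
  obtain ⟨ρ, hρ, hball⟩ := Metric.eventually_nhds_iff_ball.1 hev
  have key := hurwitz_aux H hcont hd ρ hρ (fun ε hε t ht => by
    apply h.stable
    intro j hj
    by_cases hzj : 0 < (z j).im
    · simp only [hzj, if_true]; exact hball t ht j hj hzj
    · simp only [hzj, if_false]
      have := ((hz j hj).resolve_left hzj).1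
      simp [this, hε]) 1 (by
    have : H 0 1 = ((Zs F c (fun j => if 0 < (z j).im then 0 else Real.log (z j).re) : ℝ) : ℂ) := by
      simp only [hH, gen, Zs, wt]
      push_cast
      refine Finset.sum_congr rfl fun S hS => ?_
      congr 1
      refine Finset.prod_congr rfl fun j hj => ?_
      have hjF := Finset.mem_powerset.1 hS hj
      by_cases hzj : 0 < (z j).im
      · simp [hzj]
      · obtain ⟨h1, h2⟩ := (hz j hjF).resolve_left hzj
        simp only [hzj, if_false, zero_mul, add_zero]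
        rw [← Complex.ofReal_exp, Real.exp_log h2]
        exact Complex.ext rfl (by simpa using h1)
    rw [this]
    exact_mod_cast (h.Zs_pos _).ne')
  have : H 0 0 = gen F c z := by
    simp only [hH]
    congr 1
    ext j
    split_ifs <;> simp
  rwa [this] at key

noncomputable def cN (F : Finset I) (c : Finset I → ℝ) (i : I) (y : I → ℝ) (A : Finset I)
    (z : ℂ) : ℂ :=
  ∑ S ∈ F.powerset, ((if i ∈ S then wt c y S else 0 : ℝ) : ℂ) * z ^ (S ∩ A).card

noncomputable def cZ (F : Finset I) (c : Finset I → ℝ) (y : I → ℝ) (A : Finset I)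
    (z : ℂ) : ℂ :=
  ∑ S ∈ F.powerset, ((wt c y S : ℝ) : ℂ) * z ^ (S ∩ A).card

lemma IsSR.cZ_add_ne (h : IsSR F c) (i : I) (y : I → ℝ) {A : Finset I} (hi : i ∉ A) (z u : ℂ)
    (hz : 0 < z.im ∨ (z.im = 0 ∧ 0 < z.re)) (hu : 0 < u.im ∨ u = 1) :
    cZ F c y A z + (u - 1) * cN F c i y A z ≠ 0 := by
  have := h.gen_ne_zero (fun j => (Real.exp (y j) : ℂ) * (if j ∈ A then z else 1) *
    (if j = i then u else 1)) (by
      intro j _
      have he := Real.exp_pos (y j)
      by_cases hjA : j ∈ A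
      · have hji : j ≠ i := fun e => hi (e ▸ hjA)
        simp only [hjA, hji, if_true, if_false, mul_one, Complex.im_ofReal_mul,
          Complex.re_ofReal_mul]
        rcases hz with hz | hz
        · left; positivity
        · right; exact ⟨by rw [hz.1, mul_zero], mul_pos he hz.2⟩
      · by_cases hji : j = i
        · simp only [hjA, hji, hi, if_true, if_false, mul_one, Complex.im_ofReal_mul,
            Complex.re_ofReal_mul]
          rcases hu with hu | hu
          · left; exact mul_pos (Real.exp_pos _) hu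
          · right; subst hu; simp [Real.exp_pos]
        · simp only [hjA, hji, if_false, mul_one, Complex.ofReal_im, Complex.ofReal_re]
          right; exact ⟨trivial, he⟩)
  convert this using 1
  simp only [gen, cZ, cN, Finset.mul_sum, ← Finset.sum_add_distrib]
  refine Finset.sum_congr rfl fun S _ => ?_
  rw [Finset.prod_mul_distrib, Finset.prod_mul_distrib, Finset.prod_ite_mem, Finset.prod_const,
    Finset.prod_ite_eq']
  unfold wt
  split_ifs <;> push_cast <;> ring

lemma cZ_conj (y : I → ℝ) (A : Finset I) (z : ℂ) :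
    cZ F c y A ((starRingEnd ℂ) z) = (starRingEnd ℂ) (cZ F c y A z) := by
  simp only [cZ, map_sum, map_mul, map_pow, Complex.conj_ofReal]

lemma cN_conj (i : I) (y : I → ℝ) (A : Finset I) (z : ℂ) :
    cN F c i y A ((starRingEnd ℂ) z) = (starRingEnd ℂ) (cN F c i y A z) := by
  simp only [cN, map_sum, map_mul, map_pow, Complex.conj_ofReal]

lemma IsSR.cZ_ne (h : IsSR F c) (i : I) (y : I → ℝ) {A : Finset I} (hi : i ∉ A) (z : ℂ)
    (hz : 0 < z.re) : cZ F c y A z ≠ 0 := by
  rcases lt_trichotomy 0 z.im with h1 | h1 | h1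
  · simpa using h.cZ_add_ne i y hi z 1 (Or.inl h1) (Or.inr rfl)
  · simpa using h.cZ_add_ne i y hi z 1 (Or.inr ⟨h1.symm, hz⟩) (Or.inr rfl)
  · have := h.cZ_add_ne i y hi ((starRingEnd ℂ) z) 1 (Or.inl (by simpa using h1)) (Or.inr rfl)
    rw [cZ_conj] at this
    simpa using this

lemma IsSR.im_nonneg (h : IsSR F c) (i : I) (y : I → ℝ) {A : Finset I} (hi : i ∉ A) (z : ℂ)
    (hz : 0 < z.im) : 0 ≤ (-(cN F c i y A z / cZ F c y A z)).im := by
  by_contra hlt
  push Not at hlt
  have hZ : cZ F c y A z ≠ 0 := by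
    simpa using h.cZ_add_ne i y hi z 1 (Or.inl hz) (Or.inr rfl)
  have hN : cN F c i y A z ≠ 0 := by
    intro h0; rw [h0] at hlt; simp at hlt
  set q := cN F c i y A z / cZ F c y A z with hq
  have hq0 : q ≠ 0 := div_ne_zero hN hZ
  have hqim : 0 < q.im := by simpa using hlt
  apply h.cZ_add_ne i y hi z (1 - q⁻¹) (Or.inl hz) (Or.inl _)
  · rw [hq, inv_div]; field_simp; ring
  · have : 0 < Complex.normSq q := Complex.normSq_pos.2 hq0
    simp only [Complex.sub_im, Complex.one_im, Complex.inv_im, zero_sub]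
    rw [neg_div, neg_neg]
    positivity

noncomputable def dD (F : Finset I) (c : Finset I → ℝ) (i : I) (y : I → ℝ) (A : Finset I) : ℝ :=
  -(((∑ S ∈ F.powerset, (if i ∈ S then wt c y S else 0) * (S ∩ A).card) * Zs F c y -
    Ns F c i y * ∑ S ∈ F.powerset, wt c y S * (S ∩ A).card) / Zs F c y ^ 2)

lemma dD_eq_sum (i : I) (y : I → ℝ) (A : Finset I) :
    dD F c i y A = ∑ j ∈ A, dD F c i y {j} := by
  have hc : ∀ S : Finset I, ((S ∩ A).card : ℝ) = ∑ j ∈ A, ((S ∩ {j}).card : ℝ) := by
    intro S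
    have : ∀ j ∈ A, ((S ∩ {j}).card : ℝ) = if j ∈ S then 1 else 0 := by
      intro j _
      by_cases hj : j ∈ S
      · simp [hj]
      · simp [hj]
    rw [Finset.sum_congr rfl this, Finset.sum_ite_mem, Finset.inter_comm]
    simp
  unfold dD
  simp only [hc, Finset.mul_sum]
  rw [Finset.sum_comm, Finset.sum_comm (s := F.powerset), Finset.sum_neg_distrib,
    ← Finset.sum_div, Finset.sum_sub_distrib, Finset.sum_mul]

lemma cZ_exp (y : I → ℝ) (A : Finset I) (s : ℝ) :
    cZ F c y A (Real.exp s : ℝ) = (Zs F c (tilt y A s) : ℝ) := by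
  simp only [cZ, Zs, wt_tilt]; push_cast; rfl

lemma cN_exp (i : I) (y : I → ℝ) (A : Finset I) (s : ℝ) :
    cN F c i y A (Real.exp s : ℝ) = (Ns F c i (tilt y A s) : ℝ) := by
  simp only [cN, Ns, wt_tilt]; push_cast
  refine Finset.sum_congr rfl fun S _ => ?_
  split_ifs <;> simp

lemma tilt_zero (y : I → ℝ) (A : Finset I) : tilt y A 0 = y := by
  ext j; simp [tilt]

/-- The Harnack constant for fields of size at most `|s|`. -/
noncomputable def kap (s : ℝ) : ℝ :=
  Classical.choose (harnack_pick (Real.exp (-|s|)) (Real.exp |s|) (Real.exp_pos _)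
    (Real.exp_le_one_iff.2 (by simp)) (Real.one_le_exp (abs_nonneg s)))

lemma kap_pos (s : ℝ) : 0 < kap s :=
  (Classical.choose_spec (harnack_pick (Real.exp (-|s|)) (Real.exp |s|) (Real.exp_pos _)
    (Real.exp_le_one_iff.2 (by simp)) (Real.one_le_exp (abs_nonneg s)))).1

lemma IsSR.pick (h : IsSR F c) (i : I) (y : I → ℝ) {A : Finset I} (hi : i ∉ A) (s₀ : ℝ) :
    0 ≤ dD F c i y A ∧ ∀ s : ℝ, |s| ≤ |s₀| → ∃ d : ℝ, 0 ≤ d ∧ d ≤ kap s₀ * dD F c i y A ∧
      dD F c i y A ≤ kap s₀ * d ∧
      mean F c i y - mean F c i (tilt y A s) = (Real.exp s - 1) * d := by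
  have hk := (Classical.choose_spec (harnack_pick (Real.exp (-|s₀|)) (Real.exp |s₀|)
    (Real.exp_pos _) (Real.exp_le_one_iff.2 (by simp)) (Real.one_le_exp (abs_nonneg s₀)))).2
  set φ : ℂ → ℂ := fun z => -(cN F c i y A z / cZ F c y A z) with hφ
  have hdN : Differentiable ℂ (cN F c i y A) := by unfold cN; fun_prop
  have hdZ : Differentiable ℂ (cZ F c y A) := by unfold cZ; fun_prop
  have hφd : DifferentiableOn ℂ φ {z | 0 < z.re} :=
    (hdN.differentiableOn.div hdZ.differentiableOn fun z hz => h.cZ_ne i y hi z hz).neg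
  have hφim : ∀ z : ℂ, 0 < z.re → 0 ≤ z.im * (φ z).im := by
    intro z _
    rcases lt_trichotomy 0 z.im with h1 | h1 | h1
    · exact mul_nonneg h1.le (h.im_nonneg i y hi z h1)
    · rw [← h1, zero_mul]
    · have := h.im_nonneg i y hi ((starRingEnd ℂ) z) (by simpa using h1)
      rw [cZ_conj, cN_conj, ← map_div₀, ← map_neg, Complex.conj_im] at this
      exact mul_nonneg_of_nonpos_of_nonpos h1.le (by simp only [hφ]; linarith)
  have hφe : ∀ s : ℝ, φ (Real.exp s : ℝ) = ((-mean F c i (tilt y A s) : ℝ) : ℂ) := by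
    intro s
    simp only [hφ, cZ_exp, cN_exp, mean]; push_cast; rfl
  have hφ1 : φ 1 = ((-mean F c i y : ℝ) : ℂ) := by
    have := hφe 0
    rwa [tilt_zero, Real.exp_zero, Complex.ofReal_one] at this
  have hZ1 : cZ F c y A 1 = (Zs F c y : ℝ) := by
    have := cZ_exp (F := F) (c := c) y A 0
    rwa [tilt_zero, Real.exp_zero, Complex.ofReal_one] at this
  have hN1 : cN F c i y A 1 = (Ns F c i y : ℝ) := by
    have := cN_exp (F := F) (c := c) i y A 0
    rwa [tilt_zero, Real.exp_zero, Complex.ofReal_one] at this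
  have hderiv : deriv φ 1 = (dD F c i y A : ℝ) := by
    have h1 : HasDerivAt (cN F c i y A)
        (∑ S ∈ F.powerset, ((if i ∈ S then wt c y S else 0 : ℝ) : ℂ) *
          (((S ∩ A).card : ℂ) * 1 ^ ((S ∩ A).card - 1))) 1 := by
      unfold cN
      exact HasDerivAt.fun_sum fun S _ => (hasDerivAt_pow _ _).const_mul _
    have h2 : HasDerivAt (cZ F c y A)
        (∑ S ∈ F.powerset, ((wt c y S : ℝ) : ℂ) *
          (((S ∩ A).card : ℂ) * 1 ^ ((S ∩ A).card - 1))) 1 := by
      unfold cZ
      exact HasDerivAt.fun_sum fun S _ => (hasDerivAt_pow _ _).const_mul _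
    have h3 := (h1.div h2 (h.cZ_ne i y hi 1 (by simp))).neg
    have h4 := h3.deriv
    rw [hZ1, hN1] at h4
    refine Eq.trans ?_ (h4.trans ?_)
    · rfl
    · unfold dD; push_cast; simp
  obtain ⟨h0, hx⟩ := hk φ hφd hφim (by rw [hφ1]; exact Complex.ofReal_im _)
  rw [hderiv, Complex.ofReal_re] at h0 hx
  refine ⟨h0, fun s hs => ?_⟩
  obtain ⟨d, hd0, hd1, hd2, hd3⟩ := hx (Real.exp s)
    (Real.exp_le_exp.2 (by linarith [neg_abs_le s])) (Real.exp_le_exp.2 (by linarith [le_abs_self s]))
  refine ⟨d, hd0, hd1, hd2, ?_⟩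
  rw [hφe, hφ1, Complex.ofReal_re, Complex.ofReal_re] at hd3
  linarith

lemma IsSR.mono_tilt (h : IsSR F c) (i : I) (y : I → ℝ) {A : Finset I} (hi : i ∉ A) {s : ℝ}
    (hs : 0 ≤ s) : mean F c i (tilt y A s) ≤ mean F c i y := by
  obtain ⟨d, hd0, -, -, hd⟩ := (h.pick i y hi s).2 s le_rfl
  have : 0 ≤ (Real.exp s - 1) * d := mul_nonneg (by linarith [Real.one_le_exp hs]) hd0
  linarith

lemma IsSR.mono (h : IsSR F c) (i : I) {y y' : I → ℝ} (hle : ∀ j ∈ F, y j ≤ y' j)
    (hi : y i = y' i) : mean F c i y' ≤ mean F c i y := by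
  have key : ∀ A : Finset I, A ⊆ F →
      mean F c i (fun j => if j ∈ A then y' j else y j) ≤ mean F c i y := by
    intro A
    induction A using Finset.induction_on with
    | empty => intro _; simp
    | insert a A ha ih =>
      intro hA
      have hA' : A ⊆ F := (Finset.subset_insert _ _).trans hA
      have haF : a ∈ F := hA (Finset.mem_insert_self _ _)
      refine le_trans ?_ (ih hA')
      by_cases hai : a = i
      · apply le_of_eq
        congr 1
        ext j
        by_cases hj : j = a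
        · subst hj; subst hai; simp [ha, hi]
        · simp [hj]
      · have := h.mono_tilt i (fun j => if j ∈ A then y' j else y j) (A := {a})
          (by simpa using fun e => hai e.symm) (s := y' a - y a) (by linarith [hle a haF])
        refine le_trans (le_of_eq ?_) this
        congr 1
        ext j
        by_cases hj : j = a
        · subst hj; simp [tilt, ha]
        · simp [tilt, hj]
  have := key F le_rfl
  rwa [mean_congr i (y' := y') (fun j hj => by simp [hj])] at this

lemma exp_one_sub_one_ge : 1 ≤ Real.exp 1 - 1 := by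
  have := Real.add_one_le_exp 1; linarith

lemma IsSR.dD_single_le (h : IsSR F c) (i : I) (y : I → ℝ) {j : I} (hj : j ≠ i) :
    dD F c i y {j} ≤ kap 1 * (mean F c i y - mean F c i (tilt y {j} 1)) := by
  obtain ⟨d, hd0, -, hd2, hd⟩ := (h.pick i y (A := {j}) (by simpa using hj.symm) 1).2 1 le_rfl
  rw [hd]
  refine hd2.trans (mul_le_mul_of_nonneg_left ?_ (kap_pos 1).le)
  nlinarith [exp_one_sub_one_ge]

lemma IsSR.dD_le (h : IsSR F c) (i : I) (y : I → ℝ) {A : Finset I} (hi : i ∉ A) :
    dD F c i y A ≤ kap 1 := by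
  obtain ⟨d, hd0, -, hd2, hd⟩ := (h.pick i y hi 1).2 1 le_rfl
  have h1 := mean_le_one (F := F) h.nonneg i y
  have h2 := mean_nonneg (F := F) h.nonneg i (tilt y A 1)
  have : d ≤ 1 := by nlinarith [exp_one_sub_one_ge]
  nlinarith [kap_pos 1]

/-- (P2): the total influence of the other sites on site `i` is bounded. -/
lemma IsSR.sum_infl_le (h : IsSR F c) (i : I) (y : I → ℝ) {A : Finset I} (hi : i ∉ A) :
    ∑ j ∈ A, (mean F c i y - mean F c i (tilt y {j} 1)) ≤ 2 * kap 1 ^ 2 := by
  have h1 : ∀ j ∈ A, mean F c i y - mean F c i (tilt y {j} 1) ≤ 2 * kap 1 * dD F c i y {j} := by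
    intro j hj
    have hji : i ∉ ({j} : Finset I) := by
      simp only [Finset.mem_singleton]; rintro rfl; exact hi hj
    obtain ⟨d, hd0, hd1, -, hd⟩ := (h.pick i y hji 1).2 1 le_rfl
    rw [hd]
    have : Real.exp 1 - 1 ≤ 2 := by have := Real.exp_one_lt_d9; linarith
    nlinarith
  refine (Finset.sum_le_sum h1).trans ?_
  rw [← Finset.mul_sum, ← dD_eq_sum]
  have := h.dD_le i y hi
  nlinarith [kap_pos 1]

/-- (P1): a bounded field on a set `A` has an effect bounded by the sum of influences. -/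
lemma IsSR.abs_tilt_le (h : IsSR F c) (i : I) (y : I → ℝ) {A : Finset I} (hi : i ∉ A)
    {s s₀ : ℝ} (hs : |s| ≤ s₀) :
    |mean F c i y - mean F c i (tilt y A s)| ≤ Real.exp s₀ * kap s₀ * kap 1 *
      ∑ j ∈ A, (mean F c i y - mean F c i (tilt y {j} 1)) := by
  have hs0 : 0 ≤ s₀ := (abs_nonneg s).trans hs
  obtain ⟨d, hd0, hd1, -, hd⟩ := (h.pick i y hi s₀).2 s (hs.trans (le_abs_self _))
  have h1 : dD F c i y A ≤ kap 1 * ∑ j ∈ A, (mean F c i y - mean F c i (tilt y {j} 1)) := by
    rw [dD_eq_sum, Finset.mul_sum]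
    exact Finset.sum_le_sum fun j hj => h.dD_single_le i y (by rintro rfl; exact hi hj)
  have h2 : |Real.exp s - 1| ≤ Real.exp s₀ := by
    rw [abs_le]
    have := Real.exp_pos s
    have := Real.one_le_exp hs0
    have := Real.exp_le_exp.2 ((le_abs_self s).trans hs)
    constructor <;> linarith
  rw [hd, abs_mul, abs_of_nonneg hd0]
  calc |Real.exp s - 1| * d ≤ Real.exp s₀ * (kap s₀ * dD F c i y A) :=
        mul_le_mul h2 hd1 hd0 (Real.exp_pos _).le
    _ ≤ Real.exp s₀ * (kap s₀ * (kap 1 * ∑ j ∈ A, (mean F c i y - mean F c i (tilt y {j} 1)))) := by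
        have := kap_pos s₀
        gcongr
    _ = _ := by ring

lemma IsSR.self_tilt_le (h : IsSR F c) (i : I) (y : I → ℝ) (s : ℝ) :
    mean F c i (tilt y {i} s) ≤ mean F c i y + |s| := by
  have hN : Ns F c i (tilt y {i} s) = Real.exp s * Ns F c i y := by
    simp only [Ns, wt_tilt, Finset.mul_sum]
    refine Finset.sum_congr rfl fun S _ => ?_
    by_cases hi : i ∈ S
    · simp [hi, mul_comm]
    · simp [hi]
  have hZ : Zs F c (tilt y {i} s) = Zs F c y + (Real.exp s - 1) * Ns F c i y := by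
    simp only [Zs, Ns, wt_tilt, Finset.mul_sum, ← Finset.sum_add_distrib]
    refine Finset.sum_congr rfl fun S _ => ?_
    by_cases hi : i ∈ S
    · simp [hi]; ring
    · simp [hi]
  have hZ0 := h.Zs_pos y
  have hZ1 := h.Zs_pos (tilt y {i} s)
  have hN0 := Ns_nonneg (F := F) h.nonneg i y
  have hNZ := Ns_le_Zs (F := F) h.nonneg i y
  have hm1 := mean_le_one (F := F) h.nonneg i (tilt y {i} s)
  have he := Real.exp_pos s
  rcases le_total s 0 with hs | hs
  · have he1 : Real.exp s ≤ 1 := Real.exp_le_one_iff.2 hs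
    have : mean F c i (tilt y {i} s) ≤ mean F c i y := by
      unfold mean
      rw [div_le_div_iff₀ hZ1 hZ0, hN, hZ]
      nlinarith [mul_nonneg hN0 (sub_nonneg.2 hNZ)]
    linarith [abs_nonneg s]
  · have he1 : 1 ≤ Real.exp s := Real.one_le_exp hs
    have h1 : Real.exp (-s) * mean F c i (tilt y {i} s) ≤ mean F c i y := by
      unfold mean
      rw [hN, ← mul_div_assoc, ← mul_assoc, ← Real.exp_add, neg_add_cancel, Real.exp_zero, one_mul]
      apply div_le_div_of_nonneg_left hN0 hZ0
      rw [hZ]; nlinarith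
    have h2 := Real.add_one_le_exp (-s)
    have h3 := mean_nonneg (F := F) h.nonneg i (tilt y {i} s)
    rw [abs_of_nonneg hs]
    nlinarith

/-- The universal Lipschitz constant. -/
noncomputable def Lc : ℝ := 2 * kap 1 ^ 2 + 1

lemma one_le_Lc : 1 ≤ Lc := by unfold Lc; nlinarith [sq_nonneg (kap 1)]

lemma IsSR.le_add_lip (h : IsSR F c) (i : I) {y y' : I → ℝ} {δ : ℝ} (hδ : 0 ≤ δ)
    (hy : ∀ j ∈ F, |y j - y' j| ≤ δ) : mean F c i y' ≤ mean F c i y + Lc * δ := by
  by_cases hiF : i ∈ F
  swap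
  · have : mean F c i y' = 0 := by
      unfold mean Ns
      rw [Finset.sum_eq_zero, zero_div]
      intro S hS
      rw [if_neg fun hi => hiF (Finset.mem_powerset.1 hS hi)]
    rw [this]
    have := mean_nonneg (F := F) h.nonneg i y
    have := one_le_Lc
    positivity
  rcases le_total 1 δ with h1 | h1
  · have := mean_nonneg (F := F) h.nonneg i y
    have := mean_le_one (F := F) h.nonneg i y'
    nlinarith [one_le_Lc]
  set w := tilt y {i} (y' i - y i) with hw
  have e1 : mean F c i w ≤ mean F c i y + δ := by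
    refine (h.self_tilt_le i y _).trans ?_
    have := hy i hiF
    rw [abs_sub_comm] at this
    linarith
  have hi : i ∉ F.erase i := Finset.notMem_erase i F
  have e2 : mean F c i y' ≤ mean F c i (tilt w (F.erase i) (-δ)) := by
    apply h.mono
    · intro j hj
      by_cases hji : j = i
      · subst hji; simp [tilt, hw]
      · have := abs_le.1 (hy j hj)
        simp only [tilt, hw, Finset.mem_erase, ne_eq, hji, not_false_eq_true, hj, and_self,
          if_true, Finset.mem_singleton, if_false]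
        linarith
    · simp [tilt, hw]
  obtain ⟨d, hd0, hd1, -, hd⟩ := (h.pick i w hi 1).2 (-δ) (by
    rw [abs_neg, abs_of_nonneg hδ, abs_one]; exact h1)
  have e3 := h.dD_le i w hi
  have e4 := Real.add_one_le_exp (-δ)
  have e5 : d ≤ kap 1 ^ 2 := by nlinarith [kap_pos 1]
  unfold Lc
  nlinarith [sq_nonneg (kap 1)]

lemma IsSR.lip (h : IsSR F c) (i : I) {y y' : I → ℝ} {δ : ℝ} (hδ : 0 ≤ δ)
    (hy : ∀ j ∈ F, |y j - y' j| ≤ δ) : |mean F c i y - mean F c i y'| ≤ Lc * δ := by
  have h1 := h.le_add_lip i hδ hy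
  have h2 := h.le_add_lip i hδ (y := y') (y' := y) (fun j hj => by rw [abs_sub_comm]; exact hy j hj)
  rw [abs_le]; constructor <;> linarith

/-- Deleting sites increases the mean. -/
lemma IsSR.mean_le_of_subset (h : IsSR F c) {F' : Finset I} (hF : F' ⊆ F) {i : I} (hi : i ∈ F')
    (hp : ∃ S ∈ F'.powerset, 0 < c S) (y : I → ℝ) : mean F c i y ≤ mean F' c i y := by
  have key : ∀ g : Finset I → ℝ, Tendsto (fun s : ℝ => ∑ S ∈ F.powerset,
      g S * Real.exp (-s) ^ (S ∩ (F \ F')).card) atTop (𝓝 (∑ S ∈ F'.powerset, g S)) := by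
    intro g
    have : ∑ S ∈ F'.powerset, g S = ∑ S ∈ F.powerset, if S ∈ F'.powerset then g S else 0 := by
      rw [Finset.sum_ite_mem, Finset.inter_eq_right.2 (Finset.powerset_mono.2 hF)]
    rw [this]
    refine tendsto_finsetSum _ fun S hS => ?_
    by_cases hS' : S ∈ F'.powerset
    · have : S ∩ (F \ F') = ∅ := by
        rw [← Finset.disjoint_iff_inter_eq_empty]
        exact Finset.disjoint_of_subset_left (Finset.mem_powerset.1 hS') Finset.disjoint_sdiff
      simp [this, Finset.mem_powerset.1 hS']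
    · have hne : (S ∩ (F \ F')).card ≠ 0 := by
        rw [Finset.mem_powerset, Finset.not_subset] at hS'
        obtain ⟨a, ha, ha'⟩ := hS'
        exact Finset.card_ne_zero.2 ⟨a, by
          simp [ha, ha', Finset.mem_powerset.1 hS ha]⟩
      rw [if_neg hS']
      have := (Real.tendsto_exp_neg_atTop_nhds_zero.pow (S ∩ (F \ F')).card).const_mul (g S)
      simpa [hne] using this
  have hlim : Tendsto (fun s : ℝ => mean F c i (tilt y (F \ F') (-s))) atTop
      (𝓝 (mean F' c i y)) := by
    unfold mean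
    apply Tendsto.div _ _ (Zs_pos' h.nonneg hp y).ne'
    · have := key (fun S => if i ∈ S then wt c y S else 0)
      refine this.congr fun s => ?_
      simp only [Ns, wt_tilt]
      refine Finset.sum_congr rfl fun S _ => ?_
      split_ifs <;> simp
    · have := key (fun S => wt c y S)
      refine this.congr fun s => ?_
      simp only [Zs, wt_tilt]
  refine ge_of_tendsto hlim ?_
  filter_upwards [eventually_ge_atTop 0] with s hs
  apply h.mono
  · intro j _
    simp only [tilt]; split_ifs <;> linarith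
  · simp [tilt, hi]

end Crest.Agent.H5
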