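import Mathlib
import Crest.Agent.H5.SR
import Crest.Agent.H5.Lap

/-! Coordinate-by-coordinate exact transport of the tilted mixture in finite volume. -/

set_option autoImplicit false

namespace Crest.Agent.H5

open Filter Topology Set MeasureTheory Function
open scoped ENNReal

variable {I : Type*} [DecidableEq I] {F : Finset I} {c : Finset I → ℝ}

lemma lT_mem {A B t δ : ℝ} (hA : 0 ≤ A) (hB : 0 ≤ B) (hAB : 0 < A + B) (hδ : 0 ≤ δ) (x : ℝ) :
    |lT A B t δ x - x| ≤ δ := by
  have h1 := (lT_le_iff (t := t) hA hB hAB hδ x (x + δ)).2 (lG_le_shift hA hδ x)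
  have h2 := (lT_le_iff (t := t) hA hB hAB hδ x _).1 le_rfl
  have h3 := (lG_strictMono hA hB hAB t).le_iff_le.1 (h2.trans (lG_shift_le hB hδ _))
  rw [abs_le]; constructor <;> linarith

lemma Ns_update (i : I) (y : I → ℝ) (s : ℝ) :
    Ns F c i (update y i s) = Ns F c i (update y i 0) * Real.exp s := by
  have : update y i s = tilt (update y i 0) {i} s := by
    ext j; by_cases hj : j = i
    · subst hj; simp [tilt]
    · simp [tilt, hj]
  rw [this]
  simp only [Ns, wt_tilt, Finset.sum_mul]
  refine Finset.sum_congr rfl fun S _ => ?_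
  by_cases hi : i ∈ S
  · simp [hi]
  · simp [hi]

lemma Zs_update (i : I) (y : I → ℝ) (s : ℝ) :
    Zs F c (update y i s) = (Zs F c (update y i 0) - Ns F c i (update y i 0)) +
      Ns F c i (update y i 0) * Real.exp s := by
  have : update y i s = tilt (update y i 0) {i} s := by
    ext j; by_cases hj : j = i
    · subst hj; simp [tilt]
    · simp [tilt, hj]
  rw [this]
  simp only [Zs, Ns, wt_tilt, Finset.sum_mul, ← Finset.sum_add_distrib, ← Finset.sum_sub_distrib]
  refine Finset.sum_congr rfl fun S _ => ?_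
  by_cases hi : i ∈ S
  · simp [hi]
  · simp [hi]

omit [DecidableEq I] in
lemma measurable_wt (S : Finset I) : Measurable fun y => wt c y S := by
  unfold wt
  exact measurable_const.mul (Finset.measurable_fun_prod _ fun j _ => by fun_prop)

omit [DecidableEq I] in
lemma measurable_Zs : Measurable (Zs F c) :=
  Finset.measurable_fun_sum _ fun S _ => measurable_wt S

lemma measurable_Ns (i : I) : Measurable (Ns F c i) := by
  refine Finset.measurable_fun_sum _ fun S _ => ?_
  split_ifs
  exacts [measurable_wt S, measurable_const]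

lemma measurable_mean (i : I) : Measurable (mean F c i) := (measurable_Ns i).div measurable_Zs

def fld (τ x : I → ℝ) : I → ℝ := fun j => ell (τ j) (x j)

omit [DecidableEq I] in
lemma measurable_fld (τ : I → ℝ) : Measurable (fld τ) :=
  measurable_pi_lambda _ fun j => (continuous_ell (τ j)).measurable.comp (measurable_pi_apply j)

noncomputable def rho (F : Finset I) (c : Finset I → ℝ) (τ x : I → ℝ) : ℝ≥0∞ :=
  ENNReal.ofReal (Zs F c (fld τ x))

omit [DecidableEq I] in
lemma measurable_rho (τ : I → ℝ) : Measurable (rho F c τ) :=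
  (measurable_Zs.comp (measurable_fld τ)).ennreal_ofReal

noncomputable def cB (F : Finset I) (c : Finset I → ℝ) (j : I) (τ x : I → ℝ) : ℝ :=
  Ns F c j (update (fld τ x) j 0)

noncomputable def cA (F : Finset I) (c : Finset I → ℝ) (j : I) (τ x : I → ℝ) : ℝ :=
  Zs F c (update (fld τ x) j 0) - Ns F c j (update (fld τ x) j 0)

noncomputable def step (F : Finset I) (c : Finset I → ℝ) (δ : ℝ) (j : I) (τ x : I → ℝ) : I → ℝ :=
  update x j (lT (cA F c j τ x) (cB F c j τ x) (τ j) δ (x j))

lemma IsSR.cA_nonneg (h : IsSR F c) (j : I) (τ x : I → ℝ) : 0 ≤ cA F c j τ x :=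
  sub_nonneg.2 (Ns_le_Zs h.nonneg _ _)

lemma IsSR.cB_nonneg (h : IsSR F c) (j : I) (τ x : I → ℝ) : 0 ≤ cB F c j τ x :=
  Ns_nonneg h.nonneg _ _

lemma IsSR.cAB_pos (h : IsSR F c) (j : I) (τ x : I → ℝ) : 0 < cA F c j τ x + cB F c j τ x := by
  unfold cA cB; rw [sub_add_cancel]; exact h.Zs_pos _

lemma fld_update (τ x : I → ℝ) (j : I) (t u : ℝ) :
    fld (update τ j t) (update x j u) = update (fld τ x) j (ell t u) := by
  ext k; by_cases hk : k = j
  · subst hk; simp [fld]
  · simp [fld, hk]

lemma rho_update (τ x : I → ℝ) (j : I) (t u : ℝ) :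
    rho F c (update τ j t) (update x j u) = dens (cA F c j τ x) (cB F c j τ x) t u := by
  rw [rho, fld_update, Zs_update]; rfl

lemma cA_update (τ x : I → ℝ) (j : I) (u : ℝ) : cA F c j τ (update x j u) = cA F c j τ x := by
  have := fld_update τ x j (τ j) u
  rw [update_eq_self] at this
  simp [cA, this]

lemma cB_update (τ x : I → ℝ) (j : I) (u : ℝ) : cB F c j τ (update x j u) = cB F c j τ x := by
  have := fld_update τ x j (τ j) u
  rw [update_eq_self] at this
  simp [cB, this]

lemma IsSR.measurable_step (h : IsSR F c) {δ : ℝ} (hδ : 0 ≤ δ) (j : I) (τ : I → ℝ) :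
    Measurable (step F c δ j τ) := by
  have h0 : Measurable fun x => update (fld τ x) j 0 :=
    measurable_update_left.comp (measurable_fld τ)
  have hA : Measurable (cA F c j τ) := (measurable_Zs.comp h0).sub ((measurable_Ns j).comp h0)
  have hB : Measurable (cB F c j τ) := (measurable_Ns j).comp h0
  have hH := continuous_lH.measurable
  have hT : Measurable fun x => lT (cA F c j τ x) (cB F c j τ x) (τ j) δ (x j) := by
    refine measurable_of_Iic fun u => ?_
    have : (fun x => lT (cA F c j τ x) (cB F c j τ x) (τ j) δ (x j)) ⁻¹' Iic u =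
        {x | lG (cA F c j τ x) (cB F c j τ x) (τ j) (x j) ≤
          lG (cA F c j τ x) (cB F c j τ x) (τ j + δ) u} := by
      ext x; exact lT_le_iff (h.cA_nonneg _ _ _) (h.cB_nonneg _ _ _) (h.cAB_pos _ _ _) hδ _ _
    rw [this]
    unfold lG
    exact measurableSet_le (by fun_prop) (by fun_prop)
  refine measurable_pi_lambda _ fun k => ?_
  by_cases hk : k = j
  · subst hk; simpa [step] using hT
  · simpa [step, hk] using measurable_pi_apply k

lemma IsSR.step_marg (h : IsSR F c) {δ : ℝ} (hδ : 0 ≤ δ) {j : I} (hj : j ∈ F) (τ : I → ℝ)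
    {φ : (I → ℝ) → ℝ≥0∞} (hφ : Measurable φ) :
    lmarginal (fun _ => eta) F (fun x => rho F c τ x * φ (step F c δ j τ x)) =
      lmarginal (fun _ => eta) F (fun x => rho F c (update τ j (τ j + δ)) x * φ x) := by
  refine lmarginal_eq_of_subset (s := {j}) (by simpa using hj)
    ((measurable_rho τ).mul (hφ.comp (h.measurable_step hδ j τ))) ((measurable_rho _).mul hφ) ?_
  rw [lmarginal_singleton, lmarginal_singleton]
  ext x
  have := lintegral_lT (t := τ j) (h.cA_nonneg j τ x) (h.cB_nonneg j τ x) (h.cAB_pos j τ x) hδ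
    (φ := fun u => φ (update x j u)) (hφ.comp (measurable_update x))
  simp only [rho_update]
  rw [← this]
  refine lintegral_congr fun u => ?_
  rw [← rho_update, update_eq_self]
  simp [step, cA_update, cB_update]

lemma IsSR.step_approx (h : IsSR F c) {δ : ℝ} (hδ : 0 ≤ δ) (hδ8 : δ ≤ 1 / 8) (j : I)
    (τ x : I → ℝ) : |step F c δ j τ x j - x j - δ * mean F c j (fld τ x)| ≤ 8 * δ ^ 2 := by
  have := lT_approx (t := τ j) (h.cA_nonneg j τ x) (h.cB_nonneg j τ x) (h.cAB_pos j τ x) hδ hδ8
    (x j)
  have e : mean F c j (fld τ x) = cB F c j τ x * Real.exp (ell (τ j) (x j)) /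
      (cA F c j τ x + cB F c j τ x * Real.exp (ell (τ j) (x j))) := by
    have : fld τ x = update (fld τ x) j (ell (τ j) (x j)) := (update_eq_self j (fld τ x)).symm
    rw [mean, this, Ns_update, Zs_update]; rfl
  rw [e]
  simpa [step] using this

noncomputable def sweepL (F : Finset I) (c : Finset I → ℝ) (δ : ℝ) :
    List I → (I → ℝ) → (I → ℝ) → (I → ℝ)
  | [], _, x => x
  | j :: l, τ, x => sweepL F c δ l (update τ j (τ j + δ)) (step F c δ j τ x)

lemma IsSR.measurable_sweepL (h : IsSR F c) {δ : ℝ} (hδ : 0 ≤ δ) (l : List I) (τ : I → ℝ) :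
    Measurable (sweepL F c δ l τ) := by
  induction l generalizing τ with
  | nil => exact measurable_id
  | cons j l ih => exact (ih _).comp (h.measurable_step hδ j τ)

lemma IsSR.sweepL_marg (h : IsSR F c) {δ : ℝ} (hδ : 0 ≤ δ) (l : List I) (hl : l.Nodup)
    (hlF : ∀ j ∈ l, j ∈ F) (τ : I → ℝ) {φ : (I → ℝ) → ℝ≥0∞} (hφ : Measurable φ) :
    lmarginal (fun _ => eta) F (fun x => rho F c τ x * φ (sweepL F c δ l τ x)) =
      lmarginal (fun _ => eta) F
        (fun x => rho F c (fun j => if j ∈ l then τ j + δ else τ j) x * φ x) := by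
  induction l generalizing τ with
  | nil => simp [sweepL]
  | cons j l ih =>
    rw [List.nodup_cons] at hl
    have := h.step_marg hδ (hlF j (by simp)) τ
      (φ := fun x => φ (sweepL F c δ l (update τ j (τ j + δ)) x))
      (hφ.comp (h.measurable_sweepL hδ l _))
    simp only [sweepL]
    rw [this, ih hl.2 (fun k hk => hlF k (by simp [hk]))]
    congr 1
    ext x
    congr 2
    ext k
    by_cases hk : k = j
    · subst hk; simp [hl.1]
    · simp [hk]

noncomputable def Dc : ℝ := 8 + 3 * Lc

lemma IsSR.sweepL_approx (h : IsSR F c) {δ : ℝ} (hδ : 0 ≤ δ) (hδ8 : δ ≤ 1 / 8) (t : ℝ)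
    (x₀ : I → ℝ) (l : List I) (hl : l.Nodup) (τ x : I → ℝ) (h1 : ∀ k, |τ k - t| ≤ δ)
    (h2 : ∀ k ∈ l, τ k = t ∧ x k = x₀ k) (h3 : ∀ k, |x k - x₀ k| ≤ δ) (j : I) :
    (j ∈ l → |sweepL F c δ l τ x j - x₀ j - δ * mean F c j (fld (fun _ => t) x₀)| ≤ Dc * δ ^ 2) ∧
      (j ∉ l → sweepL F c δ l τ x j = x j) := by
  induction l generalizing τ x with
  | nil => simp [sweepL]
  | cons i l ih =>
    rw [List.nodup_cons] at hl
    have hi := h2 i (by simp)
    have key := ih hl.2 (update τ i (τ i + δ)) (step F c δ i τ x)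
      (fun k => by
        by_cases hk : k = i
        · subst hk; simp [hi.1, abs_of_nonneg hδ]
        · simpa [hk] using h1 k)
      (fun k hk => by
        have hki : k ≠ i := fun e => hl.1 (e ▸ hk)
        simpa [step, hki] using h2 k (by simp [hk]))
      (fun k => by
        by_cases hk : k = i
        · subst hk
          rw [← hi.2]
          simpa [step] using lT_mem (t := τ k) (h.cA_nonneg k τ x) (h.cB_nonneg k τ x)
            (h.cAB_pos k τ x) hδ (x k)
        · simpa [step, hk] using h3 k)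
    simp only [sweepL]
    refine ⟨fun hj => ?_, fun hj => ?_⟩
    · by_cases hjl : j ∈ l
      · exact key.1 hjl
      · have hji : j = i := by simpa [hjl] using hj
        subst hji
        rw [key.2 hjl, ← hi.2]
        have e1 := h.step_approx hδ hδ8 j τ x
        have e2 := h.lip j (y := fld τ x) (y' := fld (fun _ => t) x₀) (δ := 3 * δ) (by positivity)
          (fun k _ => (ell_lip _ _ _ _).trans (by linarith [h1 k, h3 k]))
        have e3 : |δ * mean F c j (fld τ x) - δ * mean F c j (fld (fun _ => t) x₀)| ≤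
            δ * (Lc * (3 * δ)) := by
          rw [← mul_sub, abs_mul, abs_of_nonneg hδ]; gcongr
        have := abs_le.1 e1
        have := abs_le.1 e3
        unfold Dc
        rw [abs_le]; constructor <;> nlinarith
    · rw [List.mem_cons, not_or] at hj
      rw [key.2 hj.2]
      simp [step, hj.1]

/-- the exactly transported process -/
noncomputable def Wp (F : Finset I) (c : Finset I → ℝ) (δ : ℝ) : ℕ → (I → ℝ) → (I → ℝ)
  | 0, x => x
  | k + 1, x => sweepL F c δ F.toList (fun _ => k * δ) (Wp F c δ k x)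

lemma IsSR.measurable_Wp (h : IsSR F c) {δ : ℝ} (hδ : 0 ≤ δ) (k : ℕ) :
    Measurable (Wp F c δ k) := by
  induction k with
  | zero => exact measurable_id
  | succ k ih => exact (h.measurable_sweepL hδ _ _).comp ih

lemma IsSR.Wp_marg (h : IsSR F c) (hn : ∑ S ∈ F.powerset, c S = 1) {δ : ℝ} (hδ : 0 ≤ δ) (k : ℕ)
    {φ : (I → ℝ) → ℝ≥0∞} (hφ : Measurable φ) :
    lmarginal (fun _ => eta) F (fun x => φ (Wp F c δ k x)) =
      lmarginal (fun _ => eta) F (fun x => rho F c (fun _ => k * δ) x * φ x) := by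
  induction k generalizing φ with
  | zero =>
    congr 1
    ext x
    have : rho F c (fun _ => ((0 : ℕ) : ℝ) * δ) x = 1 := by
      simp [rho, Zs, wt, fld, ell_zero, hn]
    rw [this, one_mul]; rfl
  | succ k ih =>
    simp only [Wp]
    rw [ih (φ := fun x => φ (sweepL F c δ F.toList (fun _ => k * δ) x))
      (hφ.comp (h.measurable_sweepL hδ _ _)),
      h.sweepL_marg hδ _ F.nodup_toList (fun j hj => Finset.mem_toList.1 hj) _ hφ]
    congr 1
    ext x
    congr 1
    unfold rho
    rw [Zs_congr]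
    intro j hj
    simp [fld, hj, add_mul]

lemma IsSR.Wp_approx (h : IsSR F c) {δ : ℝ} (hδ : 0 ≤ δ) (hδ8 : δ ≤ 1 / 8) (k : ℕ) (x : I → ℝ)
    {j : I} (hj : j ∈ F) :
    |Wp F c δ (k + 1) x j - Wp F c δ k x j -
      δ * mean F c j (fld (fun _ => k * δ) (Wp F c δ k x))| ≤ Dc * δ ^ 2 :=
  (h.sweepL_approx hδ hδ8 (k * δ) (Wp F c δ k x) F.toList F.nodup_toList _ _
    (fun _ => by simpa using hδ) (fun _ _ => ⟨rfl, rfl⟩) (fun _ => by simpa using hδ) j).1
    (Finset.mem_toList.2 hj)

lemma lmarginal_prod (s : Finset I) (g : I → ℝ → ℝ≥0∞) (hg : ∀ j, Measurable (g j))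
    (x : I → ℝ) :
    lmarginal (fun _ => eta) s (fun x => ∏ j ∈ s, g j (x j)) x = ∏ j ∈ s, ∫⁻ u, g j u ∂eta := by
  induction s using Finset.induction_on generalizing x with
  | empty => simp
  | insert a s ha ih =>
    have hm : Measurable fun x : I → ℝ => ∏ j ∈ s, g j (x j) :=
      Finset.measurable_fun_prod _ fun j _ => (hg j).comp (measurable_pi_apply j)
    have hm' : Measurable fun x : I → ℝ => ∏ j ∈ insert a s, g j (x j) :=
      Finset.measurable_fun_prod _ fun j _ => (hg j).comp (measurable_pi_apply j)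
    rw [lmarginal_insert' _ hm' ha, Finset.prod_insert ha, ← ih x]
    have : (fun x : I → ℝ => ∫⁻ u, ∏ j ∈ insert a s, g j (update x a u j) ∂eta) =
        fun x => (∫⁻ u, g a u ∂eta) * ∏ j ∈ s, g j (x j) := by
      ext x
      rw [← lintegral_mul_const _ (hg a)]
      refine lintegral_congr fun u => ?_
      rw [Finset.prod_insert ha, update_self]
      congr 1
      exact Finset.prod_congr rfl fun j hj => by rw [update_of_ne (ne_of_mem_of_not_mem hj ha)]
    rw [this]
    unfold lmarginal
    exact lintegral_const_mul _ (hm.comp measurable_updateFinset)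

def box (B η : Finset I) (a b : ℝ) : Set (I → ℝ) :=
  {x | ∀ j ∈ B, (j ∈ η → a ≤ x j) ∧ (j ∉ η → x j ≤ b)}

lemma measurableSet_box (B η : Finset I) (a b : ℝ) : MeasurableSet (box B η a b) := by
  have : box B η a b = ⋂ j ∈ B, (fun x : I → ℝ => x j) ⁻¹' (if j ∈ η then Ici a else Iic b) := by
    ext x
    simp only [box, mem_ofPred_eq, mem_iInter, mem_preimage]
    refine forall₂_congr fun j _ => ?_
    by_cases hj : j ∈ η <;> simp [hj]
  rw [this]
  refine Finset.measurableSet_biInter _ fun j _ => measurable_pi_apply j ?_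
  split_ifs
  exacts [measurableSet_Ici, measurableSet_Iic]

noncomputable def theta (t : ℝ) : ℝ := max 0 (1 - Real.exp (3 - t / 2))

lemma box_lower (hc : ∀ S, 0 ≤ c S) {B : Finset I} (hB : B ⊆ F) (η : Finset I) (t : ℝ)
    (x₀ : I → ℝ) :
    ENNReal.ofReal (theta t ^ B.card * ∑ S ∈ F.powerset with S ∩ B = η, c S) ≤
      lmarginal (fun _ => eta) F (fun x => rho F c (fun _ => t) x *
        (box B η (t / 2 + 3) (t / 2 - 3)).indicator 1 x) x₀ := by
  set R : I → Set ℝ := fun j =>
    if j ∈ B then (if j ∈ η then Ici (t / 2 + 3) else Iic (t / 2 - 3)) else univ with hR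
  have hRm : ∀ j, MeasurableSet (R j) := by
    intro j
    simp only [hR]
    split_ifs
    exacts [measurableSet_Ici, measurableSet_Iic, MeasurableSet.univ]
  set g : Finset I → I → ℝ → ℝ≥0∞ := fun S j =>
    (R j).indicator (dens (if j ∈ S then 0 else 1) (if j ∈ S then 1 else 0) t) with hg
  have hgm : ∀ S j, Measurable (g S j) := fun S j => (measurable_dens _ _ _).indicator (hRm j)
  have hpm : ∀ S, Measurable fun x : I → ℝ => ∏ j ∈ F, g S j (x j) := fun S =>
    Finset.measurable_fun_prod _ fun j _ => (hgm S j).comp (measurable_pi_apply j)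
  have h1 : (fun x => ∑ S ∈ F.powerset with S ∩ B = η,
      ENNReal.ofReal (c S) * ∏ j ∈ F, g S j (x j)) ≤ fun x => rho F c (fun _ => t) x *
        (box B η (t / 2 + 3) (t / 2 - 3)).indicator 1 x := by
    intro x
    by_cases hx : x ∈ box B η (t / 2 + 3) (t / 2 - 3)
    · simp only [indicator_of_mem hx, Pi.one_apply, mul_one, rho, Zs]
      rw [ENNReal.ofReal_sum_of_nonneg fun S _ => wt_nonneg hc _ S]
      refine le_trans (Finset.sum_le_sum fun S hS => ?_)
        (Finset.sum_le_sum_of_subset (Finset.filter_subset (fun S => S ∩ B = η) _))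
      have hSF : S ⊆ F := Finset.mem_powerset.1 (Finset.mem_filter.1 hS).1
      rw [wt, ENNReal.ofReal_mul (hc S), ENNReal.ofReal_prod_of_nonneg fun _ _ => (Real.exp_pos _).le]
      gcongr
      calc ∏ j ∈ F, g S j (x j) ≤ ∏ j ∈ F,
            if j ∈ S then ENNReal.ofReal (Real.exp (fld (fun _ => t) x j)) else 1 := by
            refine Finset.prod_le_prod' fun j _ => (indicator_le_self _ _ _).trans (le_of_eq ?_)
            by_cases hj : j ∈ S <;> simp [dens, fld, hj]
        _ = _ := by rw [Finset.prod_ite_mem, Finset.inter_eq_right.2 hSF]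
    · simp only [box, mem_ofPred_eq, not_forall] at hx
      obtain ⟨j, hj, hx⟩ := hx
      refine le_of_eq_of_le (Finset.sum_eq_zero fun S _ => ?_) zero_le
      rw [Finset.prod_eq_zero (hB hj), mul_zero]
      refine indicator_of_notMem ?_ _
      by_cases hjη : j ∈ η <;> simpa [hR, hj, hjη] using hx
  refine le_trans ?_ (lmarginal_mono h1 x₀)
  have h2 : lmarginal (fun _ => eta) F (fun x => ∑ S ∈ F.powerset with S ∩ B = η,
      ENNReal.ofReal (c S) * ∏ j ∈ F, g S j (x j)) x₀ = ∑ S ∈ F.powerset with S ∩ B = η,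
      ENNReal.ofReal (c S) * ∏ j ∈ F, ∫⁻ u, g S j u ∂eta := by
    simp only [← lmarginal_prod F _ (hgm _) x₀]
    unfold lmarginal
    refine (lintegral_finsetSum _ fun S _ =>
      ((hpm S).comp measurable_updateFinset).const_mul (ENNReal.ofReal (c S))).trans ?_
    exact Finset.sum_congr rfl fun S _ =>
      lintegral_const_mul _ ((hpm S).comp measurable_updateFinset)
  have hθ : 0 ≤ theta t := le_max_left _ _
  rw [h2, Finset.mul_sum, ENNReal.ofReal_sum_of_nonneg fun S _ => mul_nonneg (by positivity) (hc S)]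
  refine Finset.sum_le_sum fun S hS => ?_
  have hSB : S ∩ B = η := (Finset.mem_filter.1 hS).2
  rw [mul_comm, ENNReal.ofReal_mul (hc S)]
  gcongr
  have h3 : ENNReal.ofReal (theta t ^ B.card) =
      ∏ j ∈ F, if j ∈ B then ENNReal.ofReal (theta t) else 1 := by
    rw [Finset.prod_ite_mem, Finset.inter_eq_right.2 hB, Finset.prod_const,
      ENNReal.ofReal_pow hθ]
  rw [h3]
  refine Finset.prod_le_prod' fun j _ => ?_
  simp only [hg]
  rw [lintegral_indicator (hRm j), ← withDensity_apply _ (hRm j)]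
  have hθ' : ∀ r : ℝ, 1 - Real.exp (3 - t / 2) ≤ r →
      ENNReal.ofReal (theta t) ≤ ENNReal.ofReal r := by
    intro r hr
    rw [theta, ENNReal.ofReal_max, ENNReal.ofReal_zero, max_eq_right zero_le]
    exact ENNReal.ofReal_le_ofReal hr
  by_cases hjB : j ∈ B
  · by_cases hjS : j ∈ S
    · have hjη : j ∈ η := hSB ▸ Finset.mem_inter.2 ⟨hjS, hjB⟩
      simp only [hR, hjB, hjS, hjη, if_true]
      have : IsProbabilityMeasure (eta.withDensity (dens 0 1 t)) :=
        ⟨by rw [mu_univ le_rfl zero_le_one]; simp⟩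
      refine le_trans ?_ (measure_mono Ioi_subset_Ici_self)
      rw [← compl_Iic, prob_compl_eq_one_sub measurableSet_Iic, mu_Iic le_rfl zero_le_one,
        ← ENNReal.ofReal_one, ← ENNReal.ofReal_sub _ (by simpa [lG] using lH_nonneg _)]
      apply hθ'
      have := lH_le_exp (t / 2 + 3 - t)
      rw [show t / 2 + 3 - t = 3 - t / 2 by ring] at this
      simp only [lG, zero_mul, one_mul, zero_add, show t / 2 + 3 - t = 3 - t / 2 by ring]
      linarith
    · have hjη : j ∉ η := fun h => hjS (Finset.mem_inter.1 (hSB ▸ h)).1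
      simp only [hR, hjB, hjS, hjη, if_true, if_false]
      rw [mu_Iic zero_le_one le_rfl]
      apply hθ'
      have := one_sub_lH_le (t / 2 - 3)
      rw [neg_sub] at this
      simp only [lG, zero_mul, one_mul, add_zero]
      linarith
  · simp only [hR, hjB, if_false]
    rw [mu_univ (by split_ifs <;> norm_num) (by split_ifs <;> norm_num)]
    split_ifs <;> simp

end Crest.Agent.H5
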