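import Mathlib
import Crest.Agent.H5.Sweep

/-! Euler schemes driven by one-site means, and the law of their long-time pattern. -/

set_option autoImplicit false

namespace Crest.Agent.H5

open Filter Topology Set MeasureTheory Function
open scoped ENNReal

section Euler

variable {I : Type*}

noncomputable def eul (M : I → (I → ℝ) → ℝ) (δ : ℝ) : ℕ → (I → ℝ) → (I → ℝ)
  | 0, x => x
  | k + 1, x => fun i => eul M δ k x i + δ * M i (fld (fun _ => k * δ) (eul M δ k x))

lemma Dc_pos : 0 < Dc := by unfold Dc; linarith [one_le_Lc]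

lemma pseudo_orbit (M : I → (I → ℝ) → ℝ) (F : Finset I)
    (hlip : ∀ i ∈ F, ∀ y y' ε, 0 ≤ ε → (∀ j ∈ F, |y j - y' j| ≤ ε) → |M i y - M i y'| ≤ Lc * ε)
    {δ : ℝ} (hδ : 0 ≤ δ) (x : I → ℝ) (w : ℕ → I → ℝ) (h0 : ∀ j ∈ F, w 0 j = x j)
    (hw : ∀ k, ∀ i ∈ F, |w (k + 1) i - w k i - δ * M i (fld (fun _ => k * δ) (w k))| ≤ Dc * δ ^ 2)
    (k : ℕ) : ∀ i ∈ F, |eul M δ k x i - w k i| ≤ k * (Dc * δ ^ 2) * Real.exp (2 * Lc * δ * k) := by
  have hL := one_le_Lc
  have hD := Dc_pos
  induction k with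
  | zero => intro i hi; simp [eul, h0 i hi]
  | succ k ih =>
    intro i hi
    set e := k * (Dc * δ ^ 2) * Real.exp (2 * Lc * δ * k) with he
    have he0 : 0 ≤ e := by positivity
    have e1 := hlip i hi (fld (fun _ => k * δ) (eul M δ k x)) (fld (fun _ => k * δ) (w k)) (2 * e)
      (by positivity) (fun j hj => (ell_lip _ _ _ _).trans (by simpa using ih j hj))
    have e2 : |δ * M i (fld (fun _ => k * δ) (eul M δ k x)) -
        δ * M i (fld (fun _ => k * δ) (w k))| ≤ δ * (Lc * (2 * e)) := by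
      rw [← mul_sub, abs_mul, abs_of_nonneg hδ]; gcongr
    have e3 : |eul M δ (k + 1) x i - w (k + 1) i| ≤ (1 + 2 * Lc * δ) * e + Dc * δ ^ 2 := by
      have h1 := abs_le.1 e2
      have h2 := abs_le.1 (ih i hi)
      have h3 := abs_le.1 (hw k i hi)
      simp only [eul]
      rw [abs_le]; constructor <;> linarith
    refine e3.trans ?_
    have e4 : 1 + 2 * Lc * δ ≤ Real.exp (2 * Lc * δ) := by
      linarith [Real.add_one_le_exp (2 * Lc * δ)]
    have e5 : 1 ≤ Real.exp (2 * Lc * δ * ((k + 1 : ℕ) : ℝ)) := Real.one_le_exp (by positivity)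
    have e6 : Real.exp (2 * Lc * δ) * e =
        k * (Dc * δ ^ 2) * Real.exp (2 * Lc * δ * ((k + 1 : ℕ) : ℝ)) := by
      rw [he, Nat.cast_succ, mul_add, mul_one, Real.exp_add]; ring
    have e7 : 0 ≤ Dc * δ ^ 2 := by positivity
    calc _ ≤ Real.exp (2 * Lc * δ) * e +
          Dc * δ ^ 2 * Real.exp (2 * Lc * δ * ((k + 1 : ℕ) : ℝ)) :=
          add_le_add (mul_le_mul_of_nonneg_right e4 he0) (le_mul_of_one_le_right e7 e5)
      _ = _ := by rw [e6]; push_cast; ring

lemma eul_incr (M : I → (I → ℝ) → ℝ) {i : I} (h0 : ∀ y, 0 ≤ M i y) (h1 : ∀ y, M i y ≤ 1)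
    {δ : ℝ} (hδ : 0 ≤ δ) (x : I → ℝ) (m r : ℕ) :
    0 ≤ eul M δ (m + r) x i - eul M δ m x i ∧ eul M δ (m + r) x i - eul M δ m x i ≤ r * δ := by
  induction r with
  | zero => simp
  | succ r ih =>
    rw [← add_assoc]
    simp only [eul]
    have a := h0 (fld (fun _ => ((m + r : ℕ) : ℝ) * δ) (eul M δ (m + r) x))
    have b := h1 (fld (fun _ => ((m + r : ℕ) : ℝ) * δ) (eul M δ (m + r) x))
    push_cast at a b ⊢
    constructor <;> nlinarith [ih.1, ih.2]

lemma eul_refine (M : I → (I → ℝ) → ℝ) (F : Finset I)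
    (hlip : ∀ i ∈ F, ∀ y y' ε, 0 ≤ ε → (∀ j ∈ F, |y j - y' j| ≤ ε) → |M i y - M i y'| ≤ Lc * ε)
    (h0 : ∀ i y, 0 ≤ M i y) (h1 : ∀ i y, M i y ≤ 1)
    {δ : ℝ} (hδ : 0 ≤ δ) (R : ℕ) (x : I → ℝ) (k : ℕ) {i : I} (hi : i ∈ F) :
    |eul M δ ((k + 1) * R) x i - eul M δ (k * R) x i -
      (R * δ) * M i (fld (fun _ => k * (R * δ)) (eul M δ (k * R) x))| ≤ Dc * (R * δ) ^ 2 := by
  have hL := one_le_Lc
  have key : ∀ r : ℕ, r ≤ R → |eul M δ (k * R + r) x i - eul M δ (k * R) x i -
      (r * δ) * M i (fld (fun _ => k * (R * δ)) (eul M δ (k * R) x))| ≤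
        r * δ * (Lc * (3 * (R * δ))) := by
    intro r
    induction r with
    | zero => simp
    | succ r ih =>
      intro hr
      have hr' : (r : ℝ) * δ ≤ R * δ := by gcongr; omega
      have e1 := hlip i hi (fld (fun _ => ((k * R + r : ℕ) : ℝ) * δ) (eul M δ (k * R + r) x))
        (fld (fun _ => k * (R * δ)) (eul M δ (k * R) x)) (3 * (R * δ)) (by positivity)
        (fun j _ => (ell_lip _ _ _ _).trans (by
          have := eul_incr M (h0 j) (h1 j) hδ x (k * R) r
          rw [abs_of_nonneg this.1, show ((k * R + r : ℕ) : ℝ) * δ - k * (R * δ) = r * δ by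
            push_cast; ring, abs_of_nonneg (by positivity)]
          linarith [this.2]))
      have e2 := abs_le.1 (ih (by omega))
      have e3 := abs_le.1 e1
      rw [← add_assoc]
      simp only [eul]
      push_cast at e3 ⊢
      rw [abs_le]; constructor <;> nlinarith [e3.1, e3.2]
  have := key R le_rfl
  rw [add_mul, one_mul]
  refine this.trans ?_
  unfold Dc
  nlinarith [sq_nonneg (R * δ)]

noncomputable def Rn (m : ℕ) : ℕ := ⌈8 + m * Dc * Real.exp (2 * Lc * m)⌉₊

noncomputable def Nn : ℕ → ℕ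
  | 0 => Rn 0
  | n + 1 => Nn n * Rn (n + 1)

lemma Rn_ge (m : ℕ) : 8 + m * Dc * Real.exp (2 * Lc * m) ≤ Rn m := Nat.le_ceil _

lemma Rn_pos (m : ℕ) : 0 < Rn m := by
  have := Rn_ge m
  have := Dc_pos
  have : (0 : ℝ) < Rn m := by
    have : 0 ≤ m * Dc * Real.exp (2 * Lc * m) := by positivity
    linarith
  exact_mod_cast this

lemma Nn_pos (n : ℕ) : 0 < Nn n := by
  induction n with
  | zero => exact Rn_pos 0
  | succ n ih => exact Nat.mul_pos ih (Rn_pos _)

lemma Nn_ge (n : ℕ) : 8 + n * Dc * Real.exp (2 * Lc * n) ≤ Nn n := by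
  refine (Rn_ge n).trans ?_
  cases n with
  | zero => exact le_rfl
  | succ n => exact_mod_cast Nat.le_mul_of_pos_left _ (Nn_pos n)

noncomputable def dn (n : ℕ) : ℝ := (Nn n : ℝ)⁻¹

lemma dn_nonneg (n : ℕ) : 0 ≤ dn n := by unfold dn; positivity

lemma dn_le (n : ℕ) : dn n ≤ 1 / 8 := by
  have h := Nn_ge n
  have := Dc_pos
  have : 0 ≤ n * Dc * Real.exp (2 * Lc * n) := by positivity
  rw [dn, one_div]
  exact inv_anti₀ (by norm_num) (by linarith)

lemma Nn_mul_dn (n : ℕ) : (Nn n : ℝ) * dn n = 1 :=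
  mul_inv_cancel₀ (by exact_mod_cast (Nn_pos n).ne')

lemma time_eq (n : ℕ) : ((n * Nn n : ℕ) : ℝ) * dn n = n := by
  push_cast; rw [mul_assoc, Nn_mul_dn, mul_one]

lemma err_le (n : ℕ) : ((n * Nn n : ℕ) : ℝ) * (Dc * dn n ^ 2) *
    Real.exp (2 * Lc * dn n * ((n * Nn n : ℕ) : ℝ)) ≤ 1 := by
  have h1 : 2 * Lc * dn n * ((n * Nn n : ℕ) : ℝ) = 2 * Lc * n := by
    rw [mul_assoc, mul_comm (dn n), time_eq]
  have h2 : ((n * Nn n : ℕ) : ℝ) * (Dc * dn n ^ 2) = n * Dc * dn n := by
    linear_combination (Dc * dn n) * time_eq n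
  rw [h1, h2]
  have h := Nn_ge n
  have h3 := Nn_mul_dn n
  have h4 := dn_nonneg n
  nlinarith

noncomputable def En (M : I → (I → ℝ) → ℝ) (n : ℕ) (x : I → ℝ) : I → ℝ :=
  eul M (dn n) (n * Nn n) x

lemma En_succ (M : I → (I → ℝ) → ℝ) (F : Finset I)
    (hlip : ∀ i ∈ F, ∀ y y' ε, 0 ≤ ε → (∀ j ∈ F, |y j - y' j| ≤ ε) → |M i y - M i y'| ≤ Lc * ε)
    (h0 : ∀ i y, 0 ≤ M i y) (h1 : ∀ i y, M i y ≤ 1) (n : ℕ) (x : I → ℝ) {i : I} (hi : i ∈ F) :
    |En M (n + 1) x i - En M n x i - 1 / 2| ≤ 3 / 2 := by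
  have hd : (Rn (n + 1) : ℝ) * dn (n + 1) = dn n := by
    have : (Rn (n + 1) : ℝ) ≠ 0 := by exact_mod_cast (Rn_pos _).ne'
    simp only [dn, Nn]; push_cast; field_simp
  have e1 := pseudo_orbit M F hlip (dn_nonneg n) x
    (fun k => eul M (dn (n + 1)) (k * Rn (n + 1)) x) (fun j _ => by simp [eul])
    (fun k j hj => by
      have := eul_refine M F hlip h0 h1 (dn_nonneg (n + 1)) (Rn (n + 1)) x k hj
      rwa [hd] at this) (n * Nn n) i hi
  have e2 := abs_le.1 (e1.trans (err_le n))
  have e3 := eul_incr M (h0 i) (h1 i) (dn_nonneg (n + 1)) x (n * Nn n * Rn (n + 1)) (Nn (n + 1))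
  rw [Nn_mul_dn, show n * Nn n * Rn (n + 1) + Nn (n + 1) = (n + 1) * Nn (n + 1) by
    simp only [Nn]; ring] at e3
  unfold En
  rw [abs_le]; constructor <;> linarith [e3.1, e3.2]

lemma eul_tendsto {α : Type*} {l : Filter α} (Mk : α → I → (I → ℝ) → ℝ) (M : I → (I → ℝ) → ℝ)
    (J : Set I)
    (hK : ∀ i ∈ J, ∀ (C : ℝ) (yn : α → I → ℝ) (y : I → ℝ), (∀ k j, |yn k j| ≤ C) →
      (∀ j, |y j| ≤ C) → (∀ j ∈ J, Tendsto (fun k => yn k j) l (𝓝 (y j))) →
      Tendsto (fun k => Mk k i (yn k)) l (𝓝 (M i y)))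
    (δ : ℝ) (x : I → ℝ) (m : ℕ) :
    ∀ j ∈ J, Tendsto (fun k => eul (Mk k) δ m x j) l (𝓝 (eul M δ m x j)) := by
  induction m with
  | zero => intro j _; exact tendsto_const_nhds
  | succ m ih =>
    intro i hi
    simp only [eul]
    refine (ih i hi).add (Tendsto.const_mul _ (hK i hi |m * δ| _ _ (fun _ _ => abs_ell_le _ _)
      (fun _ => abs_ell_le _ _) fun j hj => ?_))
    exact ((continuous_ell _).tendsto _).comp (ih j hj)

lemma measurable_eul {α : Type*} [MeasurableSpace α] (M : α → I → (I → ℝ) → ℝ)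
    (hM : ∀ i, Measurable fun p : α × (I → ℝ) => M p.1 i p.2) (X : α → I → ℝ) (hX : Measurable X)
    (δ : ℝ) (m : ℕ) : Measurable fun a => eul (M a) δ m (X a) := by
  induction m with
  | zero => exact hX
  | succ m ih =>
    refine measurable_pi_lambda _ fun i => ?_
    simp only [eul]
    exact ((measurable_pi_apply i).comp ih).add (measurable_const.mul
      ((hM i).comp (measurable_id.prodMk ((measurable_fld _).comp ih))))

lemma eul_equiv {I' : Type*} (σ : I' → I) (M : I → (I → ℝ) → ℝ) (M' : I' → (I' → ℝ) → ℝ)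
    (h : ∀ i y, M' i (y ∘ σ) = M (σ i) y) (δ : ℝ) (m : ℕ) (x : I → ℝ) :
    eul M' δ m (x ∘ σ) = eul M δ m x ∘ σ := by
  induction m with
  | zero => rfl
  | succ m ih =>
    ext i
    simp only [eul, ih, Function.comp_apply, ← h]
    rfl

open Classical in
/-- the long-time pattern -/
noncomputable def out (M : I → (I → ℝ) → ℝ) (x : I → ℝ) : I → Bool :=
  fun i => decide (∀ᶠ n : ℕ in atTop, (n : ℝ) / 2 < En M n x i)

lemma out_equiv {I' : Type*} (σ : I' → I) (M : I → (I → ℝ) → ℝ) (M' : I' → (I' → ℝ) → ℝ)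
    (h : ∀ i y, M' i (y ∘ σ) = M (σ i) y) (x : I → ℝ) : out M' (x ∘ σ) = out M x ∘ σ := by
  have : ∀ n, En M' n (x ∘ σ) = En M n x ∘ σ := fun n => eul_equiv σ M M' h _ _ x
  ext i
  simp only [out, Function.comp_apply]
  exact decide_eq_decide.2 (by simp only [this, Function.comp_apply])

lemma measurable_out {α : Type*} [MeasurableSpace α] (M : α → I → (I → ℝ) → ℝ)
    (hM : ∀ i, Measurable fun p : α × (I → ℝ) => M p.1 i p.2) (X : α → I → ℝ)
    (hX : Measurable X) : Measurable fun a => out (M a) (X a) := by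
  refine measurable_pi_lambda _ fun i => measurable_to_bool ?_
  have : (fun a => out (M a) (X a) i) ⁻¹' {true} =
      ⋃ N : ℕ, ⋂ n : ℕ, ⋂ _ : N ≤ n, {a | (n : ℝ) / 2 < En (M a) n (X a) i} := by
    ext a; simp [out]
  rw [this]
  refine MeasurableSet.iUnion fun N => MeasurableSet.iInter fun n => MeasurableSet.iInter fun _ =>
    measurableSet_lt measurable_const ?_
  exact (measurable_pi_apply i).comp (measurable_eul M hM X hX _ _)

lemma out_iff (M : I → (I → ℝ) → ℝ) (x : I → ℝ) (i : I)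
    (h1 : ∀ n, |En M (n + 1) x i - En M n x i - 1 / 2| ≤ 3 / 2)
    (h2 : ∀ᶠ n : ℕ in atTop, (n : ℝ) / 2 + 1 ≤ En M n x i ∨ En M n x i ≤ n / 2 - 1) :
    ∀ᶠ n : ℕ in atTop, (out M x i = true ↔ (n : ℝ) / 2 < En M n x i) := by
  obtain ⟨N, hN⟩ := eventually_atTop.1 h2
  have key : ∀ n, N ≤ n → (((n : ℝ) / 2 < En M n x i) ↔ ((N : ℝ) / 2 < En M N x i)) := by
    intro n hn
    induction n, hn using Nat.le_induction with
    | base => rfl
    | succ n hn ih =>
      rw [← ih]
      have a := hN n hn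
      have b := hN (n + 1) (by omega)
      have c := abs_le.1 (h1 n)
      push_cast at b ⊢
      constructor
      · intro h
        rcases a with a | a
        · linarith
        · rcases b with b | b <;> linarith [c.2]
      · intro h
        rcases a with a | a
        · rcases b with b | b <;> linarith [c.1]
        · linarith
  filter_upwards [eventually_ge_atTop N] with n hn
  simp only [out, decide_eq_true_eq]
  rw [key n hn]
  constructor
  · intro h
    obtain ⟨m, hm1, hm2⟩ := (h.and (eventually_ge_atTop N)).exists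
    exact (key m hm2).1 hm1
  · intro h
    filter_upwards [eventually_ge_atTop N] with m hm using (key m hm).2 h

end Euler

variable {I : Type*} [DecidableEq I]

omit [DecidableEq I] in
lemma box_mono {B η : Finset I} {a b a' b' : ℝ} {x x' : I → ℝ} (hx : x ∈ box B η a' b')
    (ha : a + 1 ≤ a') (hb : b' ≤ b - 1) (h : ∀ j ∈ B, |x' j - x j| ≤ 1) : x' ∈ box B η a b := by
  intro j hj
  have := abs_le.1 (h j hj)
  exact ⟨fun hη => by linarith [(hx j hj).1 hη], fun hη => by linarith [(hx j hj).2 hη]⟩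

/-- finite volume estimate -/
lemma IsSR.En_lower {F : Finset I} {c : Finset I → ℝ} (h : IsSR F c)
    (hn : ∑ S ∈ F.powerset, c S = 1) {Ω : Type*} [MeasurableSpace Ω] (P : Measure Ω)
    [IsProbabilityMeasure P] (X : Ω → I → ℝ) (hX : Measurable X)
    (hlaw : P.map (fun ω => F.restrict (X ω)) = Measure.pi fun _ => eta)
    {B : Finset I} (hB : B ⊆ F) (η : Finset I) (n : ℕ) :
    theta n ^ B.card * ∑ S ∈ F.powerset with S ∩ B = η, c S ≤
      P.real {ω | En (mean F c) n (X ω) ∈ box B η (n / 2 + 2) (n / 2 - 2)} := by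
  have h1 := box_lower h.nonneg hB η n 0
  set φ : (I → ℝ) → ℝ≥0∞ := (box B η (n / 2 + 3) (n / 2 - 3)).indicator 1 with hφ
  have hφm : Measurable φ := measurable_one.indicator (measurableSet_box _ _ _ _)
  have h2 := h.Wp_marg hn (dn_nonneg n) (n * Nn n) hφm
  rw [time_eq] at h2
  rw [← h2] at h1
  have hm : Measurable fun y : (∀ _ : F, ℝ) =>
      φ (Wp F c (dn n) (n * Nn n) (updateFinset (0 : I → ℝ) F y)) :=
    hφm.comp ((h.measurable_Wp (dn_nonneg n) _).comp measurable_updateFinset)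
  have hr : Measurable fun ω => F.restrict (X ω) := (Finset.measurable_restrict F).comp hX
  have h3 : lmarginal (fun _ => eta) F (fun x => φ (Wp F c (dn n) (n * Nn n) x)) 0 =
      ∫⁻ ω, φ (Wp F c (dn n) (n * Nn n) (updateFinset (0 : I → ℝ) F (F.restrict (X ω)))) ∂P := by
    rw [← lintegral_map hm hr, hlaw]; rfl
  rw [h3] at h1
  refine (ENNReal.ofReal_le_iff_le_toReal (measure_ne_top _ _)).1 (h1.trans ?_)
  refine le_trans (lintegral_mono fun ω => ?_) (lintegral_indicator_one_le _)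
  by_cases hω : Wp F c (dn n) (n * Nn n) (updateFinset (0 : I → ℝ) F (F.restrict (X ω))) ∈
    box B η (n / 2 + 3) (n / 2 - 3)
  swap
  · simp only [hφ, indicator_of_notMem hω, zero_le]
  simp only [hφ, indicator_of_mem hω]
  rw [indicator_of_mem]
  · exact le_rfl
  refine box_mono hω (by linarith) (by linarith) fun j hj => ?_
  refine (pseudo_orbit (mean F c) F (fun i _ y y' ε h1 h2 => h.lip i h1 h2) (dn_nonneg n) (X ω)
    (fun k => Wp F c (dn n) k (updateFinset (0 : I → ℝ) F (F.restrict (X ω))))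
    (fun j hj => by simp [Wp, updateFinset, hj])
    (fun k i hi => h.Wp_approx (dn_nonneg n) (dn_le n) k _ hi) _ j (hB hj)).trans (err_le n)

lemma tendsto_of_sum_eq {α β : Type*} [DecidableEq β] {l : Filter α} (T : Finset β)
    (a : α → β → ℝ) (p : β → ℝ) (ha : ∀ k, ∑ η ∈ T, a k η = 1) (hp : ∑ η ∈ T, p η = 1)
    (h : ∀ η ∈ T, ∀ ε > 0, ∀ᶠ k in l, a k η ≤ p η + ε) {η : β} (hη : η ∈ T) :
    Tendsto (fun k => a k η) l (𝓝 (p η)) := by
  rw [Metric.tendsto_nhds]
  intro ε hε
  have hc : (0 : ℝ) < T.card + 1 := by positivity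
  have := (Filter.eventually_all_finset T).2 fun η hη => h η hη (ε / (T.card + 1)) (by positivity)
  filter_upwards [this] with k hk
  have e1 := hk η hη
  have e2 : ∑ η' ∈ T.erase η, a k η' ≤ ∑ η' ∈ T.erase η, (p η' + ε / (T.card + 1)) :=
    Finset.sum_le_sum fun η' hη' => hk η' (Finset.mem_of_mem_erase hη')
  rw [Finset.sum_add_distrib, Finset.sum_const, nsmul_eq_mul] at e2
  have e3 := Finset.add_sum_erase T (a k) hη
  have e4 := Finset.add_sum_erase T p hη
  have e5 : ((T.erase η).card : ℝ) ≤ T.card := by exact_mod_cast Finset.card_erase_le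
  have e6 : (T.card + 1) * (ε / (T.card + 1)) = ε := by field_simp
  have e7 : 0 < ε / (T.card + 1) := by positivity
  have e8 : (1 : ℝ) ≤ T.card := by exact_mod_cast Finset.card_pos.2 ⟨η, hη⟩
  rw [ha k] at e3
  rw [hp] at e4
  rw [Real.dist_eq, abs_lt]
  constructor <;> nlinarith

lemma theta_tendsto : Tendsto (fun n : ℕ => theta n) atTop (𝓝 1) := by
  have h1 : Tendsto (fun n : ℕ => Real.exp (3 - (n : ℝ) / 2)) atTop (𝓝 0) := by
    refine Real.tendsto_exp_atBot.comp ?_
    simp only [sub_eq_add_neg]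
    exact tendsto_atBot_add_const_left _ _ (tendsto_neg_atTop_atBot.comp
      (tendsto_natCast_atTop_atTop.atTop_div_const two_pos))
  have := (tendsto_const_nhds (x := (0 : ℝ))).max ((tendsto_const_nhds (x := (1 : ℝ))).sub h1)
  simpa [theta] using this

theorem flow_law {α : Type*} {l : Filter α} [l.IsCountablyGenerated] [l.NeBot]
    (F : α → Finset I) (c : α → Finset I → ℝ) (hsr : ∀ k, IsSR (F k) (c k))
    (hnorm : ∀ k, ∑ S ∈ (F k).powerset, c k S = 1) (J : Set I)
    (hJ : ∀ j ∈ J, ∀ᶠ k in l, j ∈ F k) (M : I → (I → ℝ) → ℝ) (hMm : ∀ i, Measurable (M i))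
    (hK : ∀ i ∈ J, ∀ (C : ℝ) (yn : α → I → ℝ) (y : I → ℝ), (∀ k j, |yn k j| ≤ C) →
      (∀ j, |y j| ≤ C) → (∀ j ∈ J, Tendsto (fun k => yn k j) l (𝓝 (y j))) →
      Tendsto (fun k => mean (F k) (c k) i (yn k)) l (𝓝 (M i y)))
    {Ω : Type*} [MeasurableSpace Ω] (P : Measure Ω) [IsProbabilityMeasure P]
    (X : Ω → I → ℝ) (hX : Measurable X)
    (hlaw : ∀ k, P.map (fun ω => (F k).restrict (X ω)) = Measure.pi fun _ => eta)
    (B : Finset I) (hB : ∀ j ∈ B, j ∈ J) (η : Finset I) (hη : η ⊆ B) :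
    Tendsto (fun k => ∑ S ∈ (F k).powerset with S ∩ B = η, c k S) l
      (𝓝 (P.real {ω | ∀ j ∈ B, (out M (X ω) j = true ↔ j ∈ η)})) := by
  set a : α → Finset I → Finset I → ℝ := fun k B η => ∑ S ∈ (F k).powerset with S ∩ B = η, c k S
    with ha
  have hasum : ∀ k B, ∑ η ∈ B.powerset, a k B η = 1 := by
    intro k B
    rw [← hnorm k]
    exact Finset.sum_fiberwise_of_maps_to (fun S _ => by simp) _
  have ha0 : ∀ k B η, 0 ≤ a k B η := fun k B η => Finset.sum_nonneg fun S _ => (hsr k).nonneg S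
  have hconv : ∀ n ω, ∀ j ∈ J, Tendsto (fun k => En (mean (F k) (c k)) n (X ω) j) l
      (𝓝 (En M n (X ω) j)) := fun n ω => eul_tendsto (fun k => mean (F k) (c k)) M J hK _ _ _
  have hEm : ∀ n, Measurable fun ω => En M n (X ω) := fun n =>
    measurable_eul (fun _ => M) (fun i => (hMm i).comp measurable_snd) X hX _ _
  have hEkm : ∀ k n, Measurable fun ω => En (mean (F k) (c k)) n (X ω) := fun k n =>
    measurable_eul (fun _ => mean (F k) (c k)) (fun i => (measurable_mean i).comp measurable_snd)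
      X hX _ _
  have hom : Measurable fun ω => out M (X ω) :=
    measurable_out (fun _ => M) (fun i => (hMm i).comp measurable_snd) X hX
  have step1 : ∀ (n : ℕ) (B : Finset I), (∀ j ∈ B, j ∈ J) → ∀ η, ∀ ε > 0, ∀ᶠ k in l,
      theta n ^ B.card * a k B η ≤
        P.real {ω | En M n (X ω) ∈ box B η (n / 2 + 1) (n / 2 - 1)} + ε := by
    intro n B hB η ε hε
    set bad : α → Set Ω := fun k =>
      ⋃ j ∈ B, {ω | 1 < |En M n (X ω) j - En (mean (F k) (c k)) n (X ω) j|} with hbad
    have hb : Tendsto (fun k => P (bad k)) l (𝓝 (P ∅)) := by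
      refine tendsto_measure_of_tendsto_indicator_of_isFiniteMeasure l P (fun k => ?_) fun ω => ?_
      · refine Finset.measurableSet_biUnion _ fun j _ => measurableSet_lt measurable_const ?_
        exact (((measurable_pi_apply j).comp (hEm n)).sub
          ((measurable_pi_apply j).comp (hEkm k n))).abs
      · have : ∀ᶠ k in l, ∀ j ∈ B, |En M n (X ω) j - En (mean (F k) (c k)) n (X ω) j| ≤ 1 := by
          rw [Filter.eventually_all_finset]
          intro j hj
          filter_upwards [Metric.tendsto_nhds.1 (hconv n ω j (hB j hj)) 1 one_pos] with k hk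
          rw [Real.dist_eq, abs_sub_comm] at hk
          exact hk.le
        filter_upwards [this] with k hk
        simpa [hbad] using hk
    have hb' : Tendsto (fun k => P.real (bad k)) l (𝓝 0) := by
      have := (ENNReal.tendsto_toReal (measure_ne_top P ∅)).comp hb
      rwa [measure_empty] at this
    filter_upwards [hb'.eventually (gt_mem_nhds hε),
      (Filter.eventually_all_finset B).2 fun j hj => hJ j (hB j hj)] with k h1 h2
    refine ((hsr k).En_lower (hnorm k) P X hX (hlaw k) h2 η n).trans ?_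
    refine le_trans (measureReal_mono (fun ω hω => ?_)) ((measureReal_union_le
      {ω | En M n (X ω) ∈ box B η (n / 2 + 1) (n / 2 - 1)} (bad k)).trans (by linarith))
    by_cases hω' : ω ∈ bad k
    · exact Or.inr hω'
    · left
      refine box_mono hω (by linarith) (by linarith) ?_
      simpa [hbad] using hω'
  have step2 : ∀ (n : ℕ), ∀ j ∈ J, P {ω | ¬ ((n : ℝ) / 2 + 1 ≤ En M n (X ω) j ∨
      En M n (X ω) j ≤ n / 2 - 1)} ≤ ENNReal.ofReal (Real.exp (3 - (n : ℝ) / 2)) := by
    intro n j hj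
    have hm1 : MeasurableSet {ω | (n : ℝ) / 2 + 1 ≤ En M n (X ω) j} :=
      measurableSet_le measurable_const ((measurable_pi_apply j).comp (hEm n))
    have hm2 : MeasurableSet {ω | En M n (X ω) j ≤ (n : ℝ) / 2 - 1} :=
      measurableSet_le ((measurable_pi_apply j).comp (hEm n)) measurable_const
    have key : theta n ≤ P.real ({ω | (n : ℝ) / 2 + 1 ≤ En M n (X ω) j} ∪
        {ω | En M n (X ω) j ≤ (n : ℝ) / 2 - 1}) := by
      rw [measureReal_union (Set.disjoint_left.2 fun ω h1 h2 => by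
        simp only [mem_ofPred_eq] at h1 h2; linarith) hm2]
      refine le_of_forall_pos_le_add fun ε hε => ?_
      obtain ⟨k, h1, h2⟩ := ((step1 n {j} (by simpa using hj) {j} (ε / 2) (by positivity)).and
        (step1 n {j} (by simpa using hj) ∅ (ε / 2) (by positivity))).exists
      have h3 := hasum k {j}
      rw [show ({j} : Finset I).powerset = {∅, {j}} from rfl,
        Finset.sum_pair (Finset.singleton_ne_empty j).symm] at h3
      simp only [box, Finset.card_singleton, pow_one, Finset.mem_singleton, mem_ofPred_eq,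
        forall_eq, not_true_eq_false, true_imp_iff, false_imp_iff, and_true, Finset.notMem_empty,
        not_false_eq_true, true_and] at h1 h2
      have : theta n = theta n * a k {j} ∅ + theta n * a k {j} {j} := by rw [← mul_add, h3, mul_one]
      linarith
    rw [← ofReal_measureReal]
    refine ENNReal.ofReal_le_ofReal ?_
    have := probReal_compl_eq_one_sub (μ := P) (hm1.union hm2)
    have h2 : 1 - Real.exp (3 - (n : ℝ) / 2) ≤ theta n := le_max_right _ _
    refine le_trans (le_of_eq ?_) (show P.real ({ω | (n : ℝ) / 2 + 1 ≤ En M n (X ω) j} ∪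
        {ω | En M n (X ω) j ≤ (n : ℝ) / 2 - 1})ᶜ ≤ _ by linarith)
    rfl
  have step3 : ∀ j ∈ J, ∀ᵐ ω ∂P, ∀ᶠ n : ℕ in atTop,
      (out M (X ω) j = true ↔ (n : ℝ) / 2 < En M n (X ω) j) := by
    intro j hj
    have hs : Summable fun n : ℕ => Real.exp (3 - (n : ℝ) / 2) := by
      have := (summable_geometric_of_lt_one (Real.exp_pos (-1 / 2)).le
        (Real.exp_lt_one_iff.2 (by norm_num))).mul_left (Real.exp 3)
      refine this.congr fun n => ?_
      rw [← Real.exp_nat_mul, ← Real.exp_add]; congr 1; ring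
    have := ae_eventually_notMem (μ := P) (s := fun n : ℕ =>
      {ω | ¬ ((n : ℝ) / 2 + 1 ≤ En M n (X ω) j ∨ En M n (X ω) j ≤ n / 2 - 1)})
      (ne_top_of_le_ne_top (by
        rw [← ENNReal.ofReal_tsum_of_nonneg (fun n => (Real.exp_pos _).le) hs]
        exact ENNReal.ofReal_ne_top) (ENNReal.tsum_le_tsum fun n => step2 n j hj))
    filter_upwards [this] with ω hω
    refine out_iff M (X ω) j (fun n => ?_) (hω.mono fun n hn => not_not.1 hn)
    refine le_of_tendsto (((hconv (n + 1) ω j hj).sub (hconv n ω j hj)).sub_const (1 / 2)).abs ?_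
    filter_upwards [hJ j hj] with k hk
    exact En_succ (mean (F k) (c k)) (F k) (fun i _ y y' ε h1 h2 => (hsr k).lip i h1 h2)
      (mean_nonneg (hsr k).nonneg) (mean_le_one (hsr k).nonneg) n (X ω) hk
  set O : Finset I → Set Ω := fun η => {ω | ∀ j ∈ B, (out M (X ω) j = true ↔ j ∈ η)} with hO
  have hOm : ∀ η, MeasurableSet (O η) := by
    intro η
    have : O η = ⋂ j ∈ B, (fun ω => out M (X ω) j) ⁻¹' {b | b = true ↔ j ∈ η} := by
      ext ω; simp [hO]
    rw [this]
    exact Finset.measurableSet_biInter _ fun j _ =>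
      ((measurable_pi_apply j).comp hom) (MeasurableSet.of_discrete)
  have hOf : ∀ η ∈ B.powerset,
      (fun ω => B.filter fun j => out M (X ω) j = true) ⁻¹' {η} = O η := by
    intro η hη
    ext ω
    simp only [hO, mem_preimage, mem_singleton_iff, mem_ofPred_eq, Finset.ext_iff,
      Finset.mem_filter]
    constructor
    · intro h j hj; rw [← h j]; simp [hj]
    · intro h j
      exact ⟨fun h' => (h j h'.1).1 h'.2, fun h' =>
        ⟨Finset.mem_powerset.1 hη h', (h j (Finset.mem_powerset.1 hη h')).2 h'⟩⟩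
  have hpsum : ∑ η ∈ B.powerset, P.real (O η) = 1 := by
    rw [← Finset.sum_congr rfl fun η hη => congrArg P.real (hOf η hη),
      sum_measureReal_preimage_singleton _ fun η hη => by rw [hOf η hη]; exact hOm η]
    rw [show (fun ω => B.filter fun j => out M (X ω) j = true) ⁻¹' (B.powerset : Set (Finset I)) =
      univ from eq_univ_of_forall fun ω => Finset.mem_coe.2
        (Finset.mem_powerset.2 (Finset.filter_subset _ _))]
    simp
  refine tendsto_of_sum_eq B.powerset (fun k η => a k B η) (fun η => P.real (O η))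
    (fun k => hasum k B) hpsum (fun η _ ε hε => ?_) (Finset.mem_powerset.2 hη)
  have step4 : Tendsto (fun n : ℕ => P.real
      ({ω | En M n (X ω) ∈ box B η (n / 2 + 1) (n / 2 - 1)} \ O η)) atTop (𝓝 0) := by
    have hb : Tendsto (fun n : ℕ => P
        ({ω | En M n (X ω) ∈ box B η (n / 2 + 1) (n / 2 - 1)} \ O η)) atTop (𝓝 (P ∅)) := by
      refine tendsto_measure_of_ae_tendsto_indicator_of_isFiniteMeasure atTop MeasurableSet.empty
        (fun n => ((hEm n) (measurableSet_box _ _ _ _)).diff (hOm η)) ?_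
      have : ∀ᵐ ω ∂P, ∀ j ∈ B, ∀ᶠ n : ℕ in atTop,
          (out M (X ω) j = true ↔ (n : ℝ) / 2 < En M n (X ω) j) :=
        (Filter.eventually_all_finset B).2 fun j hj => step3 j (hB j hj)
      filter_upwards [this] with ω hω
      filter_upwards [(Filter.eventually_all_finset B).2 hω] with n hn
      simp only [mem_empty_iff_false, iff_false, Set.mem_sdiff, not_and, not_not]
      intro hbox j hj
      rw [hn j hj]
      have := hbox j hj
      by_cases hjη : j ∈ η
      · simp only [hjη, iff_true]; linarith [this.1 hjη]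
      · simp only [hjη, iff_false, not_lt]; linarith [this.2 hjη]
    have := (ENNReal.tendsto_toReal (measure_ne_top P ∅)).comp hb
    rwa [measure_empty] at this
  have step5 : Tendsto (fun n : ℕ => theta n ^ B.card) atTop (𝓝 1) := by
    simpa using theta_tendsto.pow B.card
  obtain ⟨n, hn1, hn2⟩ := ((step4.eventually (gt_mem_nhds (show 0 < ε / 3 by positivity))).and
    (step5.eventually (lt_mem_nhds (show 1 - ε / 3 < 1 by linarith)))).exists
  filter_upwards [step1 n B hB η (ε / 3) (by positivity)] with k hk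
  have e1 : P.real {ω | En M n (X ω) ∈ box B η (n / 2 + 1) (n / 2 - 1)} ≤ P.real (O η) +
      P.real ({ω | En M n (X ω) ∈ box B η (n / 2 + 1) (n / 2 - 1)} \ O η) :=
    (measureReal_mono (fun ω h => (em (ω ∈ O η)).imp id fun h' => ⟨h, h'⟩)).trans (measureReal_union_le _ _)
  have e2 : a k B η ≤ 1 := by
    rw [← hnorm k]
    exact Finset.sum_le_sum_of_subset_of_nonneg (Finset.filter_subset _ _)
      fun S _ _ => (hsr k).nonneg S
  nlinarith [ha0 k B η]

end Crest.Agent.H5
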