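import Mathlib
import Crest.Agent.H5.SR

/-! Passing to the infinite-volume limit for regular one-site means. -/

set_option autoImplicit false

namespace Crest.Agent.H5

open Filter Topology Finset

variable {I : Type*} [DecidableEq I]

noncomputable def Kc (s : ℝ) : ℝ := Real.exp s * kap s * kap 1

lemma Kc_pos (s : ℝ) : 0 < Kc s :=
  mul_pos (mul_pos (Real.exp_pos _) (kap_pos _)) (kap_pos _)

/-- The regularity properties of one-site means. -/
structure Reg (F : Finset I) (i : I) (f : (I → ℝ) → ℝ) : Prop where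
  nonneg : ∀ y, 0 ≤ f y
  le_one : ∀ y, f y ≤ 1
  mono : ∀ y y', (∀ j ∈ F, y j ≤ y' j) → y i = y' i → f y' ≤ f y
  lip : ∀ y y' δ, 0 ≤ δ → (∀ j ∈ F, |y j - y' j| ≤ δ) → |f y - f y'| ≤ Lc * δ
  p1 : ∀ y A s s₀, A ⊆ F → i ∉ A → |s| ≤ s₀ →
    |f y - f (tilt y A s)| ≤ Kc s₀ * ∑ j ∈ A, (f y - f (tilt y {j} 1))
  p2 : ∀ y A, A ⊆ F → i ∉ A → ∑ j ∈ A, (f y - f (tilt y {j} 1)) ≤ 2 * kap 1 ^ 2

lemma IsSR.reg {F : Finset I} {c : Finset I → ℝ} (h : IsSR F c) (i : I) :
    Reg F i (mean F c i) where
  nonneg := mean_nonneg h.nonneg i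
  le_one := mean_le_one h.nonneg i
  mono := fun _ _ h1 h2 => h.mono i h1 h2
  lip := fun _ _ _ h1 h2 => h.lip i h1 h2
  p1 := fun y _ _ _ _ h2 h3 => h.abs_tilt_le i y h2 h3
  p2 := fun y _ _ h2 => h.sum_infl_le i y h2

lemma Reg.of_tendsto {α : Type*} {l : Filter α} [l.NeBot] {F : Finset I} {i : I}
    {g : α → (I → ℝ) → ℝ} {f : (I → ℝ) → ℝ} (hg : ∀ a, Reg F i (g a))
    (hlim : ∀ y, Tendsto (fun a => g a y) l (𝓝 (f y))) : Reg F i f where
  nonneg := fun y => ge_of_tendsto' (hlim y) fun a => (hg a).nonneg y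
  le_one := fun y => le_of_tendsto' (hlim y) fun a => (hg a).le_one y
  mono := fun y y' h1 h2 => le_of_tendsto_of_tendsto' (hlim y') (hlim y) fun a =>
    (hg a).mono y y' h1 h2
  lip := fun y y' δ h1 h2 => le_of_tendsto' ((hlim y).sub (hlim y')).abs fun a =>
    (hg a).lip y y' δ h1 h2
  p1 := fun y A s s₀ h1 h2 h3 => le_of_tendsto_of_tendsto' ((hlim y).sub (hlim _)).abs
    ((tendsto_finsetSum _ fun _ _ => (hlim y).sub (hlim _)).const_mul _) fun a =>
    (hg a).p1 y A s s₀ h1 h2 h3
  p2 := fun y A h1 h2 => le_of_tendsto'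
    (tendsto_finsetSum _ fun _ _ => (hlim y).sub (hlim _)) fun a => (hg a).p2 y A h1 h2

/-- Freezing the coordinates outside `F₀`. -/
lemma Reg.freeze {F F₀ : Finset I} {i : I} {f : (I → ℝ) → ℝ} (h : Reg F i f) (hF : F₀ ⊆ F)
    (w : I → ℝ) : Reg F₀ i (fun u => f (fun j => if j ∈ F₀ then u j else w j)) := by
  have ht : ∀ (u : I → ℝ) (A : Finset I) (s : ℝ), A ⊆ F₀ →
      (fun j => if j ∈ F₀ then tilt u A s j else w j) =
        tilt (fun j => if j ∈ F₀ then u j else w j) A s := by
    intro u A s hA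
    ext j
    by_cases hj : j ∈ A
    · simp [tilt, hj, hA hj]
    · simp [tilt, hj]
  refine ⟨fun y => h.nonneg _, fun y => h.le_one _, fun y y' h1 h2 => h.mono _ _ ?_ ?_,
    fun y y' δ h1 h2 => h.lip _ _ δ h1 ?_, fun y A s s₀ h1 h2 h3 => ?_, fun y A h1 h2 => ?_⟩
  · intro j _; split_ifs with hj; exacts [h1 j hj, le_rfl]
  · simp only [h2]
  · intro j _; split_ifs with hj; exacts [h2 j hj, by simpa using h1]
  · rw [ht y A s h1, Finset.sum_congr rfl fun j hj => by
      rw [ht y {j} 1 (by simpa using h1 hj)]]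
    exact h.p1 _ A s s₀ (h1.trans hF) h2 h3
  · rw [Finset.sum_congr rfl fun j hj => by rw [ht y {j} 1 (by simpa using h1 hj)]]
    exact h.p2 _ A (h1.trans hF) h2

omit [DecidableEq I] in
lemma tail_small (Δ : I → ℝ) (h0 : ∀ j, 0 ≤ Δ j) (B : ℝ) (hB : ∀ A : Finset I, ∑ j ∈ A, Δ j ≤ B)
    {ε : ℝ} (hε : 0 < ε) : ∃ F₁ : Finset I, ∀ A : Finset I, Disjoint A F₁ → ∑ j ∈ A, Δ j < ε := by
  have hs : Summable Δ := summable_of_sum_le h0 hB
  obtain ⟨s, hs⟩ := summable_iff_vanishing_norm.1 hs ε hε
  exact ⟨s, fun A hA => (le_abs_self _).trans_lt (hs A hA)⟩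

theorem klim {D : Type*} [Preorder D] [IsDirectedOrder D] [Nonempty D]
    (F : D → Finset I) (hF : Monotone F) (i : I) (f : D → (I → ℝ) → ℝ) (C : ℝ)
    (hreg : ∀ d, Reg (F d) i (f d))
    (hanti : ∀ d d' y, d ≤ d' → (∀ j, -C ≤ y j) → f d' y ≤ f d y)
    {α : Type*} {l : Filter α} (dn : α → D) (hdn : Tendsto dn l atTop)
    (yn : α → I → ℝ) (y : I → ℝ) (hyn : ∀ n j, |yn n j| ≤ C) (hy : ∀ j, |y j| ≤ C)
    (hconv : ∀ d, ∀ j ∈ F d, Tendsto (fun n => yn n j) l (𝓝 (y j))) :
    Tendsto (fun n => f (dn n) (yn n)) l (𝓝 (⨅ d, f d y)) := by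
  classical
  set N : (I → ℝ) → ℝ := fun u => ⨅ d, f d u with hN
  have hbdd : ∀ u, BddBelow (Set.range fun d => f d u) := fun u =>
    ⟨0, by rintro _ ⟨d, rfl⟩; exact (hreg d).nonneg u⟩
  have hNle : ∀ d u, N u ≤ f d u := fun d u => ciInf_le (hbdd u) d
  have hNlim : ∀ u, (∀ j, -C ≤ u j) → Tendsto (fun d => f d u) atTop (𝓝 (N u)) := fun u hu =>
    tendsto_atTop_ciInf (fun d d' hd => hanti d d' u hd hu) (hbdd u)
  have hC : 0 ≤ C := (abs_nonneg _).trans (hy i)
  have hyD : ∀ j, -C ≤ y j := fun j => (abs_le.1 (hy j)).1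
  have htD : ∀ (A : Finset I) (s : ℝ), 0 ≤ s → ∀ j, -C ≤ tilt y A s j := by
    intro A s hs j
    have := hyD j
    simp only [tilt]; split_ifs <;> linarith
  have hclose : ∀ (A : Finset I) (δ : ℝ), 0 < δ →
      ∀ᶠ n in l, ∀ j ∈ A, (∃ d, j ∈ F d) → |yn n j - y j| ≤ δ := by
    intro A δ hδ
    rw [Filter.eventually_all_finset]
    intro j _
    by_cases hj : ∃ d, j ∈ F d
    · obtain ⟨d, hd⟩ := hj
      have := Metric.tendsto_nhds.1 (hconv d j hd) δ hδ
      exact this.mono fun n hn _ => (by rw [Real.dist_eq] at hn; exact hn.le)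
    · exact Eventually.of_forall fun n h => absurd h hj
  have hL := one_le_Lc
  rw [tendsto_order]
  constructor
  · intro a ha
    set ε := N y - a with hε
    have hε0 : 0 < ε := sub_pos.2 ha
    set Δ : I → ℝ := fun j => if j ≠ i ∧ ∃ d, j ∈ F d then N y - N (tilt y {j} 1) else 0 with hΔ
    have hΔlim : ∀ j, Tendsto (fun d => f d y - f d (tilt y {j} 1)) atTop
        (𝓝 (N y - N (tilt y {j} 1))) := fun j =>
      (hNlim y hyD).sub (hNlim _ (htD _ _ zero_le_one))
    have hΔ0 : ∀ j, 0 ≤ Δ j := by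
      intro j
      simp only [hΔ]
      split_ifs with hj
      · refine ge_of_tendsto' (hΔlim j) fun d => sub_nonneg.2 ((hreg d).mono _ _ ?_ ?_)
        · intro k _; simp only [tilt]; split_ifs <;> linarith
        · simp [tilt, hj.1.symm]
      · exact le_rfl
    have hsub : ∀ A : Finset I, (∀ j ∈ A, ∃ d, j ∈ F d) → ∀ᶠ d in atTop, A ⊆ F d := by
      intro A hA
      have : ∀ᶠ d in atTop, ∀ j ∈ A, j ∈ F d := by
        rw [Filter.eventually_all_finset]
        intro j hj
        obtain ⟨d, hd⟩ := hA j hj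
        exact (eventually_ge_atTop d).mono fun d' hd' => hF hd' hd
      exact this
    have hΔB : ∀ A : Finset I, ∑ j ∈ A, Δ j ≤ 2 * kap 1 ^ 2 := by
      intro A
      simp only [hΔ]
      rw [← Finset.sum_filter]
      refine le_of_tendsto (tendsto_finsetSum _ fun j _ => hΔlim j) ?_
      filter_upwards [hsub (A.filter fun j => j ≠ i ∧ ∃ d, j ∈ F d)
        fun j hj => (Finset.mem_filter.1 hj).2.2] with d hd
      exact (hreg d).p2 y _ hd (by simp)
    have hK := Kc_pos (2 * C)
    obtain ⟨F₁, hF₁⟩ := tail_small Δ hΔ0 _ hΔB (ε := ε / (3 * Kc (2 * C))) (by positivity)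
    filter_upwards [hclose (insert i F₁) (ε / (3 * Lc)) (by positivity)] with n hn
    set A := F (dn n) \ insert i F₁ with hA
    have hiA : i ∉ A := by simp [hA]
    set z : I → ℝ := fun j => if j ∈ insert i F₁ then y j else yn n j with hz
    have e1 : |f (dn n) (yn n) - f (dn n) z| ≤ Lc * (ε / (3 * Lc)) := by
      refine (hreg _).lip _ _ _ (by positivity) fun j hj => ?_
      simp only [hz]
      split_ifs with hj'
      · exact hn j hj' ⟨_, hj⟩
      · simp only [sub_self, abs_zero]; positivity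
    have e2 : f (dn n) (tilt y A (2 * C)) ≤ f (dn n) z := by
      refine (hreg _).mono _ _ (fun j hj => ?_) (by simp [hz, tilt, hiA])
      simp only [hz, tilt, hA, Finset.mem_sdiff, hj, true_and]
      split_ifs with hj'
      · exact le_rfl
      · linarith [(abs_le.1 (hyn n j)).2, hyD j]
    have e3 := hNle (dn n) (tilt y A (2 * C))
    have hAF : ∀ j ∈ A, ∃ d, j ∈ F d := fun j hj => ⟨_, (Finset.mem_sdiff.1 hj).1⟩
    have e4 : |N y - N (tilt y A (2 * C))| ≤ Kc (2 * C) * ∑ j ∈ A, Δ j := by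
      have : ∑ j ∈ A, Δ j = ∑ j ∈ A, (N y - N (tilt y {j} 1)) := by
        refine Finset.sum_congr rfl fun j hj => ?_
        simp only [hΔ]
        rw [if_pos ⟨fun e => hiA (e ▸ hj), hAF j hj⟩]
      rw [this]
      refine le_of_tendsto_of_tendsto
        ((hNlim y hyD).sub (hNlim _ (htD A (2 * C) (by linarith)))).abs
        ((tendsto_finsetSum _ fun j _ => hΔlim j).const_mul _) ?_
      filter_upwards [hsub A hAF] with d hd
      exact (hreg d).p1 y A _ _ hd hiA (by rw [abs_of_nonneg (by linarith)])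
    have e5 := hF₁ A (Finset.disjoint_of_subset_right (Finset.subset_insert i F₁)
      Finset.sdiff_disjoint)
    have e6 : Kc (2 * C) * ∑ j ∈ A, Δ j ≤ ε / 3 := by
      calc _ ≤ Kc (2 * C) * (ε / (3 * Kc (2 * C))) := by gcongr
        _ = ε / 3 := by field_simp
    have e7 : Lc * (ε / (3 * Lc)) = ε / 3 := by field_simp
    have := abs_le.1 e1
    have := abs_le.1 e4
    linarith
  · intro a ha
    obtain ⟨d₀, hd₀⟩ := exists_lt_of_ciInf_lt ha
    set ε := a - f d₀ y with hε
    have hε0 : 0 < ε := sub_pos.2 hd₀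
    filter_upwards [hclose (F d₀) (ε / (2 * Lc)) (by positivity),
      hdn.eventually (eventually_ge_atTop d₀)] with n hn hd
    have e1 := hanti d₀ (dn n) (yn n) hd fun j => (abs_le.1 (hyn n j)).1
    have e2 : |f d₀ (yn n) - f d₀ y| ≤ Lc * (ε / (2 * Lc)) :=
      (hreg _).lip _ _ _ (by positivity) fun j hj => hn j hj ⟨_, hj⟩
    have e7 : Lc * (ε / (2 * Lc)) = ε / 2 := by field_simp
    have := abs_le.1 e2
    linarith

/-- upper envelope of a consistent family -/
noncomputable def Uenv (c : Finset I → Finset I → ℝ) (i : I) (C : ℝ) (F₀ : Finset I)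
    (u : I → ℝ) : ℝ :=
  ⨆ F : Finset I, mean (insert i F₀ ∪ F) (c (insert i F₀ ∪ F)) i
    (fun j => if j ∈ insert i F₀ then u j else -C)

/-- Consistent families: the means converge along every exhaustion. -/
theorem klim_consistent (c : Finset I → Finset I → ℝ) (hsr : ∀ F, IsSR F (c F)) (i : I)
    (hcons : ∀ (F F' : Finset I) (y : I → ℝ), F ⊆ F' → i ∈ F → (∀ j ∈ F', j ∉ F → y j = 0) →
      mean F' (c F') i y = mean F (c F) i y)
    (C : ℝ) (y : I → ℝ) (hy : ∀ j, |y j| ≤ C)
    {α : Type*} {l : Filter α} (dn : α → Finset I) (hdn : Tendsto dn l atTop)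
    (yn : α → I → ℝ) (hyn : ∀ n j, |yn n j| ≤ C)
    (hconv : ∀ j, Tendsto (fun n => yn n j) l (𝓝 (y j))) :
    Tendsto (fun n => mean (dn n) (c (dn n)) i (yn n)) l (𝓝 (⨅ d, Uenv c i C d y)) := by
  classical
  have hC : 0 ≤ C := (abs_nonneg _).trans (hy i)
  have cmp : ∀ (F F' : Finset I) (w w' : I → ℝ), i ∈ F → i ∈ F' →
      (∀ j, (if j ∈ F then w j else 0) ≤ if j ∈ F' then w' j else 0) → w i = w' i →
      mean F' (c F') i w' ≤ mean F (c F) i w := by
    intro F F' w w' hF hF' hle hi
    have e1 := hcons F (F ∪ F') (fun j => if j ∈ F then w j else 0) Finset.subset_union_left hF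
      (fun j _ hj => if_neg hj)
    have e2 := hcons F' (F ∪ F') (fun j => if j ∈ F' then w' j else 0) Finset.subset_union_right
      hF' (fun j _ hj => if_neg hj)
    rw [mean_congr (F := F) i (y' := w) (fun j hj => if_pos hj)] at e1
    rw [mean_congr (F := F') i (y' := w') (fun j hj => if_pos hj)] at e2
    rw [← e1, ← e2]
    exact (hsr _).mono i (fun j _ => hle j) (by simp [hF, hF', hi])
  have hbdd : ∀ (F₀ : Finset I) (u : I → ℝ), BddAbove (Set.range fun F : Finset I =>
      mean (insert i F₀ ∪ F) (c (insert i F₀ ∪ F)) i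
        (fun j => if j ∈ insert i F₀ then u j else -C)) := fun F₀ u =>
    ⟨1, by rintro _ ⟨F, rfl⟩; exact mean_le_one (hsr _).nonneg _ _⟩
  have hreg : ∀ F₀, Reg (insert i F₀) i (Uenv c i C F₀) := by
    intro F₀
    refine Reg.of_tendsto (l := atTop) (g := fun F u => mean (insert i F₀ ∪ F)
      (c (insert i F₀ ∪ F)) i (fun j => if j ∈ insert i F₀ then u j else -C))
      (fun F => ((hsr _).reg i).freeze Finset.subset_union_left _) fun u => ?_
    refine tendsto_atTop_ciSup (fun F F' hF => cmp _ _ _ _ (by simp) (by simp) (fun j => ?_) rfl)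
      (hbdd F₀ u)
    by_cases h1 : j ∈ insert i F₀
    · simp only [Finset.mem_union, h1, true_or, if_true, le_refl]
    · by_cases h2 : j ∈ F
      · simp only [Finset.mem_union, h1, h2, hF h2, or_true, if_true, le_refl]
      · simp only [Finset.mem_union, h1, h2, false_or, if_false]
        split_ifs <;> linarith
  have hanti : ∀ d d' u, d ≤ d' → (∀ j, -C ≤ u j) → Uenv c i C d' u ≤ Uenv c i C d u := by
    intro d d' u hd hu
    refine ciSup_le fun F => le_trans ?_ (le_ciSup (hbdd d u) (insert i d' ∪ F))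
    refine cmp _ _ _ _ (by simp) (by simp) (fun j => ?_) (by simp)
    have hdd : insert i d ⊆ insert i d' := Finset.insert_subset_insert _ hd
    by_cases h1 : j ∈ insert i d
    · simp only [Finset.mem_union, h1, hdd h1, true_or, if_true, le_refl]
    · by_cases h2 : j ∈ insert i d'
      · simp only [Finset.mem_union, h1, h2, true_or, or_true, if_true, if_false, hu j]
      · simp only [Finset.mem_union, h1, h2, false_or, if_false, le_refl]
  have hmono : Monotone fun d : Finset I => insert i d := fun d d' hd =>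
    Finset.insert_subset_insert _ hd
  have hi : ∀ᶠ n in l, i ∈ dn n :=
    (hdn.eventually (eventually_ge_atTop {i})).mono fun n hn => hn (Finset.mem_singleton_self i)
  have htail : ∀ (d : Finset I) (u : I → ℝ) (ε : ℝ), 0 < ε → ∃ d', d ≤ d' ∧ (i ∈ d →
      Uenv c i C d' (fun j => if j ∈ d then u j else 0) ≤ mean d (c d) i u + ε) := by
    intro d u ε hε
    by_cases hid : i ∈ d
    swap
    · exact ⟨d, le_rfl, fun h => absurd h hid⟩
    set z : I → ℝ := fun j => if j ∈ d then u j else 0 with hz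
    set Δ : I → ℝ := fun j => if j = i then 0 else
      mean (insert j d) (c (insert j d)) i z - mean (insert j d) (c (insert j d)) i (tilt z {j} 1)
      with hΔ
    have hΔG : ∀ G : Finset I, d ⊆ G → ∀ j ∈ G, j ≠ i →
        Δ j = mean G (c G) i z - mean G (c G) i (tilt z {j} 1) := by
      intro G hG j hj hji
      have hs : insert j d ⊆ G := Finset.insert_subset hj hG
      simp only [hΔ, if_neg hji]
      rw [hcons _ G z hs (Finset.mem_insert_of_mem hid),
        hcons _ G (tilt z {j} 1) hs (Finset.mem_insert_of_mem hid)]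
      · intro k _ hk
        rw [Finset.mem_insert, not_or] at hk
        simp [tilt, hz, hk.1, hk.2]
      · intro k _ hk
        rw [Finset.mem_insert, not_or] at hk
        simp [hz, hk.2]
    have hΔ0 : ∀ j, 0 ≤ Δ j := by
      intro j
      simp only [hΔ]
      split_ifs with hj
      · exact le_rfl
      · exact sub_nonneg.2 ((hsr _).mono_tilt i z (by simpa using fun e => hj e.symm) zero_le_one)
    have hΔB : ∀ A : Finset I, ∑ j ∈ A, Δ j ≤ 2 * kap 1 ^ 2 := by
      intro A
      rw [← Finset.sum_erase A (a := i) (by simp [hΔ]),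
        Finset.sum_congr rfl fun j hj => hΔG (d ∪ A) Finset.subset_union_left j
          (Finset.mem_union_right _ (Finset.mem_of_mem_erase hj)) (Finset.ne_of_mem_erase hj)]
      exact (hsr _).sum_infl_le i z (Finset.notMem_erase i A)
    have hK := Kc_pos C
    obtain ⟨F₁, hF₁⟩ := tail_small Δ hΔ0 _ hΔB (ε := ε / Kc C) (by positivity)
    refine ⟨d ∪ F₁, Finset.subset_union_left, fun _ => ciSup_le fun F => ?_⟩
    set G := insert i (d ∪ F₁) ∪ F with hG
    set A := G \ insert i (d ∪ F₁) with hA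
    have hdG : d ⊆ G := fun j hj => by simp [hG, hj]
    have hiA : i ∉ A := by simp [hA]
    have e1 : mean G (c G) i (fun j => if j ∈ insert i (d ∪ F₁) then z j else -C) =
        mean G (c G) i (tilt z A (-C)) := by
      refine mean_congr i fun j hj => ?_
      simp only [tilt, hA, Finset.mem_sdiff, hj, true_and]
      split_ifs with h1
      · rfl
      · have : j ∉ d := fun h => h1 (by simp [h])
        simp [hz, this]
    have e2 := (hsr G).abs_tilt_le i z hiA (s := -C) (s₀ := C) (by rw [abs_neg, abs_of_nonneg hC])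
    rw [← Finset.sum_congr rfl fun j hj => hΔG G hdG j (Finset.mem_sdiff.1 hj).1
      (fun e => hiA (e ▸ hj))] at e2
    have e3 := hF₁ A (Finset.disjoint_of_subset_right
      (Finset.subset_union_right.trans (Finset.subset_insert i _)) Finset.sdiff_disjoint)
    have e4 : Kc C * ∑ j ∈ A, Δ j ≤ ε := by
      calc _ ≤ Kc C * (ε / Kc C) := by gcongr
        _ = ε := by field_simp
    have e5 : mean G (c G) i z = mean d (c d) i u := by
      rw [hcons d G z hdG hid (fun j _ hj => if_neg hj)]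
      exact mean_congr i fun j hj => if_pos hj
    rw [e1]
    have := abs_le.1 e2
    unfold Kc at e4
    linarith
  rw [tendsto_order]
  constructor
  · intro a ha
    obtain ⟨b, hab, hb⟩ := exists_between ha
    choose d' hd' hd'' using fun n => htail (dn n) (yn n) (b - a) (sub_pos.2 hab)
    have := klim (fun d => insert i d) hmono i (Uenv c i C) C hreg hanti d'
      (tendsto_atTop_mono hd' hdn) (fun n j => if j ∈ dn n then yn n j else 0) y
      (fun n j => by split_ifs; exacts [hyn n j, by simpa using hC]) hy (fun d j _ => by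
        refine (hconv j).congr' ?_
        filter_upwards [hdn.eventually (eventually_ge_atTop {j})] with n hn
        rw [if_pos (hn (Finset.mem_singleton_self j))])
    filter_upwards [this.eventually (lt_mem_nhds hb), hi] with n h1 h2
    have := hd'' n h2
    linarith
  · intro a ha
    have := klim (fun d => insert i d) hmono i (Uenv c i C) C hreg hanti dn hdn yn y hyn hy
      (fun d j _ => hconv j)
    filter_upwards [this.eventually (gt_mem_nhds ha), hi] with n h1 h2
    refine lt_of_le_of_lt (le_trans ?_ (le_ciSup (hbdd (dn n) (yn n)) ∅)) h1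
    refine cmp _ _ _ _ (by simp) h2 (fun j => ?_) (by simp)
    rw [Finset.insert_eq_of_mem h2]
    by_cases h : j ∈ dn n <;> simp [h]

end Crest.Agent.H5
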