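import Mathlib
import Crest.Prelude.Def_Labels
import Crest.Prelude.Def_StronglyRayleigh
import Crest.Agent.H5.KLim
import Crest.Agent.H5.Flow

/-! Shift-invariant strongly Rayleigh laws on countable groups. -/

set_option autoImplicit false

namespace Crest.Agent.H5

open Filter Topology Set MeasureTheory Function
open scoped ENNReal

lemma sum_powerset_map {I I' : Type*} [DecidableEq I] (e : I' ↪ I) (F : Finset I')
    (g : Finset I → ℝ) : ∑ S ∈ (F.map e).powerset, g S = ∑ S ∈ F.powerset, g (S.map e) := by
  classical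
  rw [Finset.map_eq_image, Finset.powerset_image, Finset.sum_image
    fun S _ T _ h => Finset.image_injective e.injective h]
  simp only [Finset.map_eq_image]

lemma mean_map {I I' : Type*} [DecidableEq I] [DecidableEq I'] (e : I' ↪ I) (F : Finset I')
    (c : Finset I → ℝ) (c' : Finset I' → ℝ) (h : ∀ S ⊆ F, c (S.map e) = c' S) (i : I')
    (y : I → ℝ) : mean (F.map e) c (e i) y = mean F c' i (y ∘ e) := by
  have hw : ∀ S ∈ F.powerset, wt c y (S.map e) = wt c' (y ∘ e) S := by
    intro S hS
    simp only [wt, h S (Finset.mem_powerset.1 hS), Finset.prod_map, Function.comp_apply]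
  unfold mean Ns Zs
  rw [sum_powerset_map, sum_powerset_map, Finset.sum_congr rfl hw]
  congr 1
  refine Finset.sum_congr rfl fun S hS => ?_
  simp only [Finset.mem_map', hw S hS]

variable {I : Type*} [DecidableEq I]

def cyl (F S : Finset I) : Set (I → Bool) := {ω | ∀ i ∈ F, (ω i = true ↔ i ∈ S)}

omit [DecidableEq I] in
lemma measurableSet_cyl (F S : Finset I) : MeasurableSet (cyl F S) := by
  have : cyl F S = ⋂ j ∈ F, (fun ω : I → Bool => ω j) ⁻¹' {b | b = true ↔ j ∈ S} := by
    ext ω; simp [cyl]
  rw [this]
  exact Finset.measurableSet_biInter _ fun j _ =>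
    (measurable_pi_apply j) (MeasurableSet.of_discrete)

omit [DecidableEq I] in
lemma cyl_eq {F S : Finset I} (h : S ⊆ F) :
    (fun ω : I → Bool => F.filter fun j => ω j = true) ⁻¹' {S} = cyl F S := by
  ext ω
  simp only [cyl, mem_preimage, mem_singleton_iff, mem_ofPred_eq, Finset.ext_iff,
    Finset.mem_filter]
  constructor
  · intro h j hj; rw [← h j]; simp [hj]
  · intro h' j
    exact ⟨fun h'' => (h' j h''.1).1 h''.2, fun h'' => ⟨h h'', (h' j (h h'')).2 h''⟩⟩

lemma sum_cyl (ν : Measure (I → Bool)) [IsFiniteMeasure ν] {F F' T : Finset I} (hF : F ⊆ F')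
    (hT : T ⊆ F) : ∑ S ∈ F'.powerset with S ∩ F = T, ν.real (cyl F' S) = ν.real (cyl F T) := by
  have h1 : ∀ S ∈ F'.powerset.filter (fun S => S ∩ F = T),
      (fun ω : I → Bool => F'.filter fun j => ω j = true) ⁻¹' {S} = cyl F' S := fun S hS =>
    cyl_eq (Finset.mem_powerset.1 (Finset.mem_filter.1 hS).1)
  rw [← Finset.sum_congr rfl fun S hS => congrArg ν.real (h1 S hS),
    sum_measureReal_preimage_singleton _ fun S hS => by rw [h1 S hS]; exact measurableSet_cyl _ _,
    ← cyl_eq hT]
  congr 1
  ext ω
  simp only [mem_preimage, Finset.coe_filter, Finset.mem_powerset, Finset.filter_subset, true_and,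
    mem_ofPred_eq, mem_singleton_iff]
  rw [Finset.filter_inter, ← Finset.filter_inter, Finset.inter_comm, Finset.inter_filter,
    Finset.inter_comm, Finset.inter_eq_right.2 hF]

lemma sum_cyl_mul (ν : Measure (I → Bool)) [IsFiniteMeasure ν] {F F' : Finset I} (hF : F ⊆ F')
    (g : Finset I → ℝ) : ∑ S ∈ F'.powerset, ν.real (cyl F' S) * g (S ∩ F) =
      ∑ T ∈ F.powerset, ν.real (cyl F T) * g T := by
  rw [← Finset.sum_fiberwise_of_maps_to (t := F.powerset) (g := fun S => S ∩ F)
    (fun S _ => by simp)]
  refine Finset.sum_congr rfl fun T hT => ?_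
  rw [← sum_cyl ν hF (Finset.mem_powerset.1 hT), Finset.sum_mul]
  exact Finset.sum_congr rfl fun S hS => by rw [(Finset.mem_filter.1 hS).2]

lemma mean_cyl (ν : Measure (I → Bool)) [IsFiniteMeasure ν] (i : I) (F F' : Finset I) (y : I → ℝ)
    (hF : F ⊆ F') (hi : i ∈ F) (hy : ∀ j ∈ F', j ∉ F → y j = 0) :
    mean F' (fun S => ν.real (cyl F' S)) i y = mean F (fun S => ν.real (cyl F S)) i y := by
  have hp : ∀ S ∈ F'.powerset, ∏ j ∈ S, Real.exp (y j) = ∏ j ∈ S ∩ F, Real.exp (y j) := by
    intro S hS
    refine (Finset.prod_subset Finset.inter_subset_left fun j h1 h2 => ?_).symm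
    rw [hy j (Finset.mem_powerset.1 hS h1) fun h => h2 (Finset.mem_inter.2 ⟨h1, h⟩), Real.exp_zero]
  unfold mean Ns Zs wt
  rw [← sum_cyl_mul ν hF fun T => ∏ j ∈ T, Real.exp (y j)]
  have := sum_cyl_mul ν hF fun T => if i ∈ T then ∏ j ∈ T, Real.exp (y j) else 0
  simp only [mul_ite, mul_zero] at this
  rw [← this]
  congr 1
  · refine Finset.sum_congr rfl fun S hS => ?_
    simp only [Finset.mem_inter, hi, and_true, hp S hS]
  · exact Finset.sum_congr rfl fun S hS => by rw [hp S hS]

omit [DecidableEq I] in
lemma ext_cyl (μ ν : Measure (I → Bool)) [IsFiniteMeasure ν]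
    (h : ∀ B η : Finset I, η ⊆ B → μ (cyl B η) = ν (cyl B η)) : μ = ν := by
  classical
  refine IsProjectiveLimit.unique (P := fun B : Finset I => ν.map B.restrict) (fun B => ?_)
    fun B => rfl
  refine Measure.ext_of_singleton fun b => ?_
  rw [Measure.map_apply (Finset.measurable_restrict B) (measurableSet_singleton b),
    Measure.map_apply (Finset.measurable_restrict B) (measurableSet_singleton b)]
  have : (fun ω : I → Bool => B.restrict ω) ⁻¹' {b} = cyl B (B.filter fun j => ∃ hj : j ∈ B, b ⟨j, hj⟩ = true) := by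
    ext ω
    simp only [mem_preimage, mem_singleton_iff, cyl, mem_ofPred_eq, Finset.mem_filter]
    constructor
    · rintro rfl i hi; simp [hi]
    · intro h
      ext ⟨i, hi⟩
      have := h i hi
      simp only [hi, exists_true_left, true_and] at this
      exact Bool.eq_iff_iff.2 this
  exact this ▸ h _ _ (Finset.filter_subset _ _)

open Crest.ProbabilityR in
theorem group_factor (Γ : Type*) [Group Γ]
    [Countable Γ] (ν : Measure (Γ → Bool)) [IsProbabilityMeasure ν]
    (hsr : StronglyRayleigh.IsStronglyRayleigh ν) (hinv : StronglyRayleigh.IsShiftInvariant ν) :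
    ∃ Φ : (Γ → unitInterval) → (Γ → Bool), Measurable Φ ∧
      (∀ (g : Γ) (u : Γ → unitInterval),
        Φ (StronglyRayleigh.leftShift g u) = StronglyRayleigh.leftShift g (Φ u)) ∧
      (Labels.labelMeasure Γ).map Φ = ν := by
  classical
  obtain ⟨f, hf, hfη⟩ := Measure.exists_measurable_map_eq eta
  set c : Finset Γ → Finset Γ → ℝ := fun F S => ν.real (cyl F S) with hc
  have hSR : ∀ F, IsSR F (c F) := fun F => ⟨fun S => measureReal_nonneg, fun z hz => hsr F z hz⟩
  set M : Γ → (Γ → ℝ) → ℝ := fun i y => limUnder atTop fun F => mean F (c F) i y with hM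
  have hMm : ∀ i, Measurable (M i) := fun i =>
    (StronglyMeasurable.limUnder (l := atTop) (f := fun F y => mean F (c F) i y)
      fun F => (measurable_mean i).stronglyMeasurable).measurable
  set X : (Γ → unitInterval) → Γ → ℝ := fun u i => f (u i) with hX
  have hXm : Measurable X := measurable_pi_lambda _ fun i => hf.comp (measurable_pi_apply i)
  have hΦm : Measurable fun u => out M (X u) :=
    measurable_out (fun _ => M) (fun i => (hMm i).comp measurable_snd) X hXm
  refine ⟨fun u => out M (X u), hΦm, fun g u => ?_, ?_⟩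
  · refine out_equiv (fun h => g⁻¹ * h) M M (fun i y => ?_) (X u)
    set e : Γ ≃ Γ := Equiv.mulLeft g⁻¹ with he
    have h1 : ∀ F : Finset Γ, mean F (c F) i (y ∘ fun h => g⁻¹ * h) =
        mean (F.map e.toEmbedding) (c (F.map e.toEmbedding)) (g⁻¹ * i) y := by
      intro F
      refine (mean_map e.toEmbedding F _ (c F) (fun S _ => ?_) i y).symm
      simp only [hc, measureReal_def]
      rw [← hinv g _ (measurableSet_cyl F S)]
      congr 2
      ext ω
      simp only [cyl, mem_ofPred_eq, Finset.forall_mem_map, Finset.mem_map', mem_preimage]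
      rfl
    simp only [hM, h1]
    have h2 : Filter.map (fun F : Finset Γ => F.map e.toEmbedding) atTop = atTop :=
      OrderIso.map_atTop (⟨e.finsetCongr, fun {a b} => Finset.map_subset_map⟩ :
        Finset Γ ≃o Finset Γ)
    unfold limUnder
    conv_rhs => rw [← h2, Filter.map_map]
    rfl
  · have : IsProbabilityMeasure (Labels.labelMeasure Γ) := by
      unfold Labels.labelMeasure; infer_instance
    refine ext_cyl _ _ fun B η hη => ?_
    have hlim := flow_law (l := atTop) (fun F : Finset Γ => F) c hSR
      (fun F => by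
        have := sum_cyl_mul ν (Finset.empty_subset F) fun _ => 1
        simpa [cyl, hc] using this)
      univ (fun j _ => (eventually_ge_atTop {j}).mono fun F hF => hF (Finset.mem_singleton_self j))
      M hMm (fun i _ C yn y h1 h2 h3 => by
        have a := klim_consistent c hSR i (mean_cyl ν i) C y h2 (l := atTop) (fun F => F) tendsto_id
          (fun _ => y) (fun _ => h2) (fun _ => tendsto_const_nhds)
        have b := klim_consistent c hSR i (mean_cyl ν i) C y h2 (l := atTop) (fun F => F) tendsto_id
          yn h1 (fun j => h3 j trivial)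
        simp only [hM]
        rw [Tendsto.limUnder_eq a]
        exact b)
      (Labels.labelMeasure Γ) X hXm (fun F => by
        have : (fun u => F.restrict (X u)) = F.restrict ∘ X := rfl
        rw [this, ← Measure.map_map (Finset.measurable_restrict F) hXm, Labels.labelMeasure,
          Measure.infinitePi_map_pi _ (f := fun _ => f) fun _ => hf]
        simp only [hfη]
        rw [Measure.infinitePi_map_restrict]) B (fun _ _ => trivial) η hη
    have hconst : Tendsto (fun F : Finset Γ => ∑ S ∈ F.powerset with S ∩ B = η, c F S) atTop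
        (𝓝 (ν.real (cyl B η))) := by
      refine tendsto_const_nhds.congr' ?_
      filter_upwards [eventually_ge_atTop B] with F hF
      exact (sum_cyl ν hF hη).symm
    have := tendsto_nhds_unique hlim hconst
    rw [Measure.map_apply hΦm (measurableSet_cyl _ _)]
    exact (measureReal_eq_measureReal_iff (measure_ne_top _ _) (measure_ne_top _ _)).1 this

end Crest.Agent.H5
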