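import Mathlib
import Crest.Agent.H5.SR

/-! Spanning trees: the matrix-tree theorem via Cauchy-Binet, and stability. -/

set_option autoImplicit false

namespace Crest.Agent.H5

open Finset Matrix

section CB

variable {n K R : Type*} [Fintype n] [DecidableEq n] [DecidableEq K] [CommRing R]

lemma det_gram_aux (KK : Finset K) (b : K → n → R) :
    ∃ γ : Finset K → R, (∀ T, T.card ≠ Fintype.card n → γ T = 0) ∧
      ∀ W : K → R, det (of fun u v => ∑ k ∈ KK, W k * b k u * b k v) =
        ∑ T ∈ KK.powerset, γ T * ∏ k ∈ T, W k := by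
  set t : (n → K) → R := fun f => (∏ u, b (f u) u) * det (of fun u v => b (f u) v) with ht
  have ht0 : ∀ f, ¬ Function.Injective f → t f = 0 := by
    intro f hf
    simp only [Function.Injective, not_forall] at hf
    obtain ⟨u, v, h1, h2⟩ := hf
    simp only [ht]
    rw [det_zero_of_row_eq h2 (by ext w; simp [h1]), mul_zero]
  refine ⟨fun T => ∑ f ∈ Fintype.piFinset (fun _ : n => KK) with univ.image f = T, t f,
    fun T hT => Finset.sum_eq_zero fun f hf => ht0 f fun hinj => hT ?_, fun W => ?_⟩
  · rw [← (Finset.mem_filter.1 hf).2, Finset.card_image_of_injective _ hinj, Finset.card_univ]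
  · have h1 : det (of fun u v => ∑ k ∈ KK, W k * b k u * b k v) =
        ∑ f ∈ Fintype.piFinset (fun _ : n => KK), (∏ u, W (f u)) * t f := by
      have := (detRowAlternating (n := n) (R := R)).toMultilinearMap.map_sum_finset
        (fun u k => fun v => W k * b k u * b k v) (fun _ => KK)
      refine Eq.trans ?_ (this.trans ?_)
      · refine congrArg (detRowAlternating (n := n) (R := R)) ?_
        ext u v
        simp
      · refine Finset.sum_congr rfl fun f _ => ?_
        have := det_mul_column (fun u => W (f u) * b (f u) u) (of fun u v => b (f u) v)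
        simp only [ht]
        rw [← mul_assoc, ← Finset.prod_mul_distrib, ← this]
        rfl
    rw [h1, ← Finset.sum_fiberwise_of_maps_to (t := KK.powerset) (g := fun f => univ.image f)
      (fun f hf => by
        rw [Finset.mem_powerset, Finset.image_subset_iff]
        exact fun u _ => Fintype.mem_piFinset.1 hf u)]
    refine Finset.sum_congr rfl fun T _ => ?_
    rw [Finset.sum_mul]
    refine Finset.sum_congr rfl fun f hf => ?_
    by_cases hinj : Function.Injective f
    · rw [← (Finset.mem_filter.1 hf).2, Finset.prod_image fun u _ v _ h => hinj h, mul_comm]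
    · rw [ht0 f hinj, mul_zero, zero_mul]

def gram (b : K → n → R) (T : Finset K) : Matrix n n R := of fun u v => ∑ k ∈ T, b k u * b k v

lemma det_gram (KK : Finset K) (b : K → n → R) (W : K → R) :
    det (of fun u v => ∑ k ∈ KK, W k * b k u * b k v) = ∑ T ∈ KK.powerset,
      (if T.card = Fintype.card n then det (gram b T) else 0) * ∏ k ∈ T, W k := by
  obtain ⟨γ, h0, h⟩ := det_gram_aux KK b
  rw [h]
  refine Finset.sum_congr rfl fun T hT => ?_
  congr 1
  split_ifs with hc
  · have h1 := h fun k => if k ∈ T then 1 else 0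
    have h2 : (of fun u v => ∑ k ∈ KK, (if k ∈ T then (1 : R) else 0) * b k u * b k v) =
        gram b T := by
      ext u v
      simp only [gram, of_apply, ite_mul, one_mul, zero_mul]
      rw [Finset.sum_ite_mem, Finset.inter_eq_right.2 (Finset.mem_powerset.1 hT)]
    rw [h2, Finset.sum_eq_single T] at h1
    · rw [h1, Finset.prod_congr rfl fun k hk => if_pos hk]; simp
    · intro T' _ hne
      by_cases hc' : T'.card = Fintype.card n
      · have : ¬ T' ⊆ T := fun hs => hne (Finset.eq_of_subset_of_card_le hs (by rw [hc, hc']))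
        obtain ⟨k, hk, hk'⟩ := Finset.not_subset.1 this
        rw [Finset.prod_eq_zero hk (if_neg hk'), mul_zero]
      · rw [h0 T' hc', zero_mul]
    · exact fun h => absurd hT h
  · exact h0 T hc

omit [DecidableEq K] in
lemma det_gram_eq_zero [IsDomain R] (b : K → n → R) (T : Finset K) (x : n → R) (hx : x ≠ 0)
    (h : ∀ k ∈ T, ∑ u, b k u * x u = 0) : det (gram b T) = 0 := by
  refine exists_mulVec_eq_zero_iff.1 ⟨x, hx, ?_⟩
  ext u
  simp only [mulVec, dotProduct, gram, of_apply, Finset.sum_mul, Pi.zero_apply]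
  rw [Finset.sum_comm]
  refine Finset.sum_eq_zero fun k hk => ?_
  simp only [mul_assoc]
  rw [← Finset.mul_sum, h k hk, mul_zero]

omit [DecidableEq K] in
lemma det_gram_eq_sq (b : K → n → R) (T : Finset K) (g : n ≃ T) :
    det (gram b T) = det (of fun s v => b (g s) v) ^ 2 := by
  have : gram b T = (of fun s v => b (g s) v)ᵀ * (of fun s v => b (g s) v) := by
    ext u v
    simp only [gram, of_apply, mul_apply, transpose_apply]
    rw [← Finset.sum_coe_sort T, ← g.sum_comp]
  rw [this, det_mul, det_transpose, sq]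

end CB

variable {V : Type*} [DecidableEq V]

/-- connectivity of `S` through the pairs in `A`, in cut form -/
def Conn (S : Finset V) (A : Finset (Sym2 V)) : Prop :=
  ∀ U : Set V, (∀ a b, s(a, b) ∈ A → a ∈ U → b ∈ U) → ∀ u ∈ S, u ∈ U → ∀ v ∈ S, v ∈ U

open Classical in
noncomputable def tr (S : Finset V) (A : Finset (Sym2 V)) : ℝ :=
  if Conn S A ∧ A.card + 1 = S.card then 1 else 0

omit [DecidableEq V] in
lemma tr_nonneg (S : Finset V) (A : Finset (Sym2 V)) : 0 ≤ tr S A := by
  unfold tr; split_ifs <;> norm_num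

/-- pairs inside `S`, no loops -/
def Inside (S : Finset V) (E : Finset (Sym2 V)) : Prop :=
  ∀ a b, s(a, b) ∈ E → a ∈ S ∧ b ∈ S ∧ a ≠ b

noncomputable def bvec (R : Type*) [CommRing R] (S : Finset V) (r : V) (k : Sym2 V) (u : S) : R :=
  if k = s(r, r) then (if u.1 = r then 1 else 0)
  else (if u.1 = k.out.1 then 1 else 0) - (if u.1 = k.out.2 then 1 else 0)

def extz {R : Type*} [Zero R] {S : Finset V} (x : S → R) (v : V) : R :=
  if h : v ∈ S then x ⟨v, h⟩ else 0

lemma sum_ind {R : Type*} [CommRing R] {S : Finset V} (x : S → R) (a : V) :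
    ∑ u : S, (if u.1 = a then 1 else 0) * x u = extz x a := by
  unfold extz
  split_ifs with h
  · rw [Finset.sum_eq_single ⟨a, h⟩]
    · simp
    · intro u _ hu
      rw [if_neg fun e => hu (Subtype.ext e), zero_mul]
    · simp
  · exact Finset.sum_eq_zero fun u _ => by
      rw [if_neg fun e : u.1 = a => h (e ▸ u.2), zero_mul]

lemma bvec_root {R : Type*} [CommRing R] {S : Finset V} (r : V) (x : S → R) :
    ∑ u, bvec R S r s(r, r) u * x u = extz x r := by
  simp only [bvec, if_true, sum_ind]

lemma bvec_edge {R : Type*} [CommRing R] {S : Finset V} (r : V) (x : S → R) {a b : V}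
    (hab : a ≠ b) : ∑ u, bvec R S r s(a, b) u * x u = 0 ↔ extz x a = extz x b := by
  have h1 : s(a, b) ≠ s(r, r) := by
    intro h
    rw [Sym2.eq_iff] at h
    rcases h with h | h <;> exact hab (h.1.trans h.2.symm)
  simp only [bvec, if_neg h1, sub_mul, Finset.sum_sub_distrib, sum_ind, sub_eq_zero]
  have h2 : s((s(a, b) : Sym2 V).out.1, (s(a, b) : Sym2 V).out.2) = s(a, b) := Quot.out_eq _
  rw [Sym2.eq_iff] at h2
  rcases h2 with h | h
  · rw [h.1, h.2]
  · rw [h.1, h.2, eq_comm]

lemma ker_zero {R : Type*} [CommRing R] {S : Finset V} {A : Finset (Sym2 V)} (hA : Inside S A)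
    (hc : Conn S A) {r : V} (hr : r ∈ S) (x : S → R) (h0 : extz x r = 0)
    (h : ∀ k ∈ A, ∑ u, bvec R S r k u * x u = 0) : x = 0 := by
  ext v
  have := hc {v | extz x v = 0} (fun a b hab ha => by
    have := (bvec_edge r x (hA a b hab).2.2).1 (h _ hab)
    simp only [Set.mem_ofPred_eq] at ha ⊢
    rw [← this, ha]) r hr h0 v v.2
  simpa [extz] using this

lemma det_gram_tree {S : Finset V} {A : Finset (Sym2 V)} (hA : Inside S A) {r : V} (hr : r ∈ S) :
    (if (insert s(r, r) A).card = Fintype.card S then det (gram (bvec ℂ S r) (insert s(r, r) A))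
      else 0) = (tr S A : ℂ) := by
  have hρ : s(r, r) ∉ A := fun h => (hA r r h).2.2 rfl
  rw [Finset.card_insert_of_notMem hρ, Fintype.card_coe]
  by_cases hcard : A.card + 1 = S.card
  swap
  · simp [tr, hcard]
  rw [if_pos hcard]
  by_cases hc : Conn S A
  · have g : S ≃ (insert s(r, r) A : Finset (Sym2 V)) := Fintype.equivOfCardEq (by
      rw [Fintype.card_coe, Fintype.card_coe, Finset.card_insert_of_notMem hρ, hcard])
    have hmap : ∀ (R : Type) [CommRing R], det (of fun s v => bvec R S r (g s) v) =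
        ((det (of fun s v => bvec ℤ S r (g s) v) : ℤ) : R) := by
      intro R _
      rw [Int.cast_det]
      congr 1
      ext s v
      simp only [bvec, of_apply, map_apply]
      split_ifs <;> simp
    have hunit : (det (of fun s v => bvec ℤ S r (g s) v)).natAbs = 1 := by
      rw [Nat.eq_one_iff_not_exists_prime_dvd]
      intro p hp hdvd
      have : Fact p.Prime := ⟨hp⟩
      have h0 : det (of fun s v => bvec (ZMod p) S r (g s) v) = 0 := by
        rw [hmap, ZMod.intCast_zmod_eq_zero_iff_dvd]
        exact Int.natCast_dvd.2 hdvd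
      obtain ⟨x, hx, hx0⟩ := exists_mulVec_eq_zero_iff.2 h0
      have hk : ∀ k ∈ insert s(r, r) A, ∑ u, bvec (ZMod p) S r k u * x u = 0 := by
        intro k hk
        have := congrFun hx0 (g.symm ⟨k, hk⟩)
        simpa [mulVec, dotProduct] using this
      refine hx (ker_zero hA hc hr x ?_ fun k hk' => hk k (Finset.mem_insert_of_mem hk'))
      rw [← bvec_root]; exact hk _ (Finset.mem_insert_self _ _)
    rw [det_gram_eq_sq _ _ g, hmap, tr, if_pos ⟨hc, hcard⟩]
    have : (det (of fun s v => bvec ℤ S r (g s) v)) ^ 2 = 1 := by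
      rw [← Int.natAbs_sq, hunit]; rfl
    rw [← Int.cast_pow, this]; simp
  · rw [tr, if_neg fun h => hc h.1, Complex.ofReal_zero]
    simp only [Conn, not_forall] at hc
    obtain ⟨U, hU, u, hu, huU, v, hv, hvU⟩ := hc
    classical
    refine det_gram_eq_zero _ _ (fun w => if (w.1 ∈ U ↔ r ∈ U) then 0 else 1) ?_ ?_
    · intro h
      have h1 := congrFun h ⟨u, hu⟩
      have h2 := congrFun h ⟨v, hv⟩
      by_cases hrU : r ∈ U
      · simp [hrU, hvU] at h2
      · simp [hrU, huU] at h1
    · intro k hk
      rcases Finset.mem_insert.1 hk with rfl | hk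
      · rw [bvec_root]; simp [extz, hr]
      · induction k using Sym2.ind with
        | h a b =>
          obtain ⟨ha, hb, hab⟩ := hA a b hk
          rw [bvec_edge _ _ hab]
          have : a ∈ U ↔ b ∈ U := ⟨hU a b hk, hU b a (by rwa [Sym2.eq_swap])⟩
          simp [extz, ha, hb, this]

lemma gen_tr_eq_det {S : Finset V} {E : Finset (Sym2 V)} (hE : Inside S E) {r : V} (hr : r ∈ S)
    (z : Sym2 V → ℂ) : gen E (tr S) z = det (of fun u v => ∑ k ∈ insert s(r, r) E,
      Function.update z s(r, r) 1 k * bvec ℂ S r k u * bvec ℂ S r k v) := by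
  have hρ : s(r, r) ∉ E := fun h => (hE r r h).2.2 rfl
  rw [det_gram, Finset.sum_powerset_insert hρ, Finset.sum_eq_zero, zero_add, gen]
  · refine Finset.sum_congr rfl fun A hA => ?_
    have hAE := Finset.mem_powerset.1 hA
    rw [det_gram_tree (fun a b h => hE a b (hAE h)) hr,
      Finset.prod_insert fun h => hρ (hAE h), Function.update_self, one_mul]
    congr 1
    exact Finset.prod_congr rfl fun k hk =>
      (Function.update_of_ne (ne_of_mem_of_not_mem (hAE hk) hρ) _ _).symm
  · intro A hA
    have hAE := Finset.mem_powerset.1 hA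
    rw [det_gram_eq_zero _ _ (fun _ => 1) (fun h => by simpa using congrFun h ⟨r, hr⟩), ite_self,
      zero_mul]
    intro k hk
    induction k using Sym2.ind with
    | h a b =>
      obtain ⟨ha, hb, hab⟩ := hE a b (hAE hk)
      rw [bvec_edge _ _ hab]
      simp [extz, ha, hb]

theorem isSR_tr {S : Finset V} {E : Finset (Sym2 V)} (hE : Inside S E) (hne : S.Nonempty)
    (hc : Conn S E) : IsSR E (tr S) := by
  obtain ⟨r, hr⟩ := hne
  refine ⟨tr_nonneg S, fun z hz h0 => ?_⟩
  have hρ : s(r, r) ∉ E := fun h => (hE r r h).2.2 rfl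
  rw [gen_tr_eq_det hE hr] at h0
  obtain ⟨x, hx, hx0⟩ := exists_mulVec_eq_zero_iff.2 h0
  set d : Sym2 V → ℂ := fun k => ∑ u, bvec ℂ S r k u * x u with hd
  have hconj : ∀ k u, (starRingEnd ℂ) (bvec ℂ S r k u) = bvec ℂ S r k u := by
    intro k u
    unfold bvec
    split_ifs <;> simp
  have h1 : ∑ k ∈ insert s(r, r) E,
      Function.update z s(r, r) 1 k * (Complex.normSq (d k) : ℂ) = 0 := by
    have : ∑ u, (starRingEnd ℂ) (x u) * ((of fun u v => ∑ k ∈ insert s(r, r) E,
      Function.update z s(r, r) 1 k * bvec ℂ S r k u * bvec ℂ S r k v) *ᵥ x) u = 0 := by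
      rw [hx0]; simp
    rw [← this]
    simp only [mulVec, dotProduct, of_apply, Finset.sum_mul, Finset.mul_sum,
      Complex.normSq_eq_conj_mul_self, hd, map_sum, map_mul, hconj]
    rw [Finset.sum_comm, Finset.sum_congr rfl fun _ _ => Finset.sum_comm, Finset.sum_comm]
    refine Finset.sum_congr rfl fun u _ => Finset.sum_congr rfl fun v _ =>
      Finset.sum_congr rfl fun k _ => by ring
  rw [Finset.sum_insert hρ, Function.update_self, one_mul, Finset.sum_congr rfl fun k hk => by
    rw [Function.update_of_ne (ne_of_mem_of_not_mem hk hρ)]] at h1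
  have h2 : ∑ k ∈ E, (z k).im * Complex.normSq (d k) = 0 := by
    have := congrArg Complex.im h1
    simpa [Complex.im_sum] using this
  have h3 : ∀ k ∈ E, d k = 0 := by
    intro k hk
    have := (Finset.sum_eq_zero_iff_of_nonneg fun k hk =>
      mul_nonneg (hz k hk).le (Complex.normSq_nonneg _)).1 h2 k hk
    exact Complex.normSq_eq_zero.1 ((mul_eq_zero.1 this).resolve_left (hz k hk).ne')
  rw [Finset.sum_eq_zero fun k hk => by rw [h3 k hk]; simp, add_zero] at h1
  refine hx (ker_zero hE hc hr x ?_ h3)
  rw [← bvec_root]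
  exact Complex.normSq_eq_zero.1 (by exact_mod_cast h1)

end Crest.Agent.H5
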