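import Mathlib
import Crest.Prelude.Def_SpanningTrees
import Crest.Agent.H5.Tree
import Crest.Agent.H5.KLim
import Crest.Agent.H5.Group

/-! Uniform spanning trees of finite pieces: monotonicity and the limiting means. -/

set_option autoImplicit false

namespace Crest.Agent.H5

open Finset Filter Topology
open Crest.ProbabilityR.SpanningTrees

variable {V : Type*}

lemma ite_congr_iff {α : Type*} {p q : Prop} {dp : Decidable p} {dq : Decidable q} {a b a' b' : α}
    (h : p ↔ q) (h1 : a = a') (h2 : b = b') : @ite _ p dp a b = @ite _ q dq a' b' :=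
  @if_congr _ _ _ dp dq _ _ _ _ h h1 h2

lemma mk_mem_edgesIn {G : SimpleGraph V} {S : Finset V} {a b : V} :
    s(a, b) ∈ edgesIn G S ↔ a ∈ S ∧ b ∈ S ∧ G.Adj a b := by
  simp [edgesIn, and_assoc]

lemma inside_edgesIn (G : SimpleGraph V) (S : Finset V) : Inside S (edgesIn G S) :=
  fun _ _ h => let h' := mk_mem_edgesIn.1 h; ⟨h'.1, h'.2.1, h'.2.2.ne⟩

lemma Inside.mono {S : Finset V} {A E : Finset (Sym2 V)} (h : Inside S E) (hA : A ⊆ E) :
    Inside S A := fun a b hab => h a b (hA hab)

lemma edgesIn_mono (G : SimpleGraph V) {S S' : Finset V} (h : S ⊆ S') :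
    edgesIn G S ⊆ edgesIn G S' := by
  intro e he
  induction e using Sym2.ind with
  | h a b => rw [mk_mem_edgesIn] at he ⊢; exact ⟨h he.1, h he.2.1, he.2.2⟩

lemma connected_iff_conn (H : SimpleGraph V) {S : Finset V} {A : Finset (Sym2 V)}
    (hA : Inside S A) (hH : ∀ a ∈ S, ∀ b ∈ S, H.Adj a b ↔ s(a, b) ∈ A) :
    (H.induce (S : Set V)).Connected ↔ S.Nonempty ∧ Conn S A := by
  rw [SimpleGraph.connected_iff]
  constructor
  · rintro ⟨h, ⟨⟨r, hr⟩⟩⟩
    refine ⟨⟨r, hr⟩, fun U hU u hu huU v hv => ?_⟩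
    obtain ⟨p⟩ := h ⟨u, hu⟩ ⟨v, hv⟩
    have : ∀ (x y : (S : Set V)) (_ : (H.induce (S : Set V)).Walk x y), x.1 ∈ U → y.1 ∈ U := by
      intro x y p
      induction p with
      | nil => exact id
      | @cons x y _ hxy _ ih => exact fun hx => ih (hU _ _ ((hH _ x.2 _ y.2).1 hxy) hx)
    exact this _ _ p huU
  · rintro ⟨⟨r, hr⟩, hc⟩
    refine ⟨fun u v => ?_, ⟨⟨r, hr⟩⟩⟩
    obtain ⟨_, h⟩ := hc {w | ∃ hw : w ∈ S, (H.induce (S : Set V)).Reachable u ⟨w, hw⟩}
      (fun a b hab ⟨ha, h⟩ => ⟨(hA a b hab).2.1, h.trans (SimpleGraph.Adj.reachable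
        ((hH a ha b (hA a b hab).2.1).2 hab))⟩) u u.2 ⟨u.2, SimpleGraph.Reachable.refl _⟩ v v.2
    exact h

lemma isSpanningTreeOn_iff {G : SimpleGraph V} {S : Finset V} {A : Finset (Sym2 V)}
    (hA : A ⊆ edgesIn G S) : IsSpanningTreeOn G S A ↔ Conn S A ∧ A.card + 1 = S.card := by
  have hI := (inside_edgesIn G S).mono hA
  have hcard : Nat.card ((SimpleGraph.fromEdgeSet (A : Set (Sym2 V))).induce
      (S : Set V)).edgeSet = A.card := by
    rw [Nat.card_coe_set_eq, ← Set.ncard_image_of_injective _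
      (Sym2.map.injective (Subtype.val_injective (p := fun v => v ∈ (S : Set V)))),
      ← Set.ncard_coe_finset]
    congr 1
    ext e
    constructor
    · rintro ⟨e', he', rfl⟩
      induction e' using Sym2.ind with
      | h a b => exact he'.1
    · intro he
      induction e using Sym2.ind with
      | h a b =>
        obtain ⟨ha, hb, hab⟩ := hI a b he
        exact ⟨s(⟨a, ha⟩, ⟨b, hb⟩), ⟨he, hab⟩, rfl⟩
  rw [IsSpanningTreeOn, SimpleGraph.isTree_iff_connected_and_card, hcard,
    connected_iff_conn _ hI (fun a _ b _ => by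
      rw [SimpleGraph.fromEdgeSet_adj]
      exact ⟨fun h => h.1, fun h => ⟨h, (hI a b h).2.2⟩⟩)]
  have : Nat.card (S : Set V) = S.card := by simp
  rw [this]
  exact ⟨fun h => ⟨h.2.1.2, h.2.2⟩, fun h => ⟨hA, ⟨Finset.card_pos.1 (by omega), h.1⟩, h.2⟩⟩

lemma connected_iff_conn' (G : SimpleGraph V) (S : Finset V) :
    (G.induce (S : Set V)).Connected ↔ S.Nonempty ∧ Conn S (edgesIn G S) :=
  connected_iff_conn G (inside_edgesIn G S) fun a ha b hb => by simp [mk_mem_edgesIn, ha, hb]

variable [DecidableEq V]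

lemma conn_insert_iff {S : Finset V} {A : Finset (Sym2 V)} (hA : Inside S A) {u v : V}
    (hu : u ∈ S) (hv : v ∉ S) : Conn (insert v S) (insert s(u, v) A) ↔ Conn S A := by
  constructor
  · intro hc U hU a ha haU b hb
    have hne : ∀ x ∈ S, x ≠ v := fun x hx e => hv (e ▸ hx)
    have := hc {x | (if x = v then u else x) ∈ U} (fun x y hxy hx => by
      rcases Finset.mem_insert.1 hxy with h | h
      · rw [Sym2.eq_iff] at h
        rcases h with ⟨rfl, rfl⟩ | ⟨rfl, rfl⟩
        · simpa [hne x hu] using hx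
        · simpa [hne y hu] using hx
      · obtain ⟨h1, h2, -⟩ := hA x y h
        simp only [Set.mem_ofPred_eq, if_neg (hne x h1), if_neg (hne y h2)] at hx ⊢
        exact hU x y h hx) a (Finset.mem_insert_of_mem ha) (by simpa [hne a ha] using haU) b
      (Finset.mem_insert_of_mem hb)
    simpa [hne b hb] using this
  · intro hc U hU a ha haU b hb
    have h1 : u ∈ U ↔ v ∈ U := ⟨hU u v (Finset.mem_insert_self _ _),
      hU v u (by rw [Sym2.eq_swap]; exact Finset.mem_insert_self _ _)⟩
    have h2 := hc U fun x y h => hU x y (Finset.mem_insert_of_mem h)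
    have h3 : u ∈ U := by
      rcases Finset.mem_insert.1 ha with rfl | ha
      exacts [h1.2 haU, h2 a ha haU u hu]
    rcases Finset.mem_insert.1 hb with rfl | hb
    exacts [h1.1 h3, h2 u hu h3 b hb]

omit [DecidableEq V] in
lemma Conn.mono {S : Finset V} {A E : Finset (Sym2 V)} (h : Conn S A) (hA : A ⊆ E) : Conn S E :=
  fun U hU => h U fun a b hab => hU a b (hA hab)

lemma mean_step {S : Finset V} {E E' : Finset (Sym2 V)} (hE : Inside S E) (hc : Conn S E) {u v : V}
    (hu : u ∈ S) (hv : v ∉ S) (hE' : Inside (insert v S) E') (hsub : insert s(u, v) E ⊆ E')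
    {e : Sym2 V} (he : e ∈ E) (y : Sym2 V → ℝ) :
    mean E' (tr (insert v S)) e y ≤ mean E (tr S) e y := by
  have hf : s(u, v) ∉ E := fun h => hv (hE u v h).2.1
  have h1 : ∀ A ∈ E.powerset, tr (insert v S) (insert s(u, v) A) = tr S A := by
    intro A hA
    have hAE := Finset.mem_powerset.1 hA
    refine ite_congr_iff ?_ rfl rfl
    rw [conn_insert_iff (hE.mono hAE) hu hv, Finset.card_insert_of_notMem hv,
      Finset.card_insert_of_notMem fun h => hf (hAE h), add_left_inj]
  have h2 : ∀ A ∈ E.powerset, tr (insert v S) A = 0 := by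
    intro A hA
    have hAE := Finset.mem_powerset.1 hA
    refine if_neg fun h => hv (h.1 (S : Set V) (fun a b hab _ => (hE a b (hAE hab)).2.1) u
      (Finset.mem_insert_of_mem hu) hu v (Finset.mem_insert_self _ _))
  have hc' : Conn (insert v S) E' := ((conn_insert_iff hE hu hv).2 hc).mono hsub
  obtain ⟨A, hA, hApos⟩ := (isSR_tr hE ⟨u, hu⟩ hc).exists_pos
  refine ((isSR_tr hE' (Finset.insert_nonempty _ _) hc').mean_le_of_subset hsub
    (Finset.mem_insert_of_mem he) ⟨insert s(u, v) A, Finset.mem_powerset.2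
      (Finset.insert_subset_insert _ (Finset.mem_powerset.1 hA)), by rwa [h1 A hA]⟩ y).trans
    (le_of_eq ?_)
  have h3 : ∀ A ∈ E.powerset, wt (tr (insert v S)) y (insert s(u, v) A) =
      Real.exp (y s(u, v)) * wt (tr S) y A := by
    intro A hA
    rw [wt, wt, h1 A hA, Finset.prod_insert fun h => hf (Finset.mem_powerset.1 hA h)]; ring
  have h4 : ∀ A ∈ E.powerset, wt (tr (insert v S)) y A = 0 := by
    intro A hA; rw [wt, h2 A hA, zero_mul]
  have hef : e ≠ s(u, v) := ne_of_mem_of_not_mem he hf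
  unfold mean Ns Zs
  rw [Finset.sum_powerset_insert hf, Finset.sum_powerset_insert hf, Finset.sum_eq_zero h4,
    Finset.sum_eq_zero fun A hA => by rw [h4 A hA, ite_self], zero_add, zero_add,
    Finset.sum_congr rfl h3, ← Finset.mul_sum,
    ← mul_div_mul_left (∑ A ∈ E.powerset, if e ∈ A then wt (tr S) y A else 0) _
      (Real.exp_pos (y s(u, v))).ne', Finset.mul_sum (s := E.powerset)
      (f := fun A => if e ∈ A then wt (tr S) y A else 0)]
  congr 1
  refine Finset.sum_congr rfl fun A hA => ?_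
  simp only [Finset.mem_insert, hef, false_or, h3 A hA, mul_ite, mul_zero]

lemma mean_anti (G : SimpleGraph V) {S S' : Finset V} (hS : S ⊆ S') (hc : Conn S (edgesIn G S))
    (hc' : Conn S' (edgesIn G S')) {e : Sym2 V} (he : e ∈ edgesIn G S) (y : Sym2 V → ℝ) :
    mean (edgesIn G S') (tr S') e y ≤ mean (edgesIn G S) (tr S) e y := by
  obtain ⟨n, hn⟩ : ∃ n, (S' \ S).card = n := ⟨_, rfl⟩
  induction n generalizing S with
  | zero =>
    rw [Finset.card_eq_zero, Finset.sdiff_eq_empty_iff_subset] at hn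
    rw [Finset.Subset.antisymm hS hn]
  | succ n ih =>
    obtain ⟨w, hw⟩ : (S' \ S).Nonempty := Finset.card_pos.1 (by omega)
    obtain ⟨r, hr⟩ : S.Nonempty := by
      induction e using Sym2.ind with
      | h a b => exact ⟨a, (mk_mem_edgesIn.1 he).1⟩
    obtain ⟨u, v, huv, hu, hv⟩ : ∃ u v, s(u, v) ∈ edgesIn G S' ∧ u ∈ S ∧ v ∉ S := by
      by_contra hcon
      push Not at hcon
      exact (Finset.mem_sdiff.1 hw).2 (hc' (S : Set V) hcon r (hS hr) hr w (Finset.mem_sdiff.1 hw).1)
    obtain ⟨-, hvS', hadj⟩ := mk_mem_edgesIn.1 huv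
    have hsub : insert s(u, v) (edgesIn G S) ⊆ edgesIn G (insert v S) :=
      Finset.insert_subset (mk_mem_edgesIn.2
        ⟨Finset.mem_insert_of_mem hu, Finset.mem_insert_self _ _, hadj⟩)
        (edgesIn_mono G (Finset.subset_insert _ _))
    refine le_trans (ih (Finset.insert_subset hvS' hS)
      (((conn_insert_iff (inside_edgesIn G S) hu hv).2 hc).mono hsub)
      (hsub (Finset.mem_insert_of_mem he)) ?_)
      (mean_step (inside_edgesIn G S) hc hu hv (inside_edgesIn G _) hsub he y)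
    rw [Finset.sdiff_insert, Finset.card_erase_of_mem (Finset.mem_sdiff.2 ⟨hvS', hv⟩), hn]
    rfl

open Classical in
noncomputable def termM (S : Finset V) (E : Finset (Sym2 V)) (e : Sym2 V) (y : Sym2 V → ℝ) : ℝ :=
  if Conn S E ∧ e ∈ E then mean E (tr S) e y else 1

noncomputable def Mg (G : SimpleGraph V) (e : Sym2 V) (y : Sym2 V → ℝ) : ℝ :=
  ⨅ S : Finset V, termM S (edgesIn G S) e y

lemma termM_nonneg (S : Finset V) (E : Finset (Sym2 V)) (e : Sym2 V) (y : Sym2 V → ℝ) :
    0 ≤ termM S E e y := by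
  unfold termM; split_ifs
  exacts [mean_nonneg (tr_nonneg S) _ _, zero_le_one]

lemma termM_le_one (S : Finset V) (E : Finset (Sym2 V)) (e : Sym2 V) (y : Sym2 V → ℝ) :
    termM S E e y ≤ 1 := by
  unfold termM; split_ifs
  exacts [mean_le_one (tr_nonneg S) _ _, le_rfl]

lemma measurable_termM (S : Finset V) (E : Finset (Sym2 V)) (e : Sym2 V) :
    Measurable (termM S E e) := by
  unfold termM; split_ifs
  exacts [measurable_mean e, measurable_const]

lemma termM_anti (G : SimpleGraph V) {S S' : Finset V} (hS : S ⊆ S')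
    (hc' : Conn S' (edgesIn G S')) (e : Sym2 V) (y : Sym2 V → ℝ) :
    termM S' (edgesIn G S') e y ≤ termM S (edgesIn G S) e y := by
  by_cases h : Conn S (edgesIn G S) ∧ e ∈ edgesIn G S
  · rw [termM, termM, if_pos h, if_pos ⟨hc', edgesIn_mono G hS h.2⟩]
    exact mean_anti G hS h.1 hc' h.2 y
  · rw [termM.eq_1 S, if_neg h]; exact termM_le_one _ _ _ _

lemma reg_termM (G : SimpleGraph V) (S : Finset V) (e : Sym2 V) :
    Reg (edgesIn G S) e (termM S (edgesIn G S) e) := by
  by_cases h : Conn S (edgesIn G S) ∧ e ∈ edgesIn G S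
  · have : termM S (edgesIn G S) e = mean (edgesIn G S) (tr S) e := by
      ext y; exact if_pos h
    rw [this]
    refine (isSR_tr (inside_edgesIn G S) ?_ h.1).reg e
    induction e using Sym2.ind with
    | h a b => exact ⟨a, (mk_mem_edgesIn.1 h.2).1⟩
  · have : termM S (edgesIn G S) e = fun _ => 1 := by
      ext y; exact if_neg h
    rw [this]
    have := one_le_Lc
    refine ⟨fun _ => zero_le_one, fun _ => le_rfl, fun _ _ _ _ => le_rfl, fun _ _ δ h _ => ?_,
      fun _ _ _ _ _ _ _ => by simp, fun _ _ _ _ => ?_⟩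
    · simp only [sub_self, abs_zero]; positivity
    · simp only [sub_self, Finset.sum_const_zero]; positivity

omit [DecidableEq V] in
lemma mem_edgesIn_eventually (G : SimpleGraph V) (S : ℕ → Finset V) (hS : Monotone S)
    (hex : ∀ v, ∃ n, v ∈ S n) {e : Sym2 V} (he : e ∈ G.edgeSet) :
    ∀ᶠ n in atTop, e ∈ edgesIn G (S n) := by
  induction e using Sym2.ind with
  | h a b =>
    obtain ⟨n, hn⟩ := hex a
    obtain ⟨m, hm⟩ := hex b
    filter_upwards [eventually_ge_atTop n, eventually_ge_atTop m] with k h1 h2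
    exact mk_mem_edgesIn.2 ⟨hS h1 hn, hS h2 hm, he⟩

lemma tendsto_Mg (G : SimpleGraph V) (S : ℕ → Finset V) (hS : Monotone S)
    (hex : ∀ v, ∃ n, v ∈ S n) (hc : ∀ n, Conn (S n) (edgesIn G (S n))) {e : Sym2 V}
    (he : e ∈ G.edgeSet) (C : ℝ) (yn : ℕ → Sym2 V → ℝ) (y : Sym2 V → ℝ)
    (h1 : ∀ k j, |yn k j| ≤ C) (h2 : ∀ j, |y j| ≤ C)
    (h3 : ∀ j ∈ G.edgeSet, Tendsto (fun k => yn k j) atTop (𝓝 (y j))) :
    Tendsto (fun k => mean (edgesIn G (S k)) (tr (S k)) e (yn k)) atTop (𝓝 (Mg G e y)) := by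
  have key := klim (fun n => edgesIn G (S n)) (fun n m h => edgesIn_mono G (hS h)) e
    (fun n => termM (S n) (edgesIn G (S n)) e) C (fun n => reg_termM G _ e)
    (fun n m y h _ => termM_anti G (hS h) (hc m) e y) (l := atTop) (fun n => n) tendsto_id yn y
    h1 h2 (fun d j hj => h3 j (by
      induction j using Sym2.ind with
      | h a b => exact (mk_mem_edgesIn.1 hj).2.2))
  have e1 : ⨅ n, termM (S n) (edgesIn G (S n)) e y = Mg G e y := by
    apply le_antisymm
    · refine le_ciInf fun T => ?_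
      obtain ⟨n, hn⟩ : ∃ n, T ⊆ S n := by
        have : ∀ᶠ n in atTop, ∀ v ∈ T, v ∈ S n := by
          rw [Filter.eventually_all_finset]
          intro v _
          obtain ⟨m, hm⟩ := hex v
          exact (eventually_ge_atTop m).mono fun k hk => hS hk hm
        exact this.exists
      exact ciInf_le_of_le ⟨0, by rintro _ ⟨n, rfl⟩; exact termM_nonneg _ _ _ _⟩ n
        (termM_anti G hn (hc n) e y)
    · exact le_ciInf fun n =>
        ciInf_le ⟨0, by rintro _ ⟨n, rfl⟩; exact termM_nonneg _ _ _ _⟩ (S n)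
  rw [e1] at key
  refine key.congr' ?_
  filter_upwards [mem_edgesIn_eventually G S hS hex he] with n hn
  exact if_pos ⟨hc n, hn⟩

lemma Mg_equiv (σ : Equiv.Perm V) (G : SimpleGraph V) (e : Sym2 V) (y : Sym2 V → ℝ) :
    Mg (G.comap σ) e (y ∘ Sym2.map σ) = Mg G (Sym2.map σ e) y := by
  set τ : Sym2 V ↪ Sym2 V := ⟨Sym2.map σ, Sym2.map.injective σ.injective⟩ with hτ
  have hmem : ∀ (A : Finset (Sym2 V)) (a b : V), s(σ a, σ b) ∈ A.map τ ↔ s(a, b) ∈ A :=
    fun A a b => Finset.mem_map' τ (a := s(a, b))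
  have hE : ∀ S : Finset V, edgesIn G (S.map σ.toEmbedding) = (edgesIn (G.comap σ) S).map τ := by
    intro S
    ext f
    induction f using Sym2.ind with
    | h a b =>
      obtain ⟨a, rfl⟩ := σ.surjective a
      obtain ⟨b, rfl⟩ := σ.surjective b
      rw [hmem, mk_mem_edgesIn, mk_mem_edgesIn]
      simp
  have hC : ∀ (S : Finset V) (A : Finset (Sym2 V)),
      Conn (S.map σ.toEmbedding) (A.map τ) ↔ Conn S A := by
    intro S A
    constructor
    · intro h U hU u hu huU v hv
      have := h (σ '' U) (fun a b hab ha => by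
        obtain ⟨a, ha, rfl⟩ := ha
        obtain ⟨b, rfl⟩ := σ.surjective b
        exact ⟨b, hU a b ((hmem A a b).1 hab) ha, rfl⟩) (σ u) (Finset.mem_map_of_mem _ hu)
        ⟨u, huU, rfl⟩ (σ v) (Finset.mem_map_of_mem _ hv)
      simpa using this
    · intro h U hU u hu huU v hv
      obtain ⟨u, hu', rfl⟩ := Finset.mem_map.1 hu
      obtain ⟨v, hv', rfl⟩ := Finset.mem_map.1 hv
      exact h (σ ⁻¹' U) (fun a b hab ha => hU _ _ ((hmem A a b).2 hab) ha) u hu' huU v hv'
  unfold Mg
  rw [← Equiv.iInf_comp (g := fun S => termM S (edgesIn G S) (Sym2.map σ e) y) σ.finsetCongr]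
  refine iInf_congr fun S => ?_
  rw [Equiv.finsetCongr_apply, hE, termM, termM]
  refine ite_congr_iff (by rw [hC]; exact and_congr_right fun _ => (Finset.mem_map' τ).symm) ?_ rfl
  refine (mean_map τ _ _ (tr S) (fun A _ => ?_) e y).symm
  exact ite_congr_iff (by rw [hC, Finset.card_map, Finset.card_map]) rfl rfl

lemma measurable_Mg [Countable V] {Ω : Type*} [MeasurableSpace Ω] (G : Ω → SimpleGraph V)
    (hG : ∀ u v, MeasurableSet {ω | (G ω).Adj u v}) (e : Sym2 V) :
    Measurable fun p : Ω × (Sym2 V → ℝ) => Mg (G p.1) e p.2 := by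
  refine Measurable.iInf fun S => ?_
  have hsub : ∀ ω, edgesIn (G ω) S ∈ S.sym2.powerset := fun ω =>
    Finset.mem_powerset.2 fun f hf => by
      induction f using Sym2.ind with
      | h a b =>
        rw [mk_mem_edgesIn] at hf
        exact Finset.mk_mem_sym2_iff.2 ⟨hf.1, hf.2.1⟩
  have : (fun p : Ω × (Sym2 V → ℝ) => termM S (edgesIn (G p.1) S) e p.2) = fun p =>
      ∑ E ∈ S.sym2.powerset, if edgesIn (G p.1) S = E then termM S E e p.2 else 0 := by
    ext p
    rw [Finset.sum_ite_eq, if_pos (hsub _)]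
  rw [this]
  refine Finset.measurable_fun_sum _ fun E _ => Measurable.ite ?_
    ((measurable_termM S E e).comp measurable_snd) measurable_const
  refine measurable_fst (t := {ω | edgesIn (G ω) S = E}) ?_
  have : {ω | edgesIn (G ω) S = E} =
      ⋂ a, ⋂ b, {ω | (a ∈ S ∧ b ∈ S ∧ (G ω).Adj a b) ↔ s(a, b) ∈ E} := by
    ext ω
    simp only [Set.mem_ofPred_eq, Set.mem_iInter, ← mk_mem_edgesIn, Finset.ext_iff]
    exact ⟨fun h a b => h _, fun h f => by induction f using Sym2.ind with | h a b => exact h a b⟩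
  rw [this]
  refine MeasurableSet.iInter fun a => MeasurableSet.iInter fun b => ?_
  exact measurableSet_setOfPred.2 ((measurable_const.and (measurable_const.and
    (measurableSet_setOfPred.1 (hG a b)))).iff measurable_const)

lemma mean_div {I : Type*} [DecidableEq I] (F : Finset I) (c : Finset I → ℝ) {a : ℝ} (ha : a ≠ 0)
    (i : I) (y : I → ℝ) : mean F (fun S => c S / a) i y = mean F c i y := by
  have : ∀ S, wt (fun S => c S / a) y S = wt c y S / a := fun S => by unfold wt; ring
  unfold mean Ns Zs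
  rw [← div_div_div_cancel_right₀ ha (∑ S ∈ F.powerset, if i ∈ S then wt c y S else 0)]
  congr 1 <;> simp only [this, Finset.sum_div, ite_div, zero_div]

lemma IsSR.div {I : Type*} {F : Finset I} {c : Finset I → ℝ} (h : IsSR F c) {a : ℝ}
    (ha : 0 < a) : IsSR F fun S => c S / a := by
  refine ⟨fun S => div_nonneg (h.nonneg S) ha.le, fun z hz h0 => h.stable z hz ?_⟩
  have : gen F (fun S => c S / a) z = gen F c z / a := by
    simp only [gen, Finset.sum_div]
    exact Finset.sum_congr rfl fun S _ => by push_cast; ring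
  rw [this, div_eq_zero_iff] at h0
  exact h0.resolve_right (by exact_mod_cast ha.ne')

lemma ustContains_eq (G : SimpleGraph V) (S : Finset V) (F : Finset (Sym2 V)) :
    ustContains G S F = ∑ A ∈ (edgesIn G S).powerset with A ∩ F = F,
      tr S A / ∑ A' ∈ (edgesIn G S).powerset, tr S A' := by
  rw [← Finset.sum_div, ustContains, Finset.card_filter, Finset.card_filter, Finset.sum_filter]
  push_cast
  congr 1
  · refine Finset.sum_congr rfl fun A hA => ?_
    rw [tr]
    by_cases h : F ⊆ A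
    · rw [if_pos (Finset.inter_eq_right.2 h)]
      exact ite_congr_iff (by rw [isSpanningTreeOn_iff (Finset.mem_powerset.1 hA)]; simp [h]) rfl rfl
    · rw [if_neg (fun h' => h h'.2), if_neg (fun h' => h (Finset.inter_eq_right.1 h'))]
  · refine Finset.sum_congr rfl fun A hA => ?_
    exact ite_congr_iff (isSpanningTreeOn_iff (Finset.mem_powerset.1 hA)) rfl rfl

end Crest.Agent.H5
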