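import Mathlib
import Crest.Prelude.Def_GraphTables
import Crest.Agent.H5.Ust
import Crest.Agent.H5.EdgeLab
import Crest.Agent.H5.Flow

/-! The free uniform spanning forest as a factor of independent labels. -/

set_option autoImplicit false

namespace Crest.Agent.H5

open MeasureTheory Set Filter Topology
open Crest.ProbabilityR

theorem fusf_factor :
    ∃ Φ : SimpleGraph ℕ → (ℕ → unitInterval) → (Sym2 ℕ → Bool),
      Measurable (fun p : (ℕ → ℕ → Bool) × (ℕ → unitInterval) =>
          Φ (GraphTables.graphOfTable p.1) p.2) ∧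
      (∀ (σ : Equiv.Perm ℕ) (G : SimpleGraph ℕ) (x : ℕ → unitInterval),
          Φ (G.comap ⇑σ) (x ∘ ⇑σ) = Φ G x ∘ Sym2.map ⇑σ) ∧
      ∀ G : SimpleGraph ℕ, G.Connected → (∀ v : ℕ, (G.neighborSet v).Finite) →
        ∀ S : ℕ → Finset ℕ, Monotone S → (∀ v : ℕ, ∃ n, v ∈ S n) →
          (∀ n, (G.induce (S n : Set ℕ)).Connected) →
          ∀ F : Finset (Sym2 ℕ), (↑F : Set (Sym2 ℕ)) ⊆ G.edgeSet →
            Tendsto (fun n => SpanningTrees.ustContains G (S n) F) atTop
              (𝓝 (((Labels.labelMeasure ℕ).map (Φ G) {ω | ∀ e ∈ F, ω e = true}).toReal)) := by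
  obtain ⟨g, hg, hgm⟩ := exists_split
  set X : SimpleGraph ℕ → (ℕ → unitInterval) → Sym2 ℕ → ℝ := fun G x =>
    lab G (fun v => g (x v) (false, 0)) (fun p => g (x p.1) (true, p.2)) with hX
  refine ⟨fun G x => out (Mg G) (X G x), ?_, fun σ G x => ?_, ?_⟩
  · have hG : ∀ u v, MeasurableSet {p : (ℕ → ℕ → Bool) × (ℕ → unitInterval) |
        (GraphTables.graphOfTable p.1).Adj u v} := by
      intro u v
      simp only [GraphTables.graphOfTable, SimpleGraph.fromRel_adj]
      refine measurableSet_setOfPred.2 (measurable_const.and (Measurable.or ?_ ?_))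
      all_goals exact measurableSet_setOfPred.1 (measurableSet_eq_fun (by fun_prop) measurable_const)
    have h1 := measurable_lab (fun p : (ℕ → ℕ → Bool) × (ℕ → unitInterval) =>
      GraphTables.graphOfTable p.1) hG (fun p v => g (p.2 v) (false, 0)) (by fun_prop)
      (fun p q => g (p.2 q.1) (true, q.2)) (by fun_prop)
    have h2 := fun e => measurable_Mg (fun p : (ℕ → ℕ → Bool) × (ℕ → unitInterval) =>
      GraphTables.graphOfTable p.1) hG e
    exact measurable_out (fun p : (ℕ → ℕ → Bool) × (ℕ → unitInterval) =>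
      Mg (GraphTables.graphOfTable p.1)) h2 _ h1
  · have : X (G.comap σ) (x ∘ σ) = X G x ∘ Sym2.map σ :=
      lab_equiv σ G (fun v => g (x v) (false, 0)) (fun p => g (x p.1) (true, p.2))
    simp only [this]
    exact out_equiv (Sym2.map σ) (Mg G) _ (Mg_equiv σ G) _
  · intro G _ hfin S hS hex hconn F hF
    have : IsProbabilityMeasure (Labels.labelMeasure ℕ) := by
      unfold Labels.labelMeasure; infer_instance
    have hc := fun n => (connected_iff_conn' G (S n)).1 (hconn n)
    have hSR := fun n => isSR_tr (inside_edgesIn G (S n)) (hc n).1 (hc n).2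
    have hτ : ∀ n, 0 < ∑ A ∈ (SpanningTrees.edgesIn G (S n)).powerset, tr (S n) A := by
      intro n
      simpa [Zs, wt] using (hSR n).Zs_pos 0
    have hMm : ∀ e, Measurable (Mg G e) := fun e =>
      Measurable.iInf fun T => measurable_termM T _ e
    have hXm : Measurable (X G) :=
      measurable_lab (fun _ => G) (fun _ _ => MeasurableSet.const _)
        (fun (x : ℕ → unitInterval) v => g (x v) (false, 0)) (by fun_prop)
        (fun x q => g (x q.1) (true, q.2)) (by fun_prop)
    have hΦm : Measurable fun x => out (Mg G) (X G x) :=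
      measurable_out (fun _ => Mg G) (fun i => (hMm i).comp measurable_snd) _ hXm
    have key := flow_law (l := atTop) (fun n => SpanningTrees.edgesIn G (S n))
      (fun n A => tr (S n) A / ∑ A ∈ (SpanningTrees.edgesIn G (S n)).powerset, tr (S n) A)
      (fun n => (hSR n).div (hτ n)) (fun n => by rw [← Finset.sum_div, div_self (hτ n).ne'])
      G.edgeSet (fun e he => mem_edgesIn_eventually G S hS hex he) (Mg G) hMm
      (fun e he C yn y h1 h2 h3 => by
        simp only [mean_div _ _ (hτ _).ne']
        exact tendsto_Mg G S hS hex (fun n => (hc n).2) he C yn y h1 h2 h3)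
      (Labels.labelMeasure ℕ) (X G) hXm (fun n => by
        rw [← law_lab G hfin (SpanningTrees.edgesIn G (S n)) (fun e he => by
          induction e using Sym2.ind with
          | h a b => exact (mk_mem_edgesIn.1 he).2.2), ← hgm, Measure.map_map]
        · rfl
        · exact (Finset.measurable_restrict _).comp (measurable_lab (fun _ => G)
            (fun _ _ => MeasurableSet.const _) _ (by fun_prop) _ measurable_snd)
        · fun_prop) F (fun e he => hF he) F le_rfl
    simp only [ustContains_eq]
    have hm : MeasurableSet {ω : Sym2 ℕ → Bool | ∀ e ∈ F, ω e = true} := by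
      have := measurableSet_cyl F F
      convert this using 2
      simp +contextual [cyl]
    rw [Measure.map_apply hΦm hm]
    have e : (fun x => out (Mg G) (X G x)) ⁻¹' {ω : Sym2 ℕ → Bool | ∀ e ∈ F, ω e = true} =
        {ω | ∀ j ∈ F, (out (Mg G) (X G ω) j = true ↔ j ∈ F)} := by
      ext ω
      simp +contextual
    rw [e]
    exact key

end Crest.Agent.H5
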