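import Crest.Agent.H1.GrI

/-! Row 258: the cocycle and ampleness. -/

set_option autoImplicit false
set_option linter.unusedSimpArgs false
set_option linter.unusedVariables false

noncomputable section

namespace Crest.Agent.H5.Gr

open Crest.AlgGeometry.QuadricBundle Crest.Agent.H1.Gr MvPolynomial
open scoped ComplexConjugate Topology

def gA (N : ℕ) (w : ℂ → ℂ) (b b' : Fin 2) (y : ℂ) : Matrix (Fin 2) (Fin 2) ℂ :=
  if b = b' then 1 else if b = 0 then
      !![y * y⁻¹ ^ (3 * N), y * w (y ^ N); 0, y ^ (8 * N + 1)]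
    else !![y * y⁻¹ ^ (3 * N), -(y ^ (5 * N + 1) * w (y ^ N)⁻¹); 0, y ^ (8 * N + 1)]

def gB (N : ℕ) (a a' : Fin 2) (x : ℂ) : Matrix (Fin 2) (Fin 2) ℂ :=
  if a = a' then 1 else !![x ^ (5 * N + 1), 0; 0, x]

theorem gT_eq (W : (Fin 2 → ℂ) → ℂ → ℂ) (N : ℕ) (α β : Chart) (p : Fin 2 → ℂ) :
    gT W N α β p = gA N (W (hom α.1 (p 0 ^ N))) α.2 β.2 (p 1) * gB N α.1 β.1 (p 0) := rfl

theorem tau0 (α β : Chart) (p : Fin 2 → ℂ) :
    tau α β p 0 = if α.1 = β.1 then p 0 else (p 0)⁻¹ := rfl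
theorem tau1 (α β : Chart) (p : Fin 2 → ℂ) :
    tau α β p 1 = if α.2 = β.2 then p 1 else (p 1)⁻¹ := rfl

theorem gA_gA (N : ℕ) (w : ℂ → ℂ) (b b' b'' : Fin 2) (y : ℂ) (h : b ≠ b' → y ≠ 0) :
    gA N w b b' y * gA N w b' b'' (if b = b' then y else y⁻¹) = gA N w b b'' y := by
  by_cases h1 : b = b'
  · subst h1; simp [gA]
  by_cases h2 : b' = b''
  · subst h2; simp [gA]
  have hy := h h1
  fin_cases b <;> fin_cases b' <;> fin_cases b'' <;> simp at h1 h2 <;>
    ext i j <;> fin_cases i <;> fin_cases j <;>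
    simp [gA, Matrix.mul_apply, Fin.sum_univ_two] <;> field_simp <;> ring

theorem gB_gB (N : ℕ) (a a' a'' : Fin 2) (x : ℂ) (h : a ≠ a' → x ≠ 0) :
    gB N a a' x * gB N a' a'' (if a = a' then x else x⁻¹) = gB N a a'' x := by
  by_cases h1 : a = a'
  · subst h1; simp [gB]
  by_cases h2 : a' = a''
  · subst h2; simp [gB]
  have hy := h h1
  fin_cases a <;> fin_cases a' <;> fin_cases a'' <;> simp at h1 h2 <;>
    ext i j <;> fin_cases i <;> fin_cases j <;>
    simp [gB, Matrix.mul_apply, Fin.sum_univ_two] <;> field_simp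

theorem hom_inv {a a' : Fin 2} (h : a ≠ a') {x : ℂ} (hx : x ≠ 0) : hom a x = x • hom a' x⁻¹ := by
  fin_cases a <;> fin_cases a' <;> simp at h <;> ext i <;> fin_cases i <;> simp [hom, hx]

theorem hom_ne (a : Fin 2) (x : ℂ) : hom a x ≠ 0 := by
  intro h
  have := congrFun h a
  fin_cases a <;> simp [hom] at this

theorem gB_gA {π : Par} (D : Dat π) (N : ℕ) (a a' b b' : Fin 2) (x y : ℂ) (h : a ≠ a' → x ≠ 0) :
    gB N a a' x * gA N (D.W (hom a' ((if a = a' then x else x⁻¹) ^ N))) b b' y =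
      gA N (D.W (hom a (x ^ N))) b b' y * gB N a a' x := by
  by_cases h1 : a = a'
  · subst h1; simp [gB]
  have hx := h h1
  rw [if_neg h1, hom_inv h1 (pow_ne_zero N hx), inv_pow]
  unfold gA gB
  simp only [D.W_hom, if_neg h1]
  split_ifs
  · simp
  all_goals
    ext i j; fin_cases i <;> fin_cases j <;> simp [Matrix.mul_apply, Fin.sum_univ_two] <;> ring

theorem hom_diff (a : Fin 2) : Differentiable ℂ (hom a) := by
  unfold hom
  refine differentiable_pi.2 (fun i => ?_)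
  split_ifs <;> fin_cases i <;> simp

theorem cocStmt : CocStmt := by
  intro π D N
  refine ⟨fun α p => by simp [gT], fun α β i j => ?_, fun α β γ p hp => ?_⟩
  · have hh : Differentiable ℂ (fun p : Fin 2 → ℂ => hom α.1 (p 0 ^ N)) :=
      (hom_diff α.1).comp (by fun_prop)
    have hA : ∀ i j, DifferentiableOn ℂ (fun p : Fin 2 → ℂ =>
        gA N (D.W (hom α.1 (p 0 ^ N))) α.2 β.2 (p 1) i j) (overlap α β) := by
      intro i j
      by_cases h1 : α.2 = β.2
      · simp only [gA, if_pos h1]; fun_prop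
      have hy : ∀ p ∈ overlap α β, p 1 ≠ 0 := fun p hp => hp.2 h1
      have w1 : DifferentiableOn ℂ (fun p : Fin 2 → ℂ => D.W (hom α.1 (p 0 ^ N)) (p 1 ^ N))
          (overlap α β) :=
        D.W_diff.comp (f := fun p : Fin 2 → ℂ => (hom α.1 (p 0 ^ N), p 1 ^ N))
          (hh.differentiableOn.prodMk (by fun_prop)) (fun p hp => pow_ne_zero _ (hy p hp))
      have hinv : DifferentiableOn ℂ (fun p : Fin 2 → ℂ => (p 1)⁻¹) (overlap α β) :=
        DifferentiableOn.inv (by fun_prop) hy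
      have w2 : DifferentiableOn ℂ (fun p : Fin 2 → ℂ => D.W (hom α.1 (p 0 ^ N)) (p 1 ^ N)⁻¹)
          (overlap α β) :=
        D.W_diff.comp (f := fun p : Fin 2 → ℂ => (hom α.1 (p 0 ^ N), (p 1 ^ N)⁻¹))
          (hh.differentiableOn.prodMk (DifferentiableOn.inv (by fun_prop)
            (fun p hp => pow_ne_zero _ (hy p hp))))
          (fun p hp => inv_ne_zero (pow_ne_zero _ (hy p hp)))
      simp only [gA, if_neg h1]
      split_ifs <;> fin_cases i <;> fin_cases j <;>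
        simp only [Fin.zero_eta, Fin.mk_one, Fin.isValue, Matrix.of_apply, Matrix.cons_val',
          Matrix.cons_val_zero, Matrix.cons_val_one, Matrix.cons_val_fin_one] <;> fun_prop
    have hB : ∀ i j, DifferentiableOn ℂ (fun p : Fin 2 → ℂ => gB N α.1 β.1 (p 0) i j)
        (overlap α β) := by
      intro i j
      unfold gB
      split_ifs
      · fun_prop
      · fin_cases i <;> fin_cases j <;>
        simp only [Fin.zero_eta, Fin.mk_one, Fin.isValue, Matrix.of_apply, Matrix.cons_val',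
          Matrix.cons_val_zero, Matrix.cons_val_one, Matrix.cons_val_fin_one] <;> fun_prop
    simp only [gT_eq, Matrix.mul_apply, Fin.sum_univ_two]
    exact ((hA i 0).mul (hB 0 j)).add ((hA i 1).mul (hB 1 j))
  · rw [gT_eq, gT_eq, gT_eq, tau0, tau1, mul_assoc, ← mul_assoc (gB N _ _ _),
      gB_gA D N _ _ _ _ _ _ hp.1.1, mul_assoc, gB_gB N _ _ _ _ hp.1.1, ← mul_assoc,
      gA_gA N _ _ _ _ _ hp.1.2]

theorem fs_mul (A B : Matrix (Fin 2) (Fin 2) ℂ) (Q : MvPolynomial (Fin 2) ℂ) :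
    frameSubst (A * B) Q = frameSubst A (frameSubst B Q) := by
  unfold frameSubst
  rw [bind₁_bind₁]
  congr 2
  funext j
  simp [Matrix.mul_apply, Fin.sum_univ_two]
  ring

theorem fs_one (Q : MvPolynomial (Fin 2) ℂ) : frameSubst 1 Q = Q := by
  unfold frameSubst
  have : (fun j : Fin 2 => ∑ i, C ((1 : Matrix (Fin 2) (Fin 2) ℂ) i j) * (X i : MvPolynomial (Fin 2) ℂ))
      = X := by
    funext j; fin_cases j <;> simp [Fin.sum_univ_two, Matrix.one_apply]
  rw [this, bind₁_X_left]; rfl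

theorem fs_smul (A : Matrix (Fin 2) (Fin 2) ℂ) (r : ℂ) (Q : MvPolynomial (Fin 2) ℂ) :
    frameSubst A (r • Q) = r • frameSubst A Q := map_smul _ _ _

theorem fs_scal {n : ℕ} {Q : MvPolynomial (Fin 2) ℂ} (hQ : Q.IsHomogeneous n) (r : ℂ) :
    frameSubst (r • (1 : Matrix (Fin 2) (Fin 2) ℂ)) Q = r ^ n • Q := by
  unfold frameSubst
  have : (fun j : Fin 2 => ∑ i, C ((r • (1 : Matrix (Fin 2) (Fin 2) ℂ)) i j) *
      (X i : MvPolynomial (Fin 2) ℂ)) = fun j => C r * X j := by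
    funext j; fin_cases j <;> simp [Fin.sum_univ_two]
  rw [this]
  conv_rhs => rw [Q.as_sum, Finset.smul_sum]
  conv_lhs => rw [Q.as_sum, map_sum]
  refine Finset.sum_congr rfl (fun d hd => ?_)
  have h1 : d.degree = n := by
    by_contra h
    exact (mem_support_iff.1 hd) (hQ.coeff_eq_zero h)
  rw [bind₁_monomial, monomial_eq, smul_eq_C_mul, ← h1, Finsupp.degree_apply, Finsupp.prod]
  simp only [mul_pow, Finset.prod_mul_distrib, Finset.prod_pow_eq_pow_sum, map_pow]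
  ring

theorem fs_smul_left {n : ℕ} {Q : MvPolynomial (Fin 2) ℂ} (hQ : Q.IsHomogeneous n) (r : ℂ)
    (A : Matrix (Fin 2) (Fin 2) ℂ) : frameSubst (r • A) Q = r ^ n • frameSubst A Q := by
  rw [show r • A = A * (r • (1 : Matrix (Fin 2) (Fin 2) ℂ)) by simp, fs_mul, fs_scal hQ, fs_smul]

section
variable {W : (Fin 2 → ℂ) → ℂ → ℂ} {n : ℕ} {T : Fin 2 → (Fin 2 → ℂ) → ℂ → MvPolynomial (Fin 2) ℂ}

theorem fs_gA (hT : Sec W n 3 0 T) (N : ℕ) {b b' : Fin 2} (h : b ≠ b') (X : Fin 2 → ℂ) {y : ℂ}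
    (hy : y ≠ 0) : frameSubst (gA N (W X) b b' y) (T b' X (y⁻¹ ^ N)) = y ^ n • T b X (y ^ N) := by
  have hyN := pow_ne_zero N hy
  fin_cases b <;> fin_cases b' <;> simp at h
  · have := hT.glue X (y ^ N) hyN
    simp only [Fin.zero_eta, Fin.mk_one, Fin.isValue]
    rw [this, pow_zero, one_smul, ← fs_smul_left (hT.hom _ _ _), inv_pow]
    congr 1
    ext i j; fin_cases i <;> fin_cases j <;> simp [gA, hy, ← pow_mul, mul_comm N] <;> ring
  · have := hT.glue X (y ^ N)⁻¹ (inv_ne_zero hyN)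
    simp only [Fin.zero_eta, Fin.mk_one, Fin.isValue]
    rw [inv_pow, this, pow_zero, one_smul, ← fs_mul, inv_inv, ← fs_scal (hT.hom _ _ _)]
    congr 1
    ext i j; fin_cases i <;> fin_cases j <;> simp [gA, Matrix.mul_apply, Fin.sum_univ_two] <;>
      field_simp <;> ring

theorem fs_gB (hT : Sec W n 3 0 T) (N : ℕ) {a a' : Fin 2} (h : a ≠ a') (b : Fin 2) {x : ℂ}
    (hx : x ≠ 0) (z : ℂ) : x ^ (3 * N) • frameSubst (gB N a a' x) (T b (hom a' (x⁻¹ ^ N)) z) =
      x ^ n • T b (hom a (x ^ N)) z := by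
  rw [hom_inv h (pow_ne_zero N hx), hT.scal, inv_pow, smul_comm, ← fs_smul_left (hT.hom _ _ _),
    ← pow_mul, mul_comm N 3]
  congr 2
  ext i j; fin_cases i <;> fin_cases j <;> simp [gB, h] <;> ring

end

theorem ampStmt : AmpStmt := by
  intro π D N hG k
  refine ⟨k + 3 * N, fun n hn α p R hR => ?_⟩
  obtain ⟨T, hT, hR'⟩ := hG n α.2 (hom α.1 (p 0 ^ N)) (p 1 ^ N) R (hom_ne _ _) hR
  obtain ⟨m, rfl⟩ := Nat.exists_eq_add_of_le hn
  refine ⟨fun β q => ((if β.1 = α.1 then 1 else q 0 ^ m) *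
    (if β.2 = α.2 then 1 else q 1 ^ (3 * N + m))) • T β.2 (hom β.1 (q 0 ^ N)) (q 1 ^ N),
    ⟨fun β q => ?_, fun β μ => ?_, fun β γ q hq => ?_⟩, by simp [hR']⟩
  · exact (homogeneousSubmodule (Fin 2) ℂ _).smul_mem _ (hT.hom _ _ _)
  · simp only [coeff_smul, smul_eq_mul]
    refine Differentiable.mul (Differentiable.mul ?_ ?_) ?_
    · split_ifs <;> fun_prop
    · split_ifs <;> fun_prop
    · exact (hT.diff β.2 μ).comp (f := fun q : Fin 2 → ℂ => (hom β.1 (q 0 ^ N), q 1 ^ N))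
        (Differentiable.prodMk ((hom_diff β.1).comp (by fun_prop)) (by fun_prop))
  · have e1 : ∀ z, ((if β.1 = γ.1 then 1 else q 0 ^ (-(k : ℤ))) *
        (if γ.1 = α.1 then 1 else (if β.1 = γ.1 then q 0 else (q 0)⁻¹) ^ m)) •
        frameSubst (gB N β.1 γ.1 (q 0))
          (T γ.2 (hom γ.1 ((if β.1 = γ.1 then q 0 else (q 0)⁻¹) ^ N)) z) =
        (if β.1 = α.1 then 1 else q 0 ^ m) • T γ.2 (hom β.1 (q 0 ^ N)) z := by
      intro z
      by_cases h : β.1 = γ.1
      · simp [h, gB, fs_one]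
      · have hx := hq.1 h
        have := fs_gB hT N h γ.2 hx z
        simp only [if_neg h]
        rw [← inv_smul_eq_iff₀ (pow_ne_zero _ hx)] at this
        rw [← this, smul_smul, smul_smul]
        congr 1
        by_cases h2 : γ.1 = α.1
        · rw [if_pos h2, if_neg (h2 ▸ h)]; simp only [zpow_neg, zpow_natCast, inv_pow]; field_simp; ring
        · rw [if_neg h2, if_pos (by omega)]; simp only [zpow_neg, zpow_natCast, inv_pow]; field_simp; ring
    have e2 : ((if β.2 = γ.2 then 1 else q 1 ^ (-(k : ℤ))) *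
        (if γ.2 = α.2 then 1 else (if β.2 = γ.2 then q 1 else (q 1)⁻¹) ^ (3 * N + m))) •
        frameSubst (gA N (D.W (hom β.1 (q 0 ^ N))) β.2 γ.2 (q 1))
          (T γ.2 (hom β.1 (q 0 ^ N)) ((if β.2 = γ.2 then q 1 else (q 1)⁻¹) ^ N)) =
        (if β.2 = α.2 then 1 else q 1 ^ (3 * N + m)) • T β.2 (hom β.1 (q 0 ^ N)) (q 1 ^ N) := by
      by_cases h : β.2 = γ.2
      · simp [h, gA, fs_one]
      · have hy := hq.2 h
        simp only [if_neg h]
        rw [fs_gA hT N h _ hy, smul_smul]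
        congr 1
        by_cases h2 : γ.2 = α.2
        · rw [if_pos h2, if_neg (h2 ▸ h)]; simp only [zpow_neg, zpow_natCast, inv_pow]; field_simp; ring
        · rw [if_neg h2, if_pos (by omega)]; simp only [zpow_neg, zpow_natCast, inv_pow]; field_simp; ring
    beta_reduce
    rw [mul_smul, ← e2, smul_comm, ← fs_smul, ← e1, fs_smul, gT_eq, fs_mul, fs_smul, fs_smul,
      smul_smul, smul_smul, tau0, tau1, lineTrans]
    congr 1
    ring

end Crest.Agent.H5.Gr
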