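import Crest.Agent.H1.GrI

/-! Row 258: the parameters, the cocycle and ampleness. -/

set_option autoImplicit false
set_option linter.unusedSimpArgs false
set_option linter.unusedVariables false

noncomputable section

namespace Crest.Agent.H5.Gr

open Crest.AlgGeometry.QuadricBundle Crest.Agent.H1.Gr
open scoped ComplexConjugate Topology

theorem par_aux (r2 r3 t d : ℝ) (h2 : r2 ^ 2 = 2) (h2' : 0 < r2) (h3 : r3 ^ 2 = 3) (h3' : 0 < r3)
    (ht : t ^ 2 = (r2 - 1) / 3) (ht' : 0 < t) (hd : d ^ 2 = (2 + r2) / 3) (hd' : 0 < d) :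
    Nonempty Par := by
  have hr : r2 < 2 := by nlinarith
  have h2t : 2 * t < d := by nlinarith
  have hθ : t ^ 2 + d ^ 2 - t * d < 1 := by nlinarith
  refine ⟨⟨t, r2, √(t ^ 2 + d ^ 2 - t * d), ![⟨d, 0⟩, ⟨-d / 2, r3 * d / 2⟩, ⟨-d / 2, -(r3 * d) / 2⟩],
    ht', by exact_mod_cast h2, fun i => ?_, fun i j hij => ?_, Real.sqrt_nonneg _,
    (Real.sqrt_lt' one_pos).2 (by simpa using hθ), fun X hX => ?_⟩⟩
  · fin_cases i <;> apply Complex.ext <;> simp [sq] <;> nlinarith
  · fin_cases i <;> fin_cases j <;> first | exact absurd rfl hij | skip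
    all_goals apply Complex.ext <;> simp <;> nlinarith
  · have h1 : X.re ^ 2 + X.im ^ 2 = 1 := by
      have := Complex.sq_norm X
      rw [hX, Complex.normSq_apply] at this; nlinarith
    have htd : 0 < t * d := by positivity
    have key : ∀ z : ℂ, z.re ^ 2 + z.im ^ 2 = d ^ 2 → d / 2 ≤ X.re * z.re + X.im * z.im →
        ‖(t : ℂ) * X - z‖ ≤ √(t ^ 2 + d ^ 2 - t * d) := by
      intro z hz hc
      apply Real.le_sqrt_of_sq_le
      rw [Complex.sq_norm, Complex.normSq_apply]
      simp only [Complex.sub_re, Complex.sub_im, Complex.mul_re, Complex.mul_im, Complex.ofReal_re,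
        Complex.ofReal_im]
      nlinarith [mul_le_mul_of_nonneg_left hc ht'.le]
    by_cases ha : 1 / 2 ≤ X.re
    · exact ⟨0, key _ (by simp) (by simp; nlinarith)⟩
    · have ha1 : -1 ≤ X.re := by nlinarith
      have hb : (1 + X.re) ^ 2 ≤ (r3 * X.im) ^ 2 := by nlinarith
      rcases le_total 0 X.im with hb0 | hb0
      · have : 1 + X.re ≤ r3 * X.im := le_of_sq_le_sq hb (by positivity)
        exact ⟨1, key _ (by simp; nlinarith) (by simp; nlinarith)⟩
      · have : 1 + X.re ≤ -(r3 * X.im) := by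
          exact le_of_sq_le_sq (by rw [neg_sq]; exact hb) (by nlinarith)
        exact ⟨2, key _ (by simp; nlinarith) (by simp; nlinarith)⟩

theorem parStmt : ParStmt := by
  have h2 : √2 ^ 2 = 2 := Real.sq_sqrt (by norm_num)
  have h2' : 0 < √2 := Real.sqrt_pos.2 (by norm_num)
  have h1 : 1 < √2 := by nlinarith
  exact par_aux √2 √3 √((√2 - 1) / 3) √((2 + √2) / 3) h2 h2' (Real.sq_sqrt (by norm_num))
    (Real.sqrt_pos.2 (by norm_num)) (Real.sq_sqrt (by linarith)) (Real.sqrt_pos.2 (by linarith))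
    (Real.sq_sqrt (by linarith)) (Real.sqrt_pos.2 (by linarith))

end Crest.Agent.H5.Gr
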