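import Crest.Agent.Lead.HcI

/-! Row 121: the global Dixmier property in a corner. -/

set_option autoImplicit false
set_option linter.unusedSectionVars false

universe u

namespace Crest.Agent.H5.Hc

open scoped InnerProductSpace
open Finset Crest.Agent.H5.KS Crest.Agent.H7.Batch Crest.Agent.H7 Crest.Agent.Lead.Hc

variable {H : Type*} [NormedAddCommGroup H] [InnerProductSpace ℂ H] [CompleteSpace H]
variable {M : VonNeumannAlgebra H} {g : H →L[ℂ] H}

lemma global_compare {e f : H →L[ℂ] H} (he : e ∈ M) (hf : f ∈ M) (pe : IsStarProjection e)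
    (pf : IsStarProjection f) : ∃ c, Cen M c ∧ Sub M (e * c) f ∧ Sub M (f * (1 - c)) e := by
  obtain ⟨s, sM, hs, s1, s2, s3⟩ := exists_compare he hf pe pf
  obtain ⟨c, hc, c1, c2⟩ := exists_cs (sub_mem he (mul_mem (star_mem sM) sM))
  have c3 := c2 _ s3
  have es : e * star s = star s := by simpa [pstar pe] using congrArg star s1
  refine ⟨1 - c, hc.one_sub, ⟨s * (1 - c), mul_mem sM hc.one_sub.mem, hc.one_sub.pi_mul sM hs, ?_,
    by rw [← mul_assoc, s2]⟩, ⟨star s * c, mul_mem (star_mem sM) hc.mem,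
      hc.pi_mul (star_mem sM) hs.star, ?_, by rw [← mul_assoc, es]⟩⟩
  · rw [hc.one_sub.dom_mul sM sM]
    rw [hc.comm _ (sub_mem he (mul_mem (star_mem sM) sM))] at c1
    have : (e - star s * s) * (1 - c) = 0 := by rw [mul_sub, mul_one, c1, sub_self]
    rw [sub_mul, sub_eq_zero] at this
    exact this.symm
  · rw [hc.dom_mul (star_mem sM) (star_mem sM), star_star, sub_sub_cancel]
    rw [sub_mul, sub_eq_zero] at c3
    exact c3.symm

lemma pyth {e : H →L[ℂ] H} (pe : IsStarProjection e) (ξ : H) :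
    ‖ξ‖ ^ 2 = ‖e ξ‖ ^ 2 + ‖(1 - e) ξ‖ ^ 2 := by
  rw [← re_inner_proj pe, ← re_inner_proj pe.one_sub, ← re_inner_add, add_sub_cancel,
    one_apply_eq_self, re_inner_self]

lemma norm_le_of_cut {X c : H →L[ℂ] H} (pc : IsStarProjection c) (hc : c * X = X * c) {r : ℝ}
    (h1 : ‖X * c‖ ≤ r) (h2 : ‖X * (1 - c)‖ ≤ r) : ‖X‖ ≤ r := by
  have r0 : 0 ≤ r := (norm_nonneg _).trans h1
  refine opNorm_le_of_sq r0 fun ξ => ?_
  have key : ∀ {d : H →L[ℂ] H}, IsStarProjection d → d * X = X * d → ‖X * d‖ ≤ r →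
      ‖d (X ξ)‖ ^ 2 ≤ r ^ 2 * ‖d ξ‖ ^ 2 := by
    intro d pd hd h
    have : d (X ξ) = (X * d) (d ξ) := by
      rw [← mul_apply_eq_comp, ← mul_apply_eq_comp, mul_assoc, pmul pd, hd]
    rw [this, ← mul_pow]
    exact pow_le_pow_left₀ (norm_nonneg _) (((X * d).le_opNorm _).trans
      (mul_le_mul_of_nonneg_right h (norm_nonneg _))) 2
  rw [pyth pc (X ξ), pyth pc ξ, mul_add]
  exact add_le_add (key pc hc h1) (key pc.one_sub (by rw [sub_mul, mul_sub, hc]; simp) h2)

/-- self-adjoint central elements -/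
structure ZS (M : VonNeumannAlgebra H) (c : H →L[ℂ] H) : Prop where
  mem : c ∈ M
  sa : IsSelfAdjoint c
  comm : ∀ x ∈ M, c * x = x * c

lemma ZS.add {c d : H →L[ℂ] H} (hc : ZS M c) (hd : ZS M d) : ZS M (c + d) :=
  ⟨add_mem hc.mem hd.mem, hc.sa.add hd.sa, fun x hx => by
    rw [add_mul, mul_add, hc.comm x hx, hd.comm x hx]⟩

lemma ZS.rsmul {c : H →L[ℂ] H} (hc : ZS M c) (r : ℝ) : ZS M (r • c) :=
  ⟨rsmul_mem _ hc.mem, (IsSelfAdjoint.all r).smul hc.sa, fun x hx => by
    rw [smul_mul_assoc, mul_smul_comm, hc.comm x hx]⟩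

lemma ZS.of_cen {c : H →L[ℂ] H} (hc : Cen M c) : ZS M c := ⟨hc.mem, hc.proj.isSelfAdjoint, hc.comm⟩

lemma ZS.zero : ZS M 0 := ⟨zero_mem _, IsSelfAdjoint.zero _, fun x _ => by simp⟩

lemma gstep (gM : g ∈ M) (pg : IsStarProjection g) {b : H →L[ℂ] H} {l : ℝ} (hl : 0 ≤ l)
    (hb : IsSelfAdjoint b) (bM : b ∈ M) (gb : g * b = b) (hn : ‖b‖ ≤ l) :
    ∃ u, CU M g u ∧ ∃ c, ZS M c ∧
      ‖(2⁻¹ : ℝ) • (b + star u * b * u) - c * g‖ ≤ 3 / 4 * l := by
  obtain ⟨f, pf, f1, f2, f3, f4, f5⟩ := exists_split b hb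
  have fM : f ∈ M := mem_of_comm fun t ht =>
    f4 t (comm_of_mem bM ht) (comm_of_mem bM (star_mem ht))
  have gf : g * f = f := by
    have := f5 (1 - g) (by rw [sub_mul, gb, one_mul, sub_self])
    rw [sub_mul, one_mul, sub_eq_zero] at this
    exact this.symm
  have fg : f * g = f := flip_mul (pstar pg) (pstar pf) (pstar pf) gf
  have bg : b * g = b := flip_mul (pstar pg) hb.star_eq hb.star_eq gb
  have pf' : IsStarProjection (g - f) := pf.sub_of_mul_eq_left pg fg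
  have f'M : g - f ∈ M := sub_mem gM fM
  obtain ⟨c, hc, hs1, hs2⟩ := global_compare fM f'M pf pf'
  have hn' : ∀ {z : H →L[ℂ] H}, Cen M z → ‖b * z‖ ≤ l := fun hz =>
    (norm_mul_le _ _).trans ((mul_le_of_le_one_right (norm_nonneg _) (hz.proj.norm_le _)).trans hn)
  have key : ∀ {b e z' : H →L[ℂ] H}, Cen M z' → IsSelfAdjoint b → b ∈ M → e ∈ M →
      IsStarProjection e → b * e = e * b → ‖b * z'‖ ≤ l → b * (1 - e) ≤ 0 →
      b * z' ≤ l • (e * z') := by
    intro b e z' hz' hb bM eM pe hc hn hneg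
    have pez := hz'.proj_mul eM pe
    have c1 : b * (e * z') = e * z' * b := by
      rw [← mul_assoc, hc, mul_assoc, mul_assoc, hz'.comm b bM]
    have h1 : b * (e * z') ≤ l • (e * z') := by
      refine le_smul_of_norm ?_ pez ?_ ?_
      · rw [IsSelfAdjoint, star_mul, pstar pez, hb.star_eq, c1]
      · rw [← hz'.comm e eM, ← mul_assoc]
        exact (norm_mul_le _ _).trans
          ((mul_le_of_le_one_right (norm_nonneg _) (pe.norm_le _)).trans hn)
      · rw [c1, ← mul_assoc, pmul pez]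
    have h2 : b * (1 - e) * z' ≤ 0 := by
      have := conj_nonneg' (neg_nonneg.2 hneg) hz'.proj
        (hz'.comm _ (neg_mem (mul_mem bM (sub_mem (one_mem _) eM)))).symm
      rwa [neg_mul, neg_nonneg] at this
    have e1 : b * z' = b * (e * z') + b * (1 - e) * z' := by noncomm_ring
    rw [e1]
    exact (add_le_add h1 h2).trans (by rw [add_zero])
  have hd := hc.one_sub
  obtain ⟨u₁, hu₁, h₁⟩ := swap_step gM pg hl hb bM gb hc (hn' hc) fM pf gf
      (key hc hb bM fM pf f3 (hn' hc) f2) hs1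
  obtain ⟨u₂, hu₂, h₂⟩ := swap_step gM pg hl hb.neg (neg_mem bM) (by rw [mul_neg, gb]) hd
      (by rw [neg_mul, norm_neg]; exact hn' hd) f'M pf' (by rw [mul_sub, pmul pg, gf])
      (key hd hb.neg (neg_mem bM) f'M pf' (by
          simp only [neg_mul, mul_neg, mul_sub, sub_mul, bg, gb, f3]; abel)
        (by rw [neg_mul, norm_neg]; exact hn' hd) (by
          have : -b * (1 - (g - f)) = -(b * f) := by
            simp only [neg_mul, mul_sub, mul_one, bg]; abel
          rw [this, neg_nonpos]; exact f1)) (by rwa [sub_sub_cancel])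
  set d := 1 - c with hdd
  have cd : c * d = 0 := by rw [hdd, mul_sub, mul_one, hc.sq, sub_self]
  have dc : d * c = 0 := by rw [hdd, sub_mul, one_mul, hc.sq, sub_self]
  have cpd : c + d = 1 := by rw [hdd, add_sub_cancel]
  set u := u₁ * c + u₂ * d with hu
  have uM : u ∈ M := add_mem (mul_mem hu₁.1 hc.mem) (mul_mem hu₂.1 hd.mem)
  have uc : u * c = u₁ * c := by rw [hu, add_mul, mul_assoc, mul_assoc, hc.sq, dc, mul_zero, add_zero]
  have ud : u * d = u₂ * d := by rw [hu, add_mul, mul_assoc, mul_assoc, hd.sq, cd, mul_zero, zero_add]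
  have conj : ∀ {z x y : H →L[ℂ] H} (a : H →L[ℂ] H), Cen M z → x ∈ M → y ∈ M → a ∈ M →
      x * z = y * z → star x * a * x * z = star y * a * y * z := by
    intro z x y a hz hx hy ha h
    have k : ∀ {x : H →L[ℂ] H}, x ∈ M → star x * a * x * z = star (x * z) * (a * (x * z)) := by
      intro x hx
      rw [← mul_assoc a, hz.dom_mul hx (mul_mem ha hx), mul_assoc (star x)]
    rw [k hx, k hy, h]
  have split : ∀ x y : H →L[ℂ] H, x * c = y * c → x * d = y * d → x = y := fun x y h1 h2 => by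
    rw [← mul_one x, ← mul_one y, ← cpd, mul_add, mul_add, h1, h2]
  have hU : CU M g u := by
    refine ⟨uM, split _ _ ?_ ?_, split _ _ ?_ ?_⟩
    · simpa [hu₁.2.1] using conj 1 hc uM hu₁.1 (one_mem _) uc
    · simpa [hu₂.2.1] using conj 1 hd uM hu₂.1 (one_mem _) ud
    · rw [← hc.ran_mul uM, uc, hc.ran_mul hu₁.1, hu₁.2.2]
    · rw [← hd.ran_mul uM, ud, hd.ran_mul hu₂.1, hu₂.2.2]
  have hz : ZS M ((-(l / 4)) • c + (l / 4) • d) :=
    ((ZS.of_cen hc).rsmul _).add ((ZS.of_cen hd).rsmul _)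
  refine ⟨u, hU, _, hz, norm_le_of_cut hc.proj (hc.comm _ (sub_mem (rsmul_mem _ (add_mem bM
    (mul_mem (mul_mem (star_mem uM) bM) uM))) (mul_mem hz.mem gM))) ?_ ?_⟩
  · refine le_trans (le_of_eq ?_) h₁
    congr 1
    have e1 : c * g * c = g * c := by rw [hc.comm g gM, mul_assoc, hc.sq]
    have e2 : d * g * c = 0 := by rw [hd.comm g gM, mul_assoc, dc, mul_zero]
    simp only [sub_mul, add_mul, smul_mul_assoc, conj b hc uM hu₁.1 bM uc, e1, e2]
    module
  · rw [← norm_neg] at h₂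
    rw [← hdd]
    refine le_trans (le_of_eq ?_) h₂
    congr 1
    have e1 : d * g * d = g * d := by rw [hd.comm g gM, mul_assoc, hd.sq]
    have e2 : c * g * d = 0 := by rw [hc.comm g gM, mul_assoc, cd, mul_zero]
    simp only [sub_mul, add_mul, smul_mul_assoc, conj b hd uM hu₂.1 bM ud, e1, e2, mul_neg, neg_mul]
    module

lemma TT_zs {Ω : Type*} [Fintype Ω] [Nonempty Ω] {v : Ω → H →L[ℂ] H} (hv : ∀ t, CU M g (v t))
    (pg : IsStarProjection g) {c : H →L[ℂ] H} (hc : ZS M c) : TT v (c * g) = c * g := by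
  have : ∀ t, star (v t) * (c * g) * v t = c * g := fun t => by
    rw [← mul_assoc, ← hc.comm _ (star_mem (hv t).1), mul_assoc, mul_assoc, (hv t).g_mul pg,
      (hv t).2.1]
  simp only [TT, this, Kad.av_const]

lemma gd1 (gM : g ∈ M) (pg : IsStarProjection g) {a : H →L[ℂ] H} (ha : IsSelfAdjoint a)
    (aM : a ∈ M) (n : ℕ) :
    ∃ (Ω : Type) (_ : Fintype Ω) (_ : Nonempty Ω) (v : Ω → H →L[ℂ] H), (∀ t, CU M g (v t)) ∧
      ∃ c, ZS M c ∧ ‖TT v a - c * g‖ ≤ (3 / 4) ^ n * ‖a‖ := by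
  induction n with
  | zero =>
    refine ⟨Unit, inferInstance, inferInstance, fun _ => g, fun _ => CU.self gM pg, 0, ZS.zero, ?_⟩
    rw [zero_mul, sub_zero, pow_zero, one_mul]
    exact norm_TT_le (fun _ => CU.self gM pg) pg a
  | succ n ih =>
    obtain ⟨Ω, _, _, v, hv, c, hz, hc⟩ := ih
    have hb : IsSelfAdjoint (TT v a - c * g) := by
      rw [IsSelfAdjoint, star_sub, TT_star, ha.star_eq, star_mul, pstar pg, hz.sa.star_eq,
        hz.comm g gM]
    have gb : g * (TT v a - c * g) = TT v a - c * g := by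
      rw [mul_sub, TT_g_mul hv pg, hz.comm g gM, pmul' pg]
    obtain ⟨u, hu, c', hz', hc'⟩ := gstep gM pg (by positivity) hb
      (sub_mem (TT_mem hv aM) (mul_mem hz.mem gM)) gb hc
    let w : Bool → H →L[ℂ] H := fun b => if b then u else g
    have hw : ∀ t, CU M g (w t) := by
      rintro (_ | _)
      · exact CU.self gM pg
      · exact hu
    refine ⟨Bool × Ω, inferInstance, inferInstance,
      fun t => v t.2 * w t.1, fun t => (hv _).mul (hw _) pg, c + c', hz.add hz', ?_⟩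
    rw [TT_prod, pow_succ', mul_assoc]
    convert hc' using 2
    have e1 : TT w (TT v a) = TT w (TT v a - c * g) + c * g := by
      rw [TT_sub, TT_zs hw pg hz, sub_add_cancel]
    have bg := flip_mul (pstar pg) hb.star_eq hb.star_eq gb
    rw [e1]
    generalize TT v a - c * g = b at *
    have e2 : TT w b = (2⁻¹ : ℝ) • (b + star u * b * u) := by
      simp only [TT, Kad.av, Fintype.card_bool, Fintype.sum_bool, w, if_true, Bool.false_eq_true,
        if_false, pstar pg, gb, bg, Nat.cast_ofNat]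
      rw [add_comm]
    rw [e2, add_mul]; abel

theorem dix (gM : g ∈ M) (pg : IsStarProjection g) (S : Finset (H →L[ℂ] H))
    (hS : ∀ a ∈ S, a ∈ M ∧ IsSelfAdjoint a) {ε : ℝ} (hε : 0 < ε) :
    ∃ (Ω : Type) (_ : Fintype Ω) (_ : Nonempty Ω) (v : Ω → H →L[ℂ] H), (∀ t, CU M g (v t)) ∧
      ∀ a ∈ S, ∃ c, ZS M c ∧ ‖TT v a - c * g‖ ≤ ε := by
  classical
  induction S using Finset.induction_on with
  | empty => exact ⟨Unit, inferInstance, inferInstance, fun _ => g, fun _ => CU.self gM pg, by simp⟩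
  | @insert a S _ ih =>
    obtain ⟨Ω, _, _, v, hv, hg⟩ := ih fun b hb => hS b (mem_insert_of_mem hb)
    obtain ⟨aM, ha⟩ := hS a (mem_insert_self _ _)
    obtain ⟨n, hn⟩ := exists_pow_lt_of_lt_one (show 0 < ε / (‖TT v a‖ + 1) by positivity)
      (show (3 / 4 : ℝ) < 1 by norm_num)
    obtain ⟨Ω', _, _, w, hw, c, hc, hc'⟩ := gd1 gM pg (a := TT v a)
      (by rw [IsSelfAdjoint, TT_star, ha.star_eq]) (TT_mem hv aM) n
    refine ⟨Ω' × Ω, inferInstance, inferInstance,
      fun t => v t.2 * w t.1, fun t => (hv _).mul (hw _) pg, fun b hb => ?_⟩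
    rw [TT_prod]
    rcases mem_insert.1 hb with rfl | hb
    · refine ⟨c, hc, hc'.trans ?_⟩
      rw [lt_div_iff₀ (by positivity)] at hn
      have : 0 ≤ (3 / 4 : ℝ) ^ n := by positivity
      nlinarith
    · obtain ⟨d, hd, hd'⟩ := hg b hb
      refine ⟨d, hd, ?_⟩
      rw [← TT_zs hw pg hd, ← TT_sub]
      exact (norm_TT_le hw pg _).trans hd'

theorem dixStmt : DixStmt.{u} := by
  intro H _ _ _ M g S ε gM pg hS hε
  obtain ⟨Ω, _, _, v, hv, h⟩ := dix gM pg S hS hε
  refine ⟨Ω, inferInstance, inferInstance, v, hv, fun a ha => ?_⟩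
  obtain ⟨c, hc, h⟩ := h a ha
  exact ⟨c, hc.mem, hc.sa, hc.comm, h⟩

end Crest.Agent.H5.Hc
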