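import Crest.Agent.H5.HcDix

/-! Row 121: faithfulness, Lemma D, weak ultralimits. -/

set_option autoImplicit false
set_option linter.unusedSectionVars false

universe u

namespace Crest.Agent.H5.Hc

open scoped InnerProductSpace
open Finset Filter Topology Crest.Agent.H5.KS Crest.Agent.H7.Batch Crest.Agent.H7
  Crest.Agent.Lead.Hc

variable {H : Type*} [NormedAddCommGroup H] [InnerProductSpace ℂ H] [CompleteSpace H]
variable {M : VonNeumannAlgebra H} {z : H →L[ℂ] H} {k : ℕ} {ζ : Fin k → H}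

lemma sq_apply_le (T : H →L[ℂ] H) (ξ : H) : ‖T ξ‖ ^ 2 ≤ ‖T‖ ^ 2 * ‖ξ‖ ^ 2 := by
  rw [← mul_pow]; exact pow_le_pow_left₀ (norm_nonneg _) (T.le_opNorm ξ) 2

/-- an element of `M z` killing the trace vectors vanishes -/
lemma kill (hz : Cen M z) (hT : Tr M z ζ) {x : H →L[ℂ] H} (xM : x ∈ M) (xz : x * z = x)
    (h : ∀ a, x (ζ a) = 0) : x = 0 := by
  have zero : ∀ {y : H →L[ℂ] H}, y ∈ M → (∀ a, y (ζ a) = 0) → ∀ a, star y (ζ a) = 0 := by
    intro y hy h0 a
    have := hT.ct y hy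
    simp only [h0, norm_zero] at this
    have h2 := (sum_eq_zero_iff_of_nonneg (fun a _ => sq_nonneg ‖star y (ζ a)‖)).1
      (le_antisymm (by simpa using this) (sum_nonneg fun a _ => sq_nonneg _)) a (mem_univ _)
    simpa using h2
  have h1 : ∀ y ∈ M, ∀ a, x (star y (ζ a)) = 0 := fun y hy a => by
    have := zero (mul_mem hy (star_mem xM))
      (fun a => by rw [mul_apply_eq_comp, zero xM h, map_zero]) a
    rwa [star_mul, star_star, mul_apply_eq_comp] at this
  obtain ⟨c, hc, c1, c2⟩ := exists_cs (star_mem xM)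
  have h2 : ∀ a, c (ζ a) = 0 := fun a => by
    have := c2 ((innerSL ℂ (ζ a)).smulRight (ζ a)) fun y hy => by
      ext ξ
      simp only [mul_apply_eq_comp, ContinuousLinearMap.smulRight_apply, innerSL_apply_apply,
        _root_.zero_apply]
      rw [← inner_star_left, inner_star_right, h1 y hy, inner_zero_left, zero_smul]
    have h3 := congrArg (fun S : H →L[ℂ] H => S (ζ a)) this
    simp only [mul_apply_eq_comp, ContinuousLinearMap.smulRight_apply, innerSL_apply_apply,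
      _root_.zero_apply, smul_eq_zero] at h3
    rcases h3 with h3 | h3
    · have := re_inner_proj hc.proj (ζ a)
      rw [h3] at this
      simpa using this.symm
    · rw [h3, map_zero]
  by_contra x0
  have cz : c * z ≠ 0 := fun h0 => x0 (by
    have e : z * star x = star x := by simpa [hz.star_eq] using congrArg star xz
    have : star x = 0 := by rw [← c1, ← e, ← mul_assoc, h0, zero_mul]
    simpa using this)
  obtain ⟨a, ha⟩ := hT.faith _ (hc.mul hz) cz (by rw [mul_assoc, hz.sq])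
  exact ha (by rw [mul_apply_eq_comp, hT.cut, h2])

lemma re_inner_le_norm' (T : H →L[ℂ] H) (ξ : H) : (⟪ξ, T ξ⟫_ℂ).re ≤ ‖T‖ * ‖ξ‖ ^ 2 := by
  refine (Complex.re_le_norm _).trans ((norm_inner_le_norm _ _).trans ?_)
  nlinarith [T.le_opNorm ξ, norm_nonneg ξ]

/-- Lemma D: a nearly central positive element with small local traces is small. -/
lemma lemD (hz : Cen M z) (hT : Tr M z ζ) {g X c : H →L[ℂ] H} (gM : g ∈ M)
    (pg : IsStarProjection g) (gz : g * z = g) (X0 : 0 ≤ X) (gX : g * X = X) (hc : ZS M c)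
    {ε K : ℝ} (hε : 0 < ε) (K0 : 0 ≤ K) (h : ‖X - c * g‖ ≤ ε)
    (hK : ∀ e, Cen M e → ∑ a, (⟪e (ζ a), X (e (ζ a))⟫_ℂ).re ≤ K * ∑ a, ‖g (e (ζ a))‖ ^ 2) :
    ‖X‖ ≤ K + 3 * ε := by
  set r := K + 2 * ε with hr
  have sa : IsSelfAdjoint (c - r • (1 : H →L[ℂ] H)) :=
    hc.sa.sub ((IsSelfAdjoint.all r).smul (IsSelfAdjoint.one _))
  obtain ⟨e, pe, e1, e2, -, e4, -⟩ := exists_split _ sa
  have cm : ∀ t : H →L[ℂ] H, t * c = c * t → t * (c - r • 1) = (c - r • 1) * t := fun t ht => by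
    rw [mul_sub, sub_mul, ht]; simp
  have he : Cen M e := ⟨mem_of_comm fun t ht => e4 t (cm t (comm_of_mem hc.mem ht))
    (cm _ (comm_of_mem hc.mem (star_mem ht))), pe,
    fun a ha => (e4 a (cm a (hc.comm a ha).symm) (cm _ (hc.comm _ (star_mem ha)).symm)).symm⟩
  have Xg : X * g = X := flip_mul (pstar pg) X0.isSelfAdjoint.star_eq X0.isSelfAdjoint.star_eq gX
  have cg := hc.comm g gM
  have key : ∀ ξ, (⟪ξ, X ξ⟫_ℂ).re = (⟪g ξ, (X - c * g) (g ξ)⟫_ℂ).re +
      (⟪g ξ, (c - r • 1) (g ξ)⟫_ℂ).re + r * ‖g ξ‖ ^ 2 := fun ξ => by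
    have : ⟪ξ, X ξ⟫_ℂ = ⟪g ξ, X (g ξ)⟫_ℂ := by
      rw [← mul_apply_eq_comp X g, Xg, ← inner_star_right, pstar pg, ← mul_apply_eq_comp, gX]
    rw [this, re_inner_sub, re_inner_sub, re_inner_rsmul, one_apply_eq_self, re_inner_self,
      mul_apply_eq_comp, ← mul_apply_eq_comp g g, pmul pg]
    ring
  have bd : ∀ ξ, |(⟪ξ, (X - c * g) ξ⟫_ℂ).re| ≤ ε * ‖ξ‖ ^ 2 := fun ξ => by
    refine (Complex.abs_re_le_norm _).trans ((norm_inner_le_norm _ _).trans ?_)
    have := (X - c * g).le_of_opNorm_le h ξ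
    nlinarith [norm_nonneg ξ]
  have ge : ∀ ξ, g (e ξ) = e (g ξ) := fun ξ => by
    rw [← mul_apply_eq_comp, ← he.comm g gM, mul_apply_eq_comp]
  have h1 : ∑ a, ‖g (e (ζ a))‖ ^ 2 ≤ 0 := by
    have h2 : ∀ a, (r - ε) * ‖g (e (ζ a))‖ ^ 2 ≤ (⟪e (ζ a), X (e (ζ a))⟫_ℂ).re := fun a => by
      rw [key]
      have h3 := (abs_le.1 (bd (g (e (ζ a))))).1
      have h4 := re_inner_nonneg e1 (g (e (ζ a)))
      rw [mul_apply_eq_comp, ge, ← mul_apply_eq_comp e e, pmul pe, ← ge] at h4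
      linarith
    have h3 := (sum_le_sum fun a (_ : a ∈ univ) => h2 a).trans (hK e he)
    rw [← mul_sum] at h3
    by_contra hn
    push Not at hn
    nlinarith
  have h2 : g * e = 0 := kill hz hT (mul_mem gM he.mem)
    (by rw [mul_assoc, ← hz.comm e he.mem, ← mul_assoc, gz]) fun a => by
      have := (sum_eq_zero_iff_of_nonneg (fun a _ => sq_nonneg ‖g (e (ζ a))‖)).1
        (le_antisymm h1 (sum_nonneg fun a _ => sq_nonneg _)) a (mem_univ _)
      simpa using this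
  have h3 := norm_sum_star_mul_le (univ : Finset Unit) (fun _ => CFC.sqrt X)
    (c := K + 3 * ε) (by positivity) fun ξ => by
      rw [Finset.sum_const, card_univ, Fintype.card_unit, one_smul, norm_sq_eq_re,
        (CFC.sqrt_nonneg X).isSelfAdjoint.star_eq, CFC.sqrt_mul_sqrt_self X X0, key]
      have h3 := (abs_le.1 (bd (g ξ))).2
      have h4 := re_inner_mono e2 (g ξ)
      have h5 : (1 - e) (g ξ) = g ξ := by
        rw [_root_.sub_apply, one_apply_eq_self, ← ge, ← mul_apply_eq_comp, h2]; simp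
      rw [mul_apply_eq_comp, h5] at h4
      simp only [_root_.zero_apply, inner_zero_right, Complex.zero_re] at h4
      have h6 := pow_le_pow_left₀ (norm_nonneg _) (proj_apply_le pg ξ) 2
      have : 0 ≤ K + 3 * ε := by positivity
      nlinarith
  rwa [Finset.sum_const, card_univ, Fintype.card_unit, one_smul,
    (CFC.sqrt_nonneg X).isSelfAdjoint.star_eq, CFC.sqrt_mul_sqrt_self X X0] at h3

/-! ### weak limits -/

section WL
variable {α : Type*} {U : Filter α} {S T : α → H →L[ℂ] H} {s t : H →L[ℂ] H}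

/-- weak operator convergence -/
def WL (U : Filter α) (T : α → H →L[ℂ] H) (t : H →L[ℂ] H) : Prop :=
  ∀ ξ η, Tendsto (fun a => ⟪η, T a ξ⟫_ℂ) U (𝓝 ⟪η, t ξ⟫_ℂ)

lemma WL.const (t : H →L[ℂ] H) : WL U (fun _ => t) t := fun _ _ => tendsto_const_nhds

lemma WL.eq [U.NeBot] (h : WL U S s) (h' : WL U T t) (e : ∀ a, S a = T a) : s = t := by
  ext ξ
  refine ext_inner_left ℂ fun η => tendsto_nhds_unique (h ξ η) ?_
  simpa only [e] using h' ξ η

lemma WL.add (h : WL U S s) (h' : WL U T t) : WL U (fun a => S a + T a) (s + t) := fun ξ η => by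
  simpa only [_root_.add_apply, inner_add_right] using (h ξ η).add (h' ξ η)

lemma WL.sub (h : WL U S s) (h' : WL U T t) : WL U (fun a => S a - T a) (s - t) := fun ξ η => by
  simpa only [_root_.sub_apply, inner_sub_right] using (h ξ η).sub (h' ξ η)

lemma WL.smul (h : WL U S s) (c : ℂ) : WL U (fun a => c • S a) (c • s) := fun ξ η => by
  simpa only [_root_.smul_apply, inner_smul_right] using (h ξ η).const_mul c

lemma WL.mul_left (h : WL U S s) (b : H →L[ℂ] H) : WL U (fun a => b * S a) (b * s) :=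
  fun ξ η => by simpa only [mul_apply_eq_comp, inner_star_left] using h ξ (star b η)

lemma WL.mul_right (h : WL U S s) (b : H →L[ℂ] H) : WL U (fun a => S a * b) (s * b) :=
  fun ξ η => by simpa only [mul_apply_eq_comp] using h (b ξ) η

lemma WL.star (h : WL U S s) : WL U (fun a => star (S a)) (star s) := fun ξ η => by
  have := (Complex.continuous_conj.tendsto _).comp (h η ξ)
  simpa only [Function.comp_def, inner_conj_symm, inner_star_right] using this

lemma WL.mem [U.NeBot] (h : WL U S s) (e : ∀ a, S a ∈ M) : s ∈ M :=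
  mem_of_comm fun y hy => (h.mul_left y).eq (h.mul_right y) fun a => comm_of_mem (e a) hy

lemma WL.sum_le [U.NeBot] {ι : Type*} [Fintype ι] {S : ι → α → H →L[ℂ] H} {s : ι → H →L[ℂ] H}
    (h : ∀ i, WL U (S i) (s i)) (ξ : ι → H) {C : ℝ} (e : ∀ᶠ a in U, ∑ i, ‖S i a (ξ i)‖ ^ 2 ≤ C) :
    ∑ i, ‖s i (ξ i)‖ ^ 2 ≤ C := by
  have h1 : Tendsto (fun a => ∑ i, (⟪s i (ξ i), S i a (ξ i)⟫_ℂ).re) U
      (𝓝 (∑ i, ‖s i (ξ i)‖ ^ 2)) := by
    refine tendsto_finsetSum _ fun i _ => ?_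
    rw [← re_inner_self]
    exact (Complex.continuous_re.tendsto _).comp (h i _ _)
  have h2 := le_of_tendsto h1 (b := (∑ i, ‖s i (ξ i)‖ ^ 2 + C) / 2) (e.mono fun a ha => by
    have : ∑ i, (⟪s i (ξ i), S i a (ξ i)⟫_ℂ).re ≤
        ∑ i, (‖s i (ξ i)‖ ^ 2 + ‖S i a (ξ i)‖ ^ 2) / 2 := sum_le_sum fun i _ => by
      refine (Complex.re_le_norm _).trans ((norm_inner_le_norm _ _).trans ?_)
      nlinarith [sq_nonneg (‖s i (ξ i)‖ - ‖S i a (ξ i)‖)]
    rw [← sum_div, sum_add_distrib] at this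
    linarith)
  linarith

lemma WL.norm_le [U.NeBot] (h : WL U S s) {C : ℝ} (C0 : 0 ≤ C) (e : ∀ a, ‖S a‖ ≤ C) : ‖s‖ ≤ C :=
  opNorm_le_of_sq C0 fun ξ => by
    have := WL.sum_le (ι := Unit) (fun _ => h) (fun _ => ξ) (C := C ^ 2 * ‖ξ‖ ^ 2)
      (Eventually.of_forall fun a => by
        simpa using (sq_apply_le (S a) ξ).trans (by gcongr; exact e a))
    simpa using this

lemma exists_wl (U : Ultrafilter α) (T : α → H →L[ℂ] H) {C : ℝ} (h : ∀ a, ‖T a‖ ≤ C) :
    ∃ t, WL (U : Filter α) T t := by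
  have hb : ∀ ξ η a, ‖⟪T a ξ, η⟫_ℂ‖ ≤ C * ‖ξ‖ * ‖η‖ := fun ξ η a =>
    (norm_inner_le_norm _ _).trans (by gcongr; exact (T a).le_of_opNorm_le (h a) ξ)
  have ex : ∀ ξ η, ∃ l, Tendsto (fun a => ⟪T a ξ, η⟫_ℂ) U (𝓝 l) := fun ξ η => by
    obtain ⟨l, -, hl⟩ := (isCompact_closedBall (0 : ℂ) (C * ‖ξ‖ * ‖η‖)).ultrafilter_le_nhds
      (U.map fun a => ⟪T a ξ, η⟫_ℂ) (by
        rw [Ultrafilter.coe_map, le_principal_iff, Filter.mem_map]
        exact Eventually.of_forall fun a => by simpa using hb ξ η a)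
    exact ⟨l, hl⟩
  choose l hl using ex
  let β : H →ₗ⋆[ℂ] H →ₗ[ℂ] ℂ := LinearMap.mk₂'ₛₗ (starRingEnd ℂ) (RingHom.id ℂ) l
    (fun ξ ξ' η => tendsto_nhds_unique (hl _ _) (by
      simpa only [map_add, inner_add_left] using (hl ξ η).add (hl ξ' η)))
    (fun c ξ η => tendsto_nhds_unique (hl _ _) (by
      simpa only [map_smul, inner_smul_left, smul_eq_mul] using (hl ξ η).const_mul _))
    (fun ξ η η' => tendsto_nhds_unique (hl _ _) (by
      simpa only [inner_add_right] using (hl ξ η).add (hl ξ η')))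
    (fun c ξ η => tendsto_nhds_unique (hl _ _) (by
      simpa only [inner_smul_right, smul_eq_mul, RingHom.id_apply] using (hl ξ η).const_mul _))
  let β' : H →L⋆[ℂ] H →L[ℂ] ℂ := β.mkContinuous₂ C fun ξ η =>
    le_of_tendsto (hl ξ η).norm (Eventually.of_forall (hb ξ η))
  refine ⟨InnerProductSpace.continuousLinearMapOfBilin β', fun ξ η => ?_⟩
  have := (Complex.continuous_conj.tendsto _).comp (hl ξ η)
  rw [← inner_conj_symm, InnerProductSpace.continuousLinearMapOfBilin_apply]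
  simp only [Function.comp_def, inner_conj_symm] at this
  exact this

lemma exists_lin_lim {V : Type*} [AddCommGroup V] [Module ℂ V] (U : Ultrafilter α)
    (Λ : α → V →ₗ[ℂ] Al M) (h : ∀ T, ∃ C, ∀ a, ‖Λ a T‖ ≤ C) :
    ∃ L : V →ₗ[ℂ] Al M, ∀ T, WL (U : Filter α) (fun a => (Λ a T : H →L[ℂ] H)) (L T) := by
  choose C hC using h
  choose l hl using fun T => exists_wl U (fun a => (Λ a T : H →L[ℂ] H)) (hC T)
  refine ⟨{ toFun := fun T => ⟨l T, (hl T).mem fun a => (Λ a T).2⟩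
            map_add' := fun S T => Subtype.ext ((hl _).eq ((hl S).add (hl T)) fun a => by simp)
            map_smul' := fun c T => Subtype.ext ((hl _).eq ((hl T).smul c) fun a => by simp) }, hl⟩

end WL

end Crest.Agent.H5.Hc
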