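import Crest.Agent.H5.HcLim

/-! Row 121: from approximately modular frames to the invariant mean. -/

set_option autoImplicit false
set_option linter.unusedSectionVars false

universe u

namespace Crest.Agent.H5.Hc

open scoped InnerProductSpace
open Finset Filter Topology Crest.Agent.H5.KS Crest.Agent.H7.Batch Crest.Agent.H7
  Crest.Agent.Lead.Hc

variable {H : Type*} [NormedAddCommGroup H] [InnerProductSpace ℂ H] [CompleteSpace H]
variable {M : VonNeumannAlgebra H} {z : H →L[ℂ] H} {k : ℕ} {ζ : Fin k → H}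

/-- bounded left modular maps fixing left multiplications -/
structure Pre (z : H →L[ℂ] H) (Λ : (Al M →L[ℂ] Al M) →ₗ[ℂ] Al M) (C : ℝ) : Prop where
  one : ∀ b : Al M, (Λ (Lm b) : H →L[ℂ] H) = b * z
  left : ∀ T (b : Al M), Λ ((Lm b).comp T) = b * Λ T
  norm : ∀ T, ‖Λ T‖ ≤ C * ‖T‖

lemma Pre.lim {α : Type*} (U : Ultrafilter α) {Λ : α → (Al M →L[ℂ] Al M) →ₗ[ℂ] Al M} {C : ℝ}
    (C0 : 0 ≤ C) (h : ∀ a, Pre z (Λ a) C) : ∃ L : (Al M →L[ℂ] Al M) →ₗ[ℂ] Al M, Pre z L C ∧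
      ∀ T, WL (U : Filter α) (fun a => (Λ a T : H →L[ℂ] H)) (L T) := by
  obtain ⟨L, hL⟩ := exists_lin_lim U Λ fun T => ⟨_, fun a => (h a).norm T⟩
  refine ⟨L, ⟨fun b => (hL _).eq (WL.const _) fun a => (h a).one b, fun T b => Subtype.ext
    ((hL _).eq ((hL T).mul_left b) fun a => by rw [(h a).left]; rfl),
    fun T => (hL T).norm_le (by positivity) fun a => (h a).norm T⟩, hL⟩

lemma Lm_comp (a b : Al M) : (Lm a).comp (Lm b) = Lm (a * b) := by
  ext1 x; simp [mul_assoc]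

lemma norm_comp_Lm (T : Al M →L[ℂ] Al M) (b : Al M) : ‖T.comp (Lm b)‖ ≤ ‖T‖ * ‖b‖ :=
  (T.opNorm_comp_le _).trans (by gcongr; exact ContinuousLinearMap.opNorm_mul_apply_le _ _ _)

/-- frame operation -/
noncomputable def frOp {ι : Type*} [Fintype ι] (Λ : (Al M →L[ℂ] Al M) →ₗ[ℂ] Al M) (y : ι → Al M) :
    (Al M →L[ℂ] Al M) →ₗ[ℂ] Al M where
  toFun T := ∑ i, Λ (T.comp (Lm (y i))) * star (y i)
  map_add' S T := by simp [ContinuousLinearMap.add_comp, add_mul, sum_add_distrib]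
  map_smul' c T := by simp [ContinuousLinearMap.smul_comp, smul_sum]

lemma frOp_coe {ι : Type*} [Fintype ι] (Λ : (Al M →L[ℂ] Al M) →ₗ[ℂ] Al M) (y : ι → Al M)
    (T : Al M →L[ℂ] Al M) : (frOp Λ y T : H →L[ℂ] H) =
      ∑ i, (Λ (T.comp (Lm (y i))) : H →L[ℂ] H) * star (y i : H →L[ℂ] H) := by
  simp [frOp]

lemma frOp_left {ι : Type*} [Fintype ι] {Λ : (Al M →L[ℂ] Al M) →ₗ[ℂ] Al M} (y : ι → Al M)
    (h : ∀ T (b : Al M), Λ ((Lm b).comp T) = b * Λ T) (T : Al M →L[ℂ] Al M) (b : Al M) :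
    frOp Λ y ((Lm b).comp T) = b * frOp Λ y T := by
  simp only [frOp, LinearMap.coe_mk, AddHom.coe_mk, ContinuousLinearMap.comp_assoc, h, mul_sum,
    mul_assoc]

/-- evaluation at `1` -/
noncomputable def ev1 : (Al M →L[ℂ] Al M) →ₗ[ℂ] Al M where
  toFun T := T 1
  map_add' _ _ := rfl
  map_smul' _ _ := rfl

lemma gt_vN (T : Al M →L[ℂ] Al M) {ι : Type*} [Fintype ι] (x : ι → Al M) (η : H) :
    ∑ i, ‖star (T (x i) : H →L[ℂ] H) η‖ ^ 2 ≤ 2 * (‖T‖ * ‖η‖) ^ 2 *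
      (‖∑ i, (x i : H →L[ℂ] H) * star (x i : H →L[ℂ] H)‖ +
        ‖∑ i, star (x i : H →L[ℂ] H) * (x i : H →L[ℂ] H)‖) := by
  let _ := CStarAlgebra.spectralOrder (Al M)
  let _ := CStarAlgebra.spectralOrderedRing (Al M)
  let Φ : Al M →ₗ[ℂ] H :=
    { toFun := fun a => star (T (star a) : H →L[ℂ] H) η
      map_add' := fun a b => by simp
      map_smul' := fun c a => by simp }
  have := Kad.gt Φ (‖T‖ * ‖η‖) (by positivity) (fun a => by
    refine ((star (T (star a) : H →L[ℂ] H)).le_opNorm η).trans ?_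
    rw [nstar]
    have : ‖(T (star a) : H →L[ℂ] H)‖ ≤ ‖T‖ * ‖a‖ := by
      have := T.le_opNorm (star a); rwa [norm_star] at this
    nlinarith [norm_nonneg η]) univ fun i => star (x i)
  simp only [star_star, Φ, LinearMap.coe_mk, AddHom.coe_mk] at this
  refine this.trans (le_of_eq ?_)
  congr 2
  · change ‖((∑ i, x i * star (x i) : Al M) : H →L[ℂ] H)‖ = _
    simp
  · change ‖((∑ i, star (x i) * x i : Al M) : H →L[ℂ] H)‖ = _
    simp

lemma row_norm {ι : Type*} [Fintype ι] {y : ι → H →L[ℂ] H} {c : ℝ} (h : Row y c) :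
    ‖∑ i, y i * star (y i)‖ ≤ c ^ 2 := by
  simpa using norm_sum_star_mul_le univ (fun i => star (y i)) (sq_nonneg c) h

lemma normsq_av_le {Ω : Type*} [Fintype Ω] [Nonempty Ω] (f : Ω → H) :
    ‖av f‖ ^ 2 ≤ av fun t => ‖f t‖ ^ 2 :=
  (pow_le_pow_left₀ (norm_nonneg _) (norm_av_le f) 2).trans (av_sq_le _)

lemma av_apply {Ω : Type*} [Fintype Ω] (f : Ω → H →L[ℂ] H) (ξ : H) : av f ξ = av fun t => f t ξ := by
  simp [av]

lemma star_av' {Ω : Type*} [Fintype Ω] (f : Ω → H →L[ℂ] H) :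
    star (av f) = av fun t => star (f t) := Kad.star_av f

lemma TT_eq {Ω : Type*} [Fintype Ω] (v : Ω → H →L[ℂ] H) (A : H →L[ℂ] H) :
    TT v A = av fun t => star (v t) * A * v t := rfl

lemma TT_nonneg {Ω : Type*} [Fintype Ω] (v : Ω → H →L[ℂ] H) {A : H →L[ℂ] H} (h : 0 ≤ A) :
    0 ≤ TT v A := av_op_nonneg fun _ => star_left_conjugate_nonneg h _

/-- local traces of an average -/
lemma TT_trace {Ω ι : Type*} [Fintype Ω] [Nonempty Ω] [Fintype ι] {g : H →L[ℂ] H}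
    (pg : IsStarProjection g) {v : Ω → H →L[ℂ] H} (hv : ∀ t, CU M g (v t)) (hζ : CT M ζ)
    (y : ι → H →L[ℂ] H) (yM : ∀ i, y i ∈ M) :
    ∑ a, (⟪ζ a, TT v (∑ i, star (y i) * y i) (ζ a)⟫_ℂ).re ≤ 2 * ∑ a, ∑ i, ‖star (y i) (ζ a)‖ ^ 2 := by
  simp only [TT_eq, av_re_inner]
  rw [← av_sum]
  refine av_le fun t => ?_
  have e : ∀ a, (⟪ζ a, (star (v t) * (∑ i, star (y i) * y i) * v t) (ζ a)⟫_ℂ).re =
      ∑ i, ‖(y i * v t) (ζ a)‖ ^ 2 := fun a => by
    have := sum_normsq_star univ (fun i => star (y i * v t)) (ζ a)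
    simp only [star_star] at this
    rw [this]
    simp only [mul_sum, sum_mul, star_mul, mul_assoc]
  simp only [e]
  rw [sum_comm, sum_comm (f := fun a i => ‖star (y i) (ζ a)‖ ^ 2), mul_sum]
  refine sum_le_sum fun i _ => ?_
  have := hζ _ (star_mem (mul_mem (yM i) (hv t).1))
  rw [star_star] at this
  refine this.trans (mul_le_mul_of_nonneg_left (sum_le_sum fun a _ => ?_) zero_le_two)
  rw [star_mul, mul_apply_eq_comp]
  exact pow_le_pow_left₀ (norm_nonneg _) (apply_le_of_le_one ((hv t).star.norm_le pg) _) 2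

lemma stage1a (hz : Cen M z) (hT : Tr M z ζ) (S : Finset (H →L[ℂ] H)) {ε : ℝ} (hε : 0 < ε) :
    ∃ Λ : (Al M →L[ℂ] Al M) →ₗ[ℂ] Al M, Pre z Λ 1 ∧
      ∀ (T : Al M →L[ℂ] Al M) (ι : Type) [Fintype ι] (y : ι → Al M) (c : ℝ), Row (fun i => (y i : H →L[ℂ] H)) c →
        ∑ i, star (y i : H →L[ℂ] H) * y i ∈ S → ∀ η,
        ∑ i, ‖star (Λ (T.comp (Lm (y i))) : H →L[ℂ] H) η‖ ^ 2 ≤
          2 * (‖T‖ * ‖η‖) ^ 2 * (3 * c ^ 2 + 3 * ε) := by
  classical
  obtain ⟨Ω, _, _, v, hv, hS⟩ := dix hz.mem hz.proj (S.filter fun a => a ∈ M ∧ IsSelfAdjoint a)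
    (fun a ha => (mem_filter.1 ha).2) hε
  let v' : Ω → Al M := fun t => ⟨v t, (hv t).1⟩
  let Λ : (Al M →L[ℂ] Al M) →ₗ[ℂ] Al M := (Fintype.card Ω : ℂ)⁻¹ • frOp ev1 v'
  have hΛ : ∀ T, (Λ T : H →L[ℂ] H) = av fun t => (T (v' t) : H →L[ℂ] H) * star (v t) := fun T => by
    simp only [Λ, LinearMap.smul_apply, SetLike.val_smul, frOp_coe, av, ← Complex.coe_smul]
    simp [ev1, v']
  refine ⟨Λ, ⟨fun b => ?_, fun T b => ?_, fun T => ?_⟩, fun T ι _ y c hy hG η => ?_⟩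
  · rw [hΛ]
    simp [v', mul_assoc, (hv _).2.2, av_const]
  · simp only [Λ, LinearMap.smul_apply]
    rw [frOp_left v' (fun _ _ => rfl), mul_smul_comm]
  · change ‖(Λ T : H →L[ℂ] H)‖ ≤ _
    rw [hΛ, one_mul]
    refine (norm_av_le _).trans (av_le fun t => (norm_mul_le _ _).trans ?_)
    have h1 : ‖v t‖ ≤ 1 := (hv t).norm_le hz.proj
    have h2 : ‖(T (v' t) : H →L[ℂ] H)‖ ≤ ‖T‖ * ‖v t‖ := T.le_opNorm (v' t)
    rw [nstar]
    nlinarith [norm_nonneg (v t), norm_nonneg T, mul_le_mul_of_nonneg_right h2 (norm_nonneg (v t)),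
      mul_le_mul_of_nonneg_left h1 (norm_nonneg (v t))]
  · set G := ∑ i, star (y i : H →L[ℂ] H) * y i with hGd
    have G0 : 0 ≤ G := sum_nonneg fun i _ => star_mul_self_nonneg _
    have GM : G ∈ M := sum_mem fun i _ => mul_mem (star_mem (y i).2) (y i).2
    obtain ⟨c', hc', hn⟩ := hS G (mem_filter.2 ⟨hG, GM, G0.isSelfAdjoint⟩)
    have hD : ‖TT v G‖ ≤ 2 * c ^ 2 + 3 * ε := by
      refine lemD hz hT hz.mem hz.proj hz.sq (TT_nonneg v G0) (TT_g_mul hv hz.proj G) hc' hε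
        (by positivity) hn fun e he => (TT_trace hz.proj hv (hT.ct.cut he) _ fun i => (y i).2).trans ?_
      rw [mul_assoc, mul_sum (a := c ^ 2)]
      refine mul_le_mul_of_nonneg_left (sum_le_sum fun a _ => (hy _).trans (le_of_eq ?_)) zero_le_two
      rw [← mul_apply_eq_comp z, hz.comm e he.mem, mul_apply_eq_comp, hT.cut]
    have h1 : ∀ i, ‖star (Λ (T.comp (Lm (y i))) : H →L[ℂ] H) η‖ ^ 2 ≤
        av fun t => ‖star (T (y i * v' t) : H →L[ℂ] H) η‖ ^ 2 := fun i => by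
      rw [hΛ, star_av', av_apply]
      refine (normsq_av_le _).trans (av_mono fun t => pow_le_pow_left₀ (norm_nonneg _) ?_ 2)
      rw [star_mul, star_star, mul_apply_eq_comp]
      exact apply_le_of_le_one ((hv t).norm_le hz.proj) _
    refine (sum_le_sum fun i _ => h1 i).trans ?_
    rw [← av_sum]
    have h2 := gt_vN T (fun p : Ω × ι => y p.2 * v' p.1) η
    have N0 : (0 : ℝ) < Fintype.card Ω := by exact_mod_cast Fintype.card_pos
    have e1 : ‖∑ p : Ω × ι, ((y p.2 * v' p.1 : Al M) : H →L[ℂ] H) *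
        star ((y p.2 * v' p.1 : Al M) : H →L[ℂ] H)‖ ≤ Fintype.card Ω * c ^ 2 := by
      rw [Fintype.sum_prod_type]
      refine (norm_sum_le _ _).trans ((sum_le_card_nsmul _ _ (c ^ 2) fun t _ => ?_).trans (by simp))
      have : ∀ i, ((y i * v' t : Al M) : H →L[ℂ] H) * star ((y i * v' t : Al M) : H →L[ℂ] H) =
          (y i : H →L[ℂ] H) * star (y i : H →L[ℂ] H) * z := fun i => by
        simp only [MulMemClass.coe_mul, v', star_mul]
        rw [mul_assoc, ← mul_assoc (v t), (hv t).2.2, hz.comm _ (star_mem (y i).2), mul_assoc]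
      simp only [this, ← sum_mul]
      exact (norm_mul_le _ _).trans
        ((mul_le_of_le_one_right (norm_nonneg _) (hz.proj.norm_le _)).trans (row_norm hy))
    have e2 : ‖∑ p : Ω × ι, star ((y p.2 * v' p.1 : Al M) : H →L[ℂ] H) *
        ((y p.2 * v' p.1 : Al M) : H →L[ℂ] H)‖ ≤ Fintype.card Ω * (2 * c ^ 2 + 3 * ε) := by
      have : ∑ p : Ω × ι, star ((y p.2 * v' p.1 : Al M) : H →L[ℂ] H) *
          ((y p.2 * v' p.1 : Al M) : H →L[ℂ] H) = (Fintype.card Ω : ℝ) • TT v G := by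
        rw [TT_eq, av, smul_smul, mul_inv_cancel₀ N0.ne', one_smul, Fintype.sum_prod_type]
        simp only [hGd, MulMemClass.coe_mul, v', star_mul, mul_sum, sum_mul, mul_assoc]
      rw [this, norm_smul, Real.norm_natCast]
      gcongr
    rw [Fintype.sum_prod_type] at h2
    rw [av, smul_eq_mul, inv_mul_le_iff₀ N0]
    refine h2.trans ?_
    have := mul_le_mul_of_nonneg_left (add_le_add e1 e2)
      (show 0 ≤ 2 * (‖T‖ * ‖η‖) ^ 2 by positivity)
    refine this.trans (le_of_eq ?_)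
    ring

lemma ev_index {β : Type*} [DecidableEq β] (G : β) {ε : ℝ} (hε : 0 < ε) :
    ∀ᶠ a : Finset β × ℕ in (Ultrafilter.of atTop : Ultrafilter (Finset β × ℕ)),
      G ∈ a.1 ∧ (1 : ℝ) / (a.2 + 1) ≤ ε := by
  obtain ⟨n, hn⟩ := exists_nat_one_div_lt hε
  refine Ultrafilter.of_le _ ((eventually_ge_atTop (({G}, n) : Finset β × ℕ)).mono fun a ha => ?_)
  exact ⟨ha.1 (mem_singleton_self G), (Nat.one_div_le_one_div ha.2).trans hn.le⟩

lemma stage1 (hz : Cen M z) (hT : Tr M z ζ) :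
    ∃ Λ : (Al M →L[ℂ] Al M) →ₗ[ℂ] Al M, Pre z Λ 1 ∧
      ∀ (T : Al M →L[ℂ] Al M) (ι : Type) [Fintype ι] (y : ι → Al M) (c : ℝ), Row (fun i => (y i : H →L[ℂ] H)) c →
        Row (fun i => (Λ (T.comp (Lm (y i))) : H →L[ℂ] H)) (3 * ‖T‖ * c) := by
  classical
  choose Λ h1 h2 using fun a : Finset (H →L[ℂ] H) × ℕ =>
    stage1a hz hT a.1 (ε := 1 / (a.2 + 1)) (by positivity)
  obtain ⟨L, hL, hl⟩ := Pre.lim (Ultrafilter.of atTop) zero_le_one h1
  refine ⟨L, hL, fun T ι _ y c hy η => ?_⟩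
  refine le_of_forall_pos_le_add fun δ hδ => ?_
  have K0 : 0 < 6 * (‖T‖ * ‖η‖) ^ 2 + 1 := by positivity
  refine WL.sum_le (fun i => (hl _).star) (fun _ => η)
    ((ev_index (∑ i, star (y i : H →L[ℂ] H) * y i) (div_pos hδ K0)).mono fun a ha => ?_)
  refine (h2 a T ι y c hy ha.1 η).trans ?_
  have h3 := ha.2
  rw [le_div_iff₀ K0] at h3
  have : (0 : ℝ) ≤ 1 / (a.2 + 1) := by positivity
  nlinarith [sq_nonneg (‖T‖ * ‖η‖ * c)]

lemma exists_retr (M : VonNeumannAlgebra H) :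
    ∃ π : (H →L[ℂ] H) →ₗ[ℂ] Al M, ∀ x : Al M, π x = x := by
  let j : Al M →ₗ[ℂ] (H →L[ℂ] H) :=
    { toFun := Subtype.val, map_add' := fun _ _ => rfl, map_smul' := fun _ _ => rfl }
  obtain ⟨π, hπ⟩ := j.exists_leftInverse_of_injective
    (LinearMap.ker_eq_bot.2 Subtype.val_injective)
  exact ⟨π, fun x => LinearMap.congr_fun hπ x⟩

lemma stage2a (hz : Cen M z) (hC : CoreAt M z ζ) {L : (Al M →L[ℂ] Al M) →ₗ[ℂ] Al M}
    (hL : Pre z L 1)
    (hr : ∀ (T : Al M →L[ℂ] Al M) (ι : Type) [Fintype ι] (y : ι → Al M) (c : ℝ),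
      Row (fun i => (y i : H →L[ℂ] H)) c →
        Row (fun i => (L (T.comp (Lm (y i))) : H →L[ℂ] H)) (3 * ‖T‖ * c))
    (F : Finset (H →L[ℂ] H)) {ε : ℝ} (hε : 0 < ε) :
    ∃ Λ : (Al M →L[ℂ] Al M) →ₗ[ℂ] Al M, Pre z Λ 3 ∧ (∀ T, (Λ T : H →L[ℂ] H) * z = Λ T) ∧
      ∀ (T : Al M →L[ℂ] Al M) (p : Al M), (p : H →L[ℂ] H) ∈ F →
        IsStarProjection (p : H →L[ℂ] H) → z * p = p →
        ∑ a, ‖((Λ (T.comp (Lm p)) : H →L[ℂ] H) - Λ T * p) (ζ a)‖ ^ 2 ≤ (3 * ‖T‖) ^ 2 * ε := by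
  classical
  obtain ⟨ι, _, y, hy, h⟩ := hC (F.filter fun p => p ∈ M ∧ IsStarProjection p ∧ z * p = p)
    (fun p hp => (mem_filter.1 hp).2) ε hε
  let y' : ι → Al M := fun i => ⟨y i, hy.mem i⟩
  have y1 : Row y 1 := fun ξ => by
    rw [sum_normsq_star, hy.sum, re_inner_proj hz.proj, one_pow, one_mul]
    exact pow_le_pow_left₀ (norm_nonneg _) (proj_apply_le hz.proj ξ) 2
  refine ⟨frOp L y', ⟨fun b => ?_, frOp_left y' hL.left, fun T => ?_⟩, fun T => ?_,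
    fun T p pF pp zp => ?_⟩
  · simp only [frOp_coe, Lm_comp, hL.one, MulMemClass.coe_mul, y', mul_assoc, hy.cut, ← mul_sum]
    rw [hy.sum]
  · change ‖(frOp L y' T : H →L[ℂ] H)‖ ≤ _
    rw [frOp_coe, ← nstar, sstar]
    simp only [star_mul, star_star]
    refine norm_row_col _ _ _ (by positivity) ?_ fun η => ?_
    · rw [hy.sum]; exact hz.proj.norm_le _
    · simpa using hr T ι y' 1 y1 η
  · rw [frOp_coe, sum_mul]
    refine sum_congr rfl fun i _ => ?_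
    have : star (y i) * z = star (y i) := by
      rw [← hz.comm _ (star_mem (hy.mem i))]
      simpa [hz.star_eq] using congrArg star (hy.cut i)
    rw [mul_assoc, this]
  · rcases eq_or_ne T 0 with rfl | T0
    · simp
    have T1 : 0 < 3 * ‖T‖ := by have := norm_pos_iff.2 T0; positivity
    obtain ⟨π, hπ⟩ := exists_retr M
    let R : (H →L[ℂ] H) →ₗ[ℂ] (H →L[ℂ] H) :=
      { toFun := fun x => (3 * ‖T‖)⁻¹ • (L (T.comp (Lm (π x))) : H →L[ℂ] H)
        map_add' := fun a b => by simp [ContinuousLinearMap.comp_add]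
        map_smul' := fun c a => by simp [smul_comm c] }
    have hR : ∀ x : Al M, R x = (3 * ‖T‖)⁻¹ • (L (T.comp (Lm x)) : H →L[ℂ] H) := fun x => by
      simp only [R, LinearMap.coe_mk, AddHom.coe_mk, hπ]
    have hRB : RB M R := ⟨fun x _ => rsmul_mem _ (L _).2, fun κ _ x c xM hx η => by
      have := hr T κ (fun i => ⟨x i, xM i⟩) c hx η
      have e : ∀ i, R (x i) = _ := fun i => hR ⟨x i, xM i⟩
      simp only [e, star_smul, star_trivial, _root_.smul_apply, norm_smul, mul_pow, ← mul_sum,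
        Real.norm_eq_abs, sq_abs]
      rw [inv_pow, inv_mul_le_iff₀ (by positivity)]
      exact this.trans (le_of_eq (by ring))⟩
    have := h R hRB p (mem_filter.2 ⟨pF, p.2, pp, zp⟩)
    have e1 : ∀ i, R (p * y i) = _ := fun i => hR (p * y' i)
    have e2 : ∀ i, R (y i) = _ := fun i => hR (y' i)
    simp only [e1, e2, smul_mul_assoc, ← smul_sum, ← smul_sub, _root_.smul_apply, norm_smul,
      mul_pow, ← mul_sum, Real.norm_eq_abs, sq_abs] at this
    rw [inv_pow, inv_mul_le_iff₀ (by positivity)] at this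
    simpa only [frOp_coe, ContinuousLinearMap.comp_assoc, Lm_comp] using this

open scoped ComplexStarModule in
lemma ext_proj {B : Type*} [NormedAddCommGroup B] [NormedSpace ℂ B] (Φ : Al M →ₗ[ℂ] B) {C : ℝ}
    (hC : ∀ x, ‖Φ x‖ ≤ C * ‖x‖) (h : ∀ p : Al M, IsStarProjection (p : H →L[ℂ] H) → Φ p = 0)
    (x : Al M) : Φ x = 0 := by
  have pos : ∀ a : Al M, 0 ≤ (a : H →L[ℂ] H) → Φ a = 0 := fun a ha => by
    refine norm_le_zero_iff.1 (le_of_forall_pos_le_add fun δ hδ => ?_)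
    have ε0 : 0 < δ / (|C| + 1) := by positivity
    set ε := δ / (|C| + 1) with hε
    obtain ⟨N, hN⟩ := exists_nat_ge (‖(a : H →L[ℂ] H)‖ / ε)
    rw [div_le_iff₀ ε0] at hN
    have h1 := H9.VN.riemann_norm ha ε ε0 N hN
    let s : ℕ → Al M := fun i => ⟨H9.VN.sp a ((i + 1 : ℕ) * ε), H9.VN.sp_mem M a.2 _⟩
    have h2 : Φ a = Φ (a - (ε : ℂ) • ∑ i ∈ range N, s i) := by
      rw [map_sub, map_smul, map_sum, sum_eq_zero fun i _ => h (s i) (H9.VN.sp_proj _ _)]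
      simp
    have h3 : ‖a - (ε : ℂ) • ∑ i ∈ range N, s i‖ ≤ ε := by
      change ‖((a - (ε : ℂ) • ∑ i ∈ range N, s i : Al M) : H →L[ℂ] H)‖ ≤ _
      simpa [s] using h1
    rw [h2, zero_add]
    refine (hC _).trans ((mul_le_mul (le_abs_self C) h3 (norm_nonneg _) (abs_nonneg _)).trans ?_)
    rw [hε, mul_div_assoc', div_le_iff₀ (by positivity)]
    nlinarith
  have sa : ∀ a : Al M, IsSelfAdjoint (a : H →L[ℂ] H) → Φ a = 0 := fun a ha => by
    have h1 := pos (((‖(a : H →L[ℂ] H)‖ : ℝ) : ℂ) • 1 - a) (by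
      have := ha.le_algebraMap_norm_self
      rw [Algebra.algebraMap_eq_smul_one] at this
      simpa using this)
    rw [map_sub, map_smul, h 1 (IsStarProjection.one _)] at h1
    simpa using h1
  have m1 : (ℜ (x : H →L[ℂ] H) : H →L[ℂ] H) ∈ M := by
    rw [realPart_apply_coe]; exact rsmul_mem _ (add_mem x.2 (star_mem x.2))
  have m2 : (ℑ (x : H →L[ℂ] H) : H →L[ℂ] H) ∈ M := by
    rw [imaginaryPart_apply_coe]
    exact vsmul_mem _ (rsmul_mem _ (sub_mem x.2 (star_mem x.2)))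
  obtain ⟨a, b, ha, hb, e⟩ : ∃ a b : Al M, IsSelfAdjoint (a : H →L[ℂ] H) ∧
      IsSelfAdjoint (b : H →L[ℂ] H) ∧ x = a + Complex.I • b :=
    ⟨⟨_, m1⟩, ⟨_, m2⟩, (ℜ (x : H →L[ℂ] H)).2, (ℑ (x : H →L[ℂ] H)).2,
      Subtype.ext (realPart_add_I_smul_imaginaryPart (x : H →L[ℂ] H)).symm⟩
  rw [e, map_add, map_smul, sa _ ha, sa _ hb]
  simp

theorem meanStmt : MeanStmt.{u} := by
  intro H _ _ _ M z k ζ hz hT hC
  classical
  obtain ⟨L₀, hL₀, hr⟩ := stage1 hz hT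
  choose Λ h1 h2 h3 using fun a : Finset (H →L[ℂ] H) × ℕ =>
    stage2a hz hC hL₀ hr a.1 (ε := 1 / (a.2 + 1)) (by positivity)
  obtain ⟨L, hL, hl⟩ := Pre.lim (Ultrafilter.of atTop) (by norm_num) h1
  have Lz : ∀ T, (L T : H →L[ℂ] H) * z = L T := fun T =>
    ((hl T).mul_right z).eq (hl T) fun a => h2 a T
  have key : ∀ (T : Al M →L[ℂ] Al M) (p : Al M), IsStarProjection (p : H →L[ℂ] H) → z * p = p →
      L (T.comp (Lm p)) = L T * p := fun T p pp zp => by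
    refine Subtype.ext (sub_eq_zero.1 (kill hz hT (sub_mem (L _).2 (L T * p).2) ?_ fun a => ?_))
    · rw [sub_mul, Lz, MulMemClass.coe_mul, mul_assoc, ← hz.comm _ p.2, zp]
    · have : ∑ a, ‖((L (T.comp (Lm p)) : H →L[ℂ] H) - L T * p) (ζ a)‖ ^ 2 ≤ 0 := by
        refine le_of_forall_pos_le_add fun δ hδ => ?_
        have K0 : 0 < (3 * ‖T‖) ^ 2 + 1 := by positivity
        refine WL.sum_le (fun _ => (hl _).sub ((hl T).mul_right p)) ζ
          ((ev_index (p : H →L[ℂ] H) (div_pos hδ K0)).mono fun a ha => ?_)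
        refine (h3 a T p ha.1 pp zp).trans ?_
        have h3 := ha.2
        rw [le_div_iff₀ K0] at h3
        have : (0 : ℝ) ≤ 1 / (a.2 + 1) := by positivity
        nlinarith
      have := (sum_eq_zero_iff_of_nonneg (fun a _ => sq_nonneg _)).1
        (le_antisymm this (sum_nonneg fun a _ => sq_nonneg _)) a (mem_univ _)
      simpa using this
  let z' : Al M := ⟨z, hz.mem⟩
  have key2 : ∀ (T : Al M →L[ℂ] Al M) (p : Al M), IsStarProjection (p : H →L[ℂ] H) →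
      L (T.comp (Lm p)) = L T * p := fun T p pp => by
    have e1 := key (T.comp (Lm p)) z' hz.proj hz.sq
    have e2 := key T (p * z') (hz.proj_mul p.2 pp) (by
      simp only [MulMemClass.coe_mul, z']; rw [← hz.comm _ p.2, pmul' hz.proj])
    rw [ContinuousLinearMap.comp_assoc, Lm_comp, e2] at e1
    refine Subtype.ext ?_
    have := congrArg Subtype.val e1
    simp only [MulMemClass.coe_mul, z', Lz] at this ⊢
    rw [← this, ← hz.comm _ p.2, ← mul_assoc, Lz]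
  refine ⟨L, hL.one, fun T => ⟨hL.norm T, hL.left T, fun x => sub_eq_zero.1 ?_⟩⟩
  let Φ : Al M →ₗ[ℂ] Al M :=
    { toFun := fun x => L (T.comp (Lm x)) - L T * x
      map_add' := fun a b => by simp [ContinuousLinearMap.comp_add, mul_add]; abel
      map_smul' := fun c a => by simp [smul_sub] }
  refine ext_proj Φ (C := 6 * ‖T‖) (fun x => (norm_sub_le _ _).trans ?_)
    (fun p pp => sub_eq_zero.2 (key2 T p pp)) x
  have := hL.norm (T.comp (Lm x))
  have := norm_comp_Lm T x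
  have := norm_mul_le (L T) x
  have := mul_le_mul_of_nonneg_right (hL.norm T) (norm_nonneg x)
  linarith

end Crest.Agent.H5.Hc
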