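import Mathlib

/-! Row 186: short exact sequences and `Ext` in any universe. -/

set_option autoImplicit false
open CategoryTheory Abelian

universe u

namespace Crest.Agent.H5.Mu

variable {A : Type u} [Ring A]

/-- `Ext^n(N, I) = 0` -/
def Van (A : Type u) [Ring A] (I N : Type u) [AddCommGroup I] [Module A I] [AddCommGroup N]
    [Module A N] (n : ℕ) : Prop :=
  ∀ e : Ext.{u} (ModuleCat.of A N) (ModuleCat.of A I) n, e = 0

def PD (A : Type u) [Ring A] (N : Type u) [AddCommGroup N] [Module A N] (n : ℕ) : Prop :=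
  HasProjectiveDimensionLT (ModuleCat.of A N) n

variable {I : Type u} [AddCommGroup I] [Module A I]

section ses
variable {N1 N2 N3 : Type u} [AddCommGroup N1] [Module A N1] [AddCommGroup N2] [Module A N2]
  [AddCommGroup N3] [Module A N3]

/-- short exact sequence of modules -/
structure SES (f : N1 →ₗ[A] N2) (g : N2 →ₗ[A] N3) : Prop where
  ex : Function.Exact f g
  inj : Function.Injective f
  surj : Function.Surjective g

variable {f : N1 →ₗ[A] N2} {g : N2 →ₗ[A] N3}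

/-- the short complex -/
abbrev SES.S (h : SES f g) : ShortComplex (ModuleCat.{u} A) :=
  ModuleCat.shortComplexOfCompEqZero f g h.ex.linearMap_comp_eq_zero

theorem SES.se (h : SES f g) : h.S.ShortExact :=
  ModuleCat.shortComplex_shortExact h.S h.ex h.inj h.surj

theorem SES.pd3 (h : SES f g) (n : ℕ) (h1 : PD A N1 n) (h2 : PD A N2 (n + 1)) : PD A N3 (n + 1) :=
  h.se.hasProjectiveDimensionLT_X₃ n h1 h2

theorem SES.pd1 (h : SES f g) (n : ℕ) (h2 : PD A N2 n) (h3 : PD A N3 (n + 1)) : PD A N1 n :=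
  h.se.hasProjectiveDimensionLT_X₁ n h2 h3

theorem SES.van3 (h : SES f g) (n : ℕ) (h1 : Van A I N1 n) (h2 : Van A I N2 (n + 1)) :
    Van A I N3 (n + 1) := by
  intro x₃
  obtain ⟨x₁, rfl⟩ := Ext.contravariant_sequence_exact₃ h.se (ModuleCat.of A I) x₃ (h2 _)
    (add_comm 1 n)
  rw [h1 x₁, Ext.comp_zero]

theorem SES.van2 (h : SES f g) (n : ℕ) (h1 : Van A I N1 n) (h3 : Van A I N3 n) :
    Van A I N2 n := by
  intro x₂
  obtain ⟨x₃, rfl⟩ := Ext.contravariant_sequence_exact₂ h.se (ModuleCat.of A I) x₂ (h1 _)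
  rw [h3 x₃, Ext.comp_zero]

theorem SES.van1 (h : SES f g) (n : ℕ) (h2 : Van A I N2 n) (h3 : Van A I N3 (n + 1)) :
    Van A I N1 n := by
  intro x₁
  obtain ⟨x₂, rfl⟩ := Ext.contravariant_sequence_exact₁ h.se (ModuleCat.of A I) x₁
    (add_comm 1 n) (h3 _)
  rw [h2 x₂, Ext.comp_zero]

/-- `Ext^1(N3, I) = 0` when maps extend -/
theorem SES.van3_one (h : SES f g) (h2 : Van A I N2 1)
    (hext : ∀ v : N1 →ₗ[A] I, ∃ w : N2 →ₗ[A] I, ∀ x, w (f x) = v x) : Van A I N3 1 := by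
  intro x₃
  obtain ⟨x₁, rfl⟩ := Ext.contravariant_sequence_exact₃ h.se (ModuleCat.of A I) x₃ (h2 _)
    (add_zero 1)
  obtain ⟨v, rfl⟩ := (Ext.mk₀_bijective _ _).2 x₁
  obtain ⟨w, hw⟩ := hext v.hom
  have hu : v = h.S.f ≫ ModuleCat.ofHom w := by
    ext x
    exact (hw x).symm
  rw [hu, ← Ext.mk₀_comp_mk₀]
  exact h.se.extClass_comp_assoc _

/-- if `Ext^1(N3, I) = 0` then maps extend -/
theorem SES.ext_of_van (h : SES f g) (h3 : Van A I N3 1) (v : N1 →ₗ[A] I) :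
    ∃ w : N2 →ₗ[A] I, ∀ x, w (f x) = v x := by
  obtain ⟨x₂, hx⟩ := Ext.contravariant_sequence_exact₁ h.se (ModuleCat.of A I)
    (Ext.mk₀ (ModuleCat.ofHom v)) (add_zero 1) (h3 _)
  obtain ⟨w, rfl⟩ := (Ext.mk₀_bijective _ _).2 x₂
  rw [Ext.mk₀_comp_mk₀] at hx
  have := (Ext.mk₀_bijective _ _).1 hx
  refine ⟨w.hom, fun x => ?_⟩
  have h2 := congrArg (fun φ => φ.hom x) this
  simpa using h2

/-- covariant sequence: vanishing at the submodule -/
theorem SES.cov1 (h : SES f g) (n : ℕ) (h3 : Van A N3 I n) (h2 : Van A N2 I (n + 1)) :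
    Van A N1 I (n + 1) := by
  intro x₁
  obtain ⟨x₃, rfl⟩ := Ext.covariant_sequence_exact₁ (ModuleCat.of A I) h.se x₁ (h2 _) rfl
  rw [h3 x₃, Ext.zero_comp]

theorem SES.cov2 (h : SES f g) (n : ℕ) (h1 : Van A N1 I n) (h3 : Van A N3 I n) :
    Van A N2 I n := by
  intro x₂
  obtain ⟨x₁, rfl⟩ := Ext.covariant_sequence_exact₂ (ModuleCat.of A I) h.se x₂ (h3 _)
  rw [h1 x₁, Ext.zero_comp]

theorem SES.cov3 (h : SES f g) (n : ℕ) (h2 : Van A N2 I n) (h1 : Van A N1 I (n + 1)) :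
    Van A N3 I n := by
  intro x₃
  obtain ⟨x₂, rfl⟩ := Ext.covariant_sequence_exact₃ (ModuleCat.of A I) h.se x₃ rfl (h1 _)
  rw [h2 x₂, Ext.zero_comp]

end ses

section
variable {Q : Type u} [AddCommGroup Q] [Module A Q]

theorem pd_proj [Module.Projective A Q] : PD A Q 1 :=
  (inferInstance : HasProjectiveDimensionLT (ModuleCat.of A Q) 1)

theorem PD.mono {n m : ℕ} (h1 : PD A Q n) (h : n ≤ m) : PD A Q m :=
  haveI : HasProjectiveDimensionLT (ModuleCat.of A Q) n := h1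
  hasProjectiveDimensionLT_of_ge (ModuleCat.of A Q) n m h

theorem PD.van {n m : ℕ} (h1 : PD A Q n) (h : n ≤ m) : Van A I Q m :=
  haveI : HasProjectiveDimensionLT (ModuleCat.of A Q) n := h1
  fun e => e.eq_zero_of_hasProjectiveDimensionLT n h

theorem van_proj [Module.Projective A Q] {n : ℕ} (h : 1 ≤ n) : Van A I Q n := pd_proj.van h

theorem van_inj [Module.Injective A I] {n : ℕ} (h : 1 ≤ n) : Van A I Q n := by
  have : Injective (ModuleCat.of A I) := Module.injective_object_of_injective_module A I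
  obtain ⟨m, rfl⟩ : ∃ m, n = m + 1 := ⟨n - 1, by omega⟩
  exact fun e => Ext.eq_zero_of_injective e

theorem van_zero (h : ∀ f : Q →ₗ[A] I, f = 0) : Van A I Q 0 := by
  intro x
  obtain ⟨v, rfl⟩ := (Ext.mk₀_bijective _ _).2 x
  have : v = 0 := ModuleCat.hom_ext (h v.hom)
  rw [this, Ext.mk₀_zero]

theorem Van.hom_zero (h : Van A I Q 0) (f : Q →ₗ[A] I) : f = 0 := by
  have := (Ext.mk₀_bijective (ModuleCat.of A Q) (ModuleCat.of A I)).1
    ((h (Ext.mk₀ (ModuleCat.ofHom f))).trans (Ext.mk₀_zero _ _).symm)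
  exact congrArg ModuleCat.Hom.hom this

end

end Crest.Agent.H5.Mu
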