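import Crest.Agent.H5.MuI
import Crest.Agent.H5.MuH

/-! Row 186: the endomorphism algebra of `A × M`. -/

set_option autoImplicit false
open CategoryTheory Crest.AlgebraR

universe u

noncomputable section
namespace Crest.Agent.H5.Mu

/-- injectivity from a perfect pairing with a right ideal -/
theorem inj_of_pairing {K R W : Type u} [Field K] [Ring R] [Algebra K R] [AddCommGroup W]
    [Module R W] [Module K W] [IsScalarTower K R W] (H : Submodule K R)
    (hH : ∀ h ∈ H, ∀ r, h * r ∈ H) (μ : W →ₗ[K] K) (e : W ≃ₗ[K] Module.Dual K H)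
    (he : ∀ w (h : H), e w h = μ (h.1 • w)) : Module.Injective R W := by
  refine ⟨fun X Y _ _ _ _ i hi f => ?_⟩
  let _ : Module K X := Module.compHom X (algebraMap K R)
  let _ : Module K Y := Module.compHom Y (algebraMap K R)
  have : IsScalarTower K R X := IsScalarTower.of_algebraMap_smul fun _ _ => rfl
  have : IsScalarTower K R Y := IsScalarTower.of_algebraMap_smul fun _ _ => rfl
  obtain ⟨g, hg⟩ := (i.restrictScalars K).exists_leftInverse_of_injective
    (LinearMap.ker_eq_bot.2 hi)
  let ψ : Y →ₗ[K] K := μ ∘ₗ f.restrictScalars K ∘ₗ g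
  have hψ : ∀ x, ψ (i x) = μ (f x) := fun x => by
    have : g (i x) = x := LinearMap.congr_fun hg x
    simp [ψ, this]
  let F0 : Y → Module.Dual K H := fun y =>
    { toFun := fun h => ψ (h.1 • y)
      map_add' := fun a b => by simp [add_smul]
      map_smul' := fun c a => by simp [smul_assoc] }
  refine ⟨{ toFun := fun y => e.symm (F0 y)
            map_add' := fun a b => ?_
            map_smul' := fun r y => ?_ }, fun x => ?_⟩
  · rw [← map_add]; congr 1; ext h; simp [F0]
  · apply e.injective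
    ext h
    rw [e.apply_symm_apply, he, RingHom.id_apply, ← mul_smul,
      ← he _ ⟨h.1 * r, hH _ h.2 r⟩, e.apply_symm_apply]
    simp [F0, mul_smul]
  · apply e.injective
    ext h
    change e (e.symm (F0 (i x))) h = _
    rw [e.apply_symm_apply, he, ← map_smul]
    change ψ (h.1 • i x) = _
    rw [← map_smul]
    exact hψ (h.1 • x)

section sym
variable {K A : Type u} [Field K] [Ring A] [Algebra K A]

lemma sym_form (h : IsSymmetricAlgebra K A) : ∃ (φ : A ≃ₗ[K] Module.Dual K A) (l : A →ₗ[K] K),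
    (∀ x y, φ x y = l (y * x)) ∧ ∀ x y, l (x * y) = l (y * x) := by
  obtain ⟨φ, hφ⟩ := h
  refine ⟨φ, φ 1, fun x y => by simpa using hφ x 1 1 y, fun x y => ?_⟩
  have h1 := hφ x 1 1 y
  have h2 := hφ 1 1 x y
  simp only [mul_one, one_mul] at h1 h2
  rw [← h1, h2]

theorem selfInj (h : IsSymmetricAlgebra K A) : Module.Injective A A := by
  obtain ⟨φ, l, h1, -⟩ := sym_form h
  exact inj_of_pairing (K := K) ⊤ (fun _ _ _ => trivial) l
    (φ.trans (Submodule.topEquiv (R := K) (M := A)).dualMap) fun w h => h1 _ _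
end sym

section res
variable {A : Type u} [Ring A] [IsNoetherianRing A]

/-- finitely generated modules -/
def Fm (A : Type u) [Ring A] := {Z : ModuleCat.{u} A // Module.Finite A Z}

def Fm.n (Z : Fm A) : ℕ := (@Module.Finite.exists_fin' A Z.1 _ _ _ Z.2).choose
def Fm.π (Z : Fm A) : (Fin Z.n → A) →ₗ[A] Z.1 :=
  (@Module.Finite.exists_fin' A Z.1 _ _ _ Z.2).choose_spec.choose
omit [IsNoetherianRing A] in
lemma Fm.π_surj (Z : Fm A) : Function.Surjective Z.π :=
  (@Module.Finite.exists_fin' A Z.1 _ _ _ Z.2).choose_spec.choose_spec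
def Fm.next (Z : Fm A) : Fm A := ⟨ModuleCat.of A (LinearMap.ker Z.π), inferInstance⟩
def Fm.syz (Z : Fm A) : ℕ → Fm A
  | 0 => Z
  | j + 1 => (Fm.syz Z j).next
def Fm.ι (Z : Fm A) : Z.next.1 →ₗ[A] (Fin Z.n → A) := (LinearMap.ker Z.π).subtype
lemma Fm.ses (Z : Fm A) : SES Z.ι Z.π :=
  ⟨LinearMap.exact_subtype_ker_map _, Subtype.val_injective, Z.π_surj⟩

lemma Fm.van_syz (Z : Fm A) {I : Type u} [AddCommGroup I] [Module A I]
    (h : ∀ i, 1 ≤ i → Van A I Z.1 i) (j : ℕ) : ∀ i, 1 ≤ i → Van A I (Z.syz j).1 i := by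
  induction j with
  | zero => exact h
  | succ j ih => exact fun i hi => (Z.syz j).ses.van1 i (van_proj hi) (ih _ (by omega))
end res

section star
variable {A G : Type u} [Ring A] [AddCommGroup G] [Module A G]

/-- the map given by the images of the basis vectors -/
abbrev L {n : ℕ} (v : Fin n → G) : (Fin n → A) →ₗ[A] G := Fintype.linearCombination A v

lemma L_single {n : ℕ} (v : Fin n → G) (k : Fin n) : L (A := A) v (Pi.single k 1) = v k := by
  simp [L]

lemma L_inj {n : ℕ} {v w : Fin n → G} (h : L (A := A) v = L w) : v = w :=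
  funext fun k => by rw [← L_single (A := A) v k, h, L_single]

lemma L_co {n : ℕ} (f : (Fin n → A) →ₗ[A] G) : L (fun k => f (Pi.single k 1)) = f :=
  LinearMap.pi_ext' fun k => LinearMap.ext_ring (by simp)

lemma L_smul {n : ℕ} (γ : Module.End A G) (v : Fin n → G) : L (A := A) (γ • v) = γ ∘ₗ L v :=
  LinearMap.pi_ext' fun k => LinearMap.ext_ring (by simp)

lemma L_add {n : ℕ} (v w : Fin n → G) : L (A := A) (v + w) = L v + L w :=
  LinearMap.pi_ext' fun k => LinearMap.ext_ring (by simp)

lemma L_zero {n : ℕ} : L (A := A) (0 : Fin n → G) = 0 :=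
  LinearMap.pi_ext' fun k => LinearMap.ext_ring (by simp)

def star {m n : ℕ} (δ : (Fin m → A) →ₗ[A] (Fin n → A)) :
    (Fin n → G) →ₗ[Module.End A G] (Fin m → G) where
  toFun v k := (L v ∘ₗ δ) (Pi.single k 1)
  map_add' v w := by funext k; simp [L_add]
  map_smul' γ v := by funext k; simp [L_smul]

lemma L_star {m n : ℕ} (δ : (Fin m → A) →ₗ[A] (Fin n → A)) (v : Fin n → G) :
    L (star δ v) = L v ∘ₗ δ := L_co (L v ∘ₗ δ)

def eps {n : ℕ} (π : (Fin n → A) →ₗ[A] G) : Module.End A G →ₗ[Module.End A G] (Fin n → G) where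
  toFun γ k := (γ ∘ₗ π) (Pi.single k 1)
  map_add' v w := by funext k; simp
  map_smul' γ v := by funext k; simp

lemma L_eps {n : ℕ} (π : (Fin n → A) →ₗ[A] G) (γ : Module.End A G) : L (eps π γ) = γ ∘ₗ π :=
  L_co (γ ∘ₗ π)

lemma factor {P Z Z' : Type u} [AddCommGroup P] [Module A P] [AddCommGroup Z] [Module A Z]
    [AddCommGroup Z'] [Module A Z'] {ι : Z' →ₗ[A] P} {π : P →ₗ[A] Z} (h : SES ι π)
    (f : P →ₗ[A] G) (hf : ∀ x, f (ι x) = 0) : ∃ g : Z →ₗ[A] G, g ∘ₗ π = f := by
  refine ⟨(LinearMap.ker π).liftQ f ?_ ∘ₗ (π.quotKerEquivOfSurjective h.surj).symm.toLinearMap,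
    LinearMap.ext fun x => ?_⟩
  · intro x hx
    obtain ⟨y, rfl⟩ := (h.ex x).1 hx
    exact hf y
  · have : (π.quotKerEquivOfSurjective h.surj).symm (π x) = Submodule.Quotient.mk x := by
      rw [LinearEquiv.symm_apply_eq]; rfl
    simp [this]
end star

section dom
variable {K A G : Type u} [Field K] [Ring A] [Algebra K A] [AddCommGroup G] [Module A G]
  [Module K G] [IsScalarTower K A G]

theorem dom_of [FiniteDimensional K A] [Module.Finite A G] (hs : IsSymmetricAlgebra K A)
    (inl : A →ₗ[A] G) (pr : G →ₗ[A] A) (hpr : ∀ a, pr (inl a) = a) (hnp : ¬ Module.Projective A G)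
    (hE : ∀ i, 1 ≤ i → Van A G G i) : Nonempty (Dom (Module.End A G) G) := by
  classical
  have : IsNoetherianRing A := isNoetherian_of_tower K (inferInstance : IsNoetherian K A)
  have : FiniteDimensional K G := Module.Finite.trans A G
  obtain ⟨φ, l, h1, h2⟩ := sym_form hs
  -- projective
  let s : Module.End A G →ₗ[Module.End A G] G := LinearMap.toSpanSingleton _ _ (inl 1)
  let i : G →ₗ[Module.End A G] Module.End A G :=
    { toFun := fun g => LinearMap.toSpanSingleton A G g ∘ₗ pr
      map_add' := fun a b => by ext x; simp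
      map_smul' := fun γ g => by ext x; simp }
  have hsi : ∀ g, s (i g) = g := fun g => by simp [s, i, hpr]
  -- the right ideal
  let H : Submodule K (Module.End A G) :=
    { carrier := {γ | ∀ g, inl (pr (γ g)) = γ g}
      add_mem' := fun ha hb g => by simp [ha g, hb g]
      zero_mem' := fun g => by simp
      smul_mem' := fun c γ h g => by
        rw [LinearMap.smul_apply, ← algebraMap_smul A, map_smul, map_smul, h g] }
  let μ : G →ₗ[K] K := l ∘ₗ pr.restrictScalars K
  let Θ : H →ₗ[K] Module.Dual K G :=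
    { toFun := fun h => μ ∘ₗ h.1.restrictScalars K
      map_add' := fun a b => by ext x; simp
      map_smul' := fun c a => by ext x; simp }
  have hsep : ∀ a : A, (∀ b, l (b * a) = 0) → a = 0 := fun a ha =>
    φ.map_eq_zero_iff.1 (LinearMap.ext fun b => (h1 a b).trans (ha b))
  have Θi : Function.Injective Θ := (injective_iff_map_eq_zero _).2 fun h hh =>
    Subtype.ext (LinearMap.ext fun g => by
      have : pr (h.1 g) = 0 := hsep _ fun b => by
        have := LinearMap.congr_fun hh (b • g)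
        simpa [Θ, μ] using this
      rw [← h.2 g, this, map_zero]; rfl)
  have dual : ∀ ψ : Module.Dual K G, ∃ h0 : G →ₗ[A] A, ∀ g, l (h0 g) = ψ g := fun ψ => by
    let F0 : G → Module.Dual K A := fun g => ψ ∘ₗ (LinearMap.toSpanSingleton A G g).restrictScalars K
    refine ⟨{ toFun := fun g => φ.symm (F0 g)
              map_add' := fun a b => ?_
              map_smul' := fun c g => ?_ }, fun g => ?_⟩
    · rw [← map_add]; congr 1; ext x; simp [F0]
    · apply φ.injective
      ext a
      rw [φ.apply_symm_apply, RingHom.id_apply, h1, smul_eq_mul, ← mul_assoc, ← h1,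
        φ.apply_symm_apply]
      simp [F0, mul_smul]
    · change l (φ.symm (F0 g)) = _
      rw [← one_mul (φ.symm (F0 g)), ← h1, φ.apply_symm_apply]
      simp [F0]
  have Θs : Function.Surjective Θ := fun ψ => by
    obtain ⟨h0, hh⟩ := dual ψ
    exact ⟨⟨inl ∘ₗ h0, fun g => by simp [hpr]⟩, LinearMap.ext fun g => by simp [Θ, μ, hpr, hh]⟩
  have hinj : Module.Injective (Module.End A G) G :=
    inj_of_pairing H (fun h hh r g => hh (r g)) μ (LinearEquiv.ofBijective Θ ⟨Θi, Θs⟩).flip
      fun w h => rfl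
  -- the ideal of maps through projectives
  let I : Submodule (Module.End A G) (Module.End A G) :=
    Submodule.span _ (Set.range fun h : G →ₗ[A] A => inl ∘ₗ h)
  have hI : (1 : Module.End A G) ∉ I := fun h => hnp (by
    obtain ⟨n, c, v, hv⟩ := Submodule.mem_span_set'.1 h
    choose w hw using fun k => (v k).2
    refine Module.Projective.of_split (M := Fin n → A) (LinearMap.pi w)
      (∑ k, (c k ∘ₗ inl) ∘ₗ LinearMap.proj k) (LinearMap.ext fun g => ?_)
    have := LinearMap.congr_fun hv g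
    simp only [← hw] at this
    simpa [LinearMap.sum_apply] using this)
  have hrange : ∀ (r : G →ₗ[Module.End A G] Module.End A G) g, r g ∈ I := fun r g => by
    have e1 : g = (i g * (inl ∘ₗ pr : Module.End A G)) • inl 1 := by simp [i, hpr]
    rw [e1, map_smul, mul_smul]
    exact I.smul_mem _ (Submodule.subset_span ⟨pr ∘ₗ r (inl 1), rfl⟩)
  obtain ⟨m, hm, hIm⟩ := Ideal.exists_le_maximal I (fun h => hI (h ▸ trivial))
  -- the resolution
  let Z : Fm A := ⟨ModuleCat.of A G, inferInstance⟩
  have ext : ∀ j (v : (Z.syz (j + 1)).1 →ₗ[A] G), ∃ w : (Fin (Z.syz j).n → A) →ₗ[A] G,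
      ∀ x, w ((Z.syz j).ι x) = v x := fun j v =>
    (Z.syz j).ses.ext_of_van (Z.van_syz hE j 1 le_rfl) v
  refine ⟨⟨Module.Finite.of_surjective s fun g => ⟨i g, hsi g⟩,
    Module.Projective.of_split i s (LinearMap.ext hsi), hinj, fun j => (Z.syz j).n, eps Z.π,
    fun j => star ((Z.syz j).ι ∘ₗ (Z.syz (j + 1)).π), ?_, fun v => ⟨fun hv => ?_, ?_⟩,
    fun j v => ⟨fun hv => ?_, ?_⟩, fun r hr => hI ?_, ModuleCat.of _ (Module.End A G ⧸ m), ?_,
    fun f => ?_⟩⟩
  · refine (injective_iff_map_eq_zero _).2 fun γ h => LinearMap.ext fun g => ?_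
    obtain ⟨x, rfl⟩ := Z.π_surj g
    have := ((congrArg L h).symm.trans (L_eps (G := G) Z.π γ)).symm.trans L_zero
    exact LinearMap.congr_fun this x
  · have h3 := L_star (Z.ι ∘ₗ Z.next.π) v
    have hv' : star (Z.ι ∘ₗ Z.next.π) v = 0 := hv
    rw [hv', L_zero] at h3
    obtain ⟨γ, hγ⟩ := factor Z.ses (L v) fun x => by
      obtain ⟨y, rfl⟩ := Z.next.π_surj x
      exact (LinearMap.congr_fun h3 y).symm
    exact ⟨γ, L_inj ((L_eps _ _).trans hγ)⟩
  · rintro ⟨γ, rfl⟩
    refine L_inj (A := A) ?_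
    rw [L_star, L_eps, L_zero]
    exact LinearMap.ext fun x => by
      have : Z.π (Z.ι (Z.next.π x)) = 0 := Z.ses.ex.apply_apply_eq_zero _
      exact (congrArg γ this).trans (map_zero γ)
  · have h3 := L_star ((Z.syz (j + 1)).ι ∘ₗ (Z.syz (j + 1 + 1)).π) v
    rw [hv, L_zero] at h3
    obtain ⟨γ, hγ⟩ := factor (Z.syz (j + 1)).ses (L v) fun x => by
      obtain ⟨y, rfl⟩ := (Z.syz (j + 1 + 1)).π_surj x
      exact (LinearMap.congr_fun h3 y).symm
    obtain ⟨w, hw⟩ := ext j γ
    refine ⟨fun k => w (Pi.single k 1), L_inj (A := A) ?_⟩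
    rw [L_star, L_co, ← hγ]
    exact LinearMap.ext fun x => hw _
  · rintro ⟨w, rfl⟩
    refine L_inj (A := A) ?_
    rw [L_star, L_star, L_zero]
    exact LinearMap.ext fun x => by
      have : (Z.syz (j + 1)).π ((Z.syz (j + 1)).ι ((Z.syz (j + 1 + 1)).π x)) = 0 :=
        (Z.syz (j + 1)).ses.ex.apply_apply_eq_zero _
      exact (congrArg (fun y => L w ((Z.syz j).ι y)) this).trans
        ((congrArg (L w) (map_zero _)).trans (map_zero _))
  · have key : ∀ v, r v ∈ I := fun v => by
      rw [← Finset.univ_sum_single v, map_sum]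
      exact I.sum_mem fun k _ => hrange (r ∘ₗ LinearMap.single _ (fun _ => G) k) (v k)
    exact hr ▸ key _
  · exact isSimpleModule_iff_isCoatom.2 (Ideal.isMaximal_def.1 hm)
  · refine LinearMap.ext fun x => (Module.forall_dual_apply_eq_zero_iff K _).1 fun ψ => ?_
    obtain ⟨h0, hh⟩ := dual ψ
    obtain ⟨γ, rfl⟩ := Submodule.Quotient.mk_surjective m x
    have h4 : (inl ∘ₗ h0 : Module.End A G) • (Submodule.Quotient.mk γ : Module.End A G ⧸ m) = 0 := by
      rw [← Submodule.Quotient.mk_smul, Submodule.Quotient.mk_eq_zero]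
      exact hIm (Submodule.subset_span ⟨h0 ∘ₗ γ, rfl⟩)
    have h5 := congrArg (fun y => pr (f y)) h4
    simp only [map_smul, map_zero] at h5
    rw [← hh]
    have h6 : h0 (f (Submodule.Quotient.mk γ)) = 0 := by simpa [hpr] using h5
    exact (congrArg l h6).trans (map_zero l)

theorem dom_of_tach {K : Type u} [Field K] (h : Tach K) : DomStmt K := by
  obtain ⟨A, _, _, _, hs, M, _, hnp, hE⟩ := h
  let _ : Module K M := Module.compHom M (algebraMap K A)
  have : IsScalarTower K A M := IsScalarTower.of_algebraMap_smul fun _ _ => rfl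
  have := selfInj hs
  have ses : SES (LinearMap.inl A A M) (LinearMap.snd A A M) :=
    ⟨Function.Exact.inl_snd, LinearMap.inl_injective, Prod.snd_surjective⟩
  have : FiniteDimensional K (A × M) := Module.Finite.trans A _
  refine ⟨Module.End A (A × M), inferInstance, inferInstance, A × M, inferInstance, inferInstance,
    ?_, dom_of hs (LinearMap.inl A A M) (LinearMap.fst A A M) (fun _ => rfl) (fun hp => hnp ?_)
      fun i hi => ses.van2 i (van_proj hi) (ses.cov2 i (van_inj hi) fun e =>
        (hE i hi).elim _ _)⟩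
  · exact Module.Finite.of_injective
      (LinearMap.restrictScalarsₗ K A (A × M) (A × M) K) (LinearMap.restrictScalars_injective K)
  · exact Module.Projective.of_split (LinearMap.inr A A M) (LinearMap.snd A A M) rfl

end dom

end Crest.Agent.H5.Mu
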