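import Crest.Agent.H5.MuD

/-! Row 186: strong Nakayama and finitistic dimension from the coresolution. -/

set_option autoImplicit false
open CategoryTheory

universe u

noncomputable section
namespace Crest.Agent.H5.Mu

variable {Γ W : Type u} [Ring Γ] [AddCommGroup W] [Module Γ W] (D : Dom Γ W)

lemma ses_of_range {Q2 Q1 Q0 : Type u} [AddCommGroup Q2] [Module Γ Q2] [AddCommGroup Q1]
    [Module Γ Q1] [AddCommGroup Q0] [Module Γ Q0] {d2 : Q2 →ₗ[Γ] Q1} {d1 : Q1 →ₗ[Γ] Q0}
    (h : Function.Exact d2 d1) : SES (LinearMap.range d2).subtype d1.rangeRestrict := by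
  refine ⟨fun x => ?_, Subtype.val_injective, d1.surjective_rangeRestrict⟩
  constructor
  · intro hx
    have : d1 x = 0 := congrArg Subtype.val hx
    obtain ⟨y, hy⟩ := (h x).1 this
    exact ⟨⟨x, y, hy⟩, rfl⟩
  · rintro ⟨⟨_, y, rfl⟩, rfl⟩
    exact Subtype.ext ((h _).2 ⟨y, rfl⟩)

lemma Dom.ses0 : SES D.ε (D.d 0).rangeRestrict :=
  ⟨fun x => by
    rw [← D.ex0 x]
    exact ⟨fun h => congrArg Subtype.val h, fun h => Subtype.ext h⟩,
   D.ε_inj, (D.d 0).surjective_rangeRestrict⟩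

lemma Dom.ses (j : ℕ) : SES (LinearMap.range (D.d j)).subtype (D.d (j + 1)).rangeRestrict :=
  ses_of_range (D.ex j)

include D in
lemma Dom.pow_proj (n : ℕ) : Module.Projective Γ (Fin n → W) :=
  have := D.proj
  Module.Projective.of_equiv (DFinsupp.linearEquivFunOnFintype (R := Γ) (M := fun _ : Fin n => W))

include D in
lemma Dom.pow_inj (n : ℕ) : Module.Injective Γ (Fin n → W) :=
  have := D.inj
  Module.Injective.pi Γ (fun _ : Fin n => W)

include D in
theorem Dom.s0282 : ∃ S : ModuleCat.{u} Γ, IsSimpleModule Γ S ∧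
    ∀ i : ℕ, Subsingleton (Abelian.Ext S (ModuleCat.of Γ Γ) i) := by
  obtain ⟨S, hS, h0⟩ := D.simple
  have hC : ∀ n i, Van Γ (Fin n → W) S i := fun n i => by
    rcases Nat.eq_zero_or_pos i with rfl | hi
    · exact van_zero fun f => LinearMap.ext fun x => funext fun k =>
        LinearMap.congr_fun (h0 (LinearMap.proj k ∘ₗ f)) x
    · have := D.pow_inj n
      exact van_inj hi
  have sub : ∀ {N : Type u} [AddCommGroup N] [Module Γ N] {n : ℕ} (ι : N →ₗ[Γ] (Fin n → W)),
      Function.Injective ι → Van Γ N S 0 := fun ι hι => van_zero fun f => LinearMap.ext fun x =>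
    hι ((LinearMap.congr_fun ((hC _ 0).hom_zero (ι ∘ₗ f)) x).trans (map_zero ι).symm)
  have hR : ∀ i j, Van Γ (LinearMap.range (D.d j)) S i := fun i => by
    induction i with
    | zero => exact fun j => sub (LinearMap.range (D.d j)).subtype Subtype.val_injective
    | succ i ih => exact fun j => (D.ses j).cov1 i (ih _) (hC _ _)
  refine ⟨S, hS, fun i => ⟨fun a b => ?_⟩⟩
  have : Van Γ Γ S i := by
    cases i with
    | zero => exact sub _ D.ε_inj
    | succ i => exact D.ses0.cov1 i (hR _ _) (hC _ _)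
  exact (this a).trans (this b).symm

theorem Dom.pd (j : ℕ) : PD Γ (LinearMap.range (D.d j)) (j + 2) := by
  induction j with
  | zero =>
    have := D.pow_proj (D.n 0)
    exact D.ses0.pd3 1 pd_proj (pd_proj.mono (by omega))
  | succ j ih =>
    have := D.pow_proj (D.n (j + 1))
    exact (D.ses j).pd3 _ ih (pd_proj.mono (by omega))

theorem Dom.nvan (j : ℕ) : ¬ Van Γ Γ (LinearMap.range (D.d j)) (j + 1) := by
  induction j with
  | zero =>
    intro h
    obtain ⟨r, hr⟩ := D.ses0.ext_of_van h LinearMap.id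
    exact D.nsplit r (hr 1)
  | succ j ih =>
    have := D.pow_proj (D.n (j + 1))
    exact fun h => ih ((D.ses j).van1 _ (van_proj (by omega)) h)

include D in
theorem Dom.s0283 (n : ℕ) (hn : 1 ≤ n) : ∃ C : ModuleCat.{u} Γ, Module.Finite Γ C ∧
    projectiveDimension C = (n : WithBot ℕ∞) := by
  obtain ⟨j, rfl⟩ : ∃ j, n = j + 1 := ⟨n - 1, by omega⟩
  have := D.fin
  refine ⟨ModuleCat.of Γ (LinearMap.range (D.d j)), inferInstance, le_antisymm ?_ ?_⟩
  · exact (projectiveDimension_le_iff _ _).2 (D.pd j)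
  · exact (projectiveDimension_ge_iff _ _).2 fun h => D.nvan j (PD.van h le_rfl)

theorem s0282_of {K : Type u} [Field K] (h : DomStmt K) :
    ∃ (Γ : Type u) (_ : Ring Γ) (_ : Algebra K Γ), FiniteDimensional K Γ ∧
      ∃ S : ModuleCat.{u} Γ, IsSimpleModule Γ S ∧
        ∀ i : ℕ, Subsingleton (Abelian.Ext S (ModuleCat.of Γ Γ) i) := by
  obtain ⟨Γ, _, _, W, _, _, h, ⟨D⟩⟩ := h
  exact ⟨Γ, _, _, h, D.s0282⟩

theorem s0283_of {K : Type u} [Field K] (h : DomStmt K) :
    ∃ (Γ : Type u) (_ : Ring Γ) (_ : Algebra K Γ), FiniteDimensional K Γ ∧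
      ∀ n : ℕ, 1 ≤ n → ∃ C : ModuleCat.{u} Γ, Module.Finite Γ C ∧
        projectiveDimension C = (n : WithBot ℕ∞) := by
  obtain ⟨Γ, _, _, W, _, _, h, ⟨D⟩⟩ := h
  exact ⟨Γ, _, _, h, D.s0283⟩

end Crest.Agent.H5.Mu
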