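import Crest.Agent.H5.P3Pl
import Crest.Agent.Lead.P3I

/-! Row 40 (P3): circular means gain half a derivative. -/

set_option autoImplicit false

namespace Crest.Agent.H5.P3
open MeasureTheory Set Filter Topology Real FourierTransform Complex
open scoped FourierTransform RealInnerProductSpace
open Crest.Agent.Lead.P3 Crest.Agent.H2.Gm

lemma cont_e : Continuous e := by unfold e; fun_prop

lemma norm_e (t : ℝ) : ‖e t‖ = 1 := Complex.norm_exp_ofReal_mul_I t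

lemma circ_eq (B : Set ℂ) (hB : MeasurableSet B) (u : ℂ) :
    circ B u = (volume.restrict (Ioc 0 (2 * π))) {t | u + e t ∈ B} := by
  have hm : MeasurableSet {t | u + e t ∈ B} :=
    (continuous_const.add cont_e).measurable hB
  rw [Measure.restrict_apply hm]
  unfold circ
  congr 1
  ext t
  simp only [mem_ofPred_eq, mem_inter_iff, e]
  tauto

lemma circ_le (B : Set ℂ) (u : ℂ) : circ B u ≤ ENNReal.ofReal (2 * π) := by
  unfold circ
  refine (measure_mono (t := Ioc 0 (2 * π)) fun t ht => ht.1).trans ?_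
  simp

/-- the circular mean of a function -/
noncomputable def cm (f : ℂ → ℂ) (u : ℂ) : ℂ := ∫ t in Ioc 0 (2 * π), f (u + e t)

lemma cm_ind (B : Set ℂ) (hB : MeasurableSet B) (u : ℂ) :
    cm (B.indicator fun _ => (1 : ℂ)) u = ((circ B u).toReal : ℂ) := by
  have hm : MeasurableSet {t | u + e t ∈ B} :=
    (continuous_const.add cont_e).measurable hB
  unfold cm
  have : (fun t => B.indicator (fun _ => (1 : ℂ)) (u + e t)) =
      {t | u + e t ∈ B}.indicator fun _ => (1 : ℂ) := by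
    ext t; simp [indicator]
  rw [this, integral_indicator hm, circ_eq B hB]
  simp [Measure.real]

lemma integ_prod {f : ℂ → ℂ} (hm : Measurable f) (hf : Integrable f) :
    Integrable (fun p : ℂ × ℝ => f (p.1 + e p.2))
      ((volume : Measure ℂ).prod (volume.restrict (Ioc 0 (2 * π)))) := by
  have h1 : AEStronglyMeasurable (fun p : ℂ × ℝ => f (p.1 + e p.2))
      ((volume : Measure ℂ).prod (volume.restrict (Ioc 0 (2 * π)))) :=
    (hm.comp (continuous_fst.add (cont_e.comp continuous_snd)).measurable).aestronglyMeasurable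
  rw [integrable_prod_iff' h1]
  refine ⟨Eventually.of_forall fun t => hf.comp_add_right (e t), ?_⟩
  have : (fun t : ℝ => ∫ u : ℂ, ‖f (u + e t)‖) = fun _ => ∫ u, ‖f u‖ := by
    ext t
    exact integral_add_right_eq_self (fun u => ‖f u‖) (e t)
  simp only [this]
  exact integrable_const _

lemma cm_integrable {f : ℂ → ℂ} (hm : Measurable f) (hf : Integrable f) : Integrable (cm f) :=
  (integ_prod hm hf).integral_prod_left

lemma fourier_shift (g : ℂ → ℂ) (a ξ : ℂ) :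
    𝓕 (fun u => g (u + a)) ξ = (𝐞 ⟪a, ξ⟫ : ℂ) * 𝓕 g ξ := by
  have := congrFun (VectorFourier.fourierIntegral_comp_add_right 𝐞 (volume : Measure ℂ)
    (innerₗ ℂ) g a) ξ
  simpa [Circle.smul_def] using! this

/-- the Fourier transform of arc length on the unit circle -/
noncomputable def mm (ξ : ℂ) : ℂ := ∫ t in Ioc 0 (2 * π), (𝐞 ⟪e t, ξ⟫ : ℂ)

lemma fourier_cm {f : ℂ → ℂ} (hm : Measurable f) (hf : Integrable f) (ξ : ℂ) :
    𝓕 (cm f) ξ = mm ξ * 𝓕 f ξ := by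
  have hp := integ_prod hm hf
  have hp2 : Integrable (Function.uncurry fun (u : ℂ) (t : ℝ) => (𝐞 (-⟪u, ξ⟫) : ℂ) * f (u + e t))
      ((volume : Measure ℂ).prod (volume.restrict (Ioc 0 (2 * π)))) := by
    refine hp.bdd_mul (c := 1) ?_ (Eventually.of_forall fun p => by simp)
    apply Continuous.aestronglyMeasurable
    exact continuous_subtype_val.comp (Real.continuous_fourierChar.comp (by fun_prop))
  calc 𝓕 (cm f) ξ = ∫ u, ∫ t in Ioc 0 (2 * π), (𝐞 (-⟪u, ξ⟫) : ℂ) * f (u + e t) := by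
        rw [Real.fourier_eq]
        congr 1; ext u
        rw [integral_const_mul]; simp [cm, Circle.smul_def]
    _ = ∫ t in Ioc 0 (2 * π), ∫ u, (𝐞 (-⟪u, ξ⟫) : ℂ) * f (u + e t) := integral_integral_swap hp2
    _ = ∫ t in Ioc 0 (2 * π), (𝐞 ⟪e t, ξ⟫ : ℂ) * 𝓕 f ξ := by
        congr 1; ext t
        rw [← fourier_shift, Real.fourier_eq]
        simp [Circle.smul_def]
    _ = _ := by rw [integral_mul_const]; rfl

lemma mm_le (ξ : ℂ) : ‖mm ξ‖ ≤ 2 * π := by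
  unfold mm
  have := norm_setIntegral_le_of_norm_le_const (μ := volume) (s := Ioc 0 (2 * π)) (C := 1)
    (f := fun t => (𝐞 ⟪e t, ξ⟫ : ℂ)) measure_Ioc_lt_top (fun x _ => by simp)
  refine this.trans (le_of_eq ?_)
  simp [Measure.real, Real.pi_pos.le]

lemma mm_decay (ξ : ℂ) : ‖mm ξ‖ ^ 2 * ‖ξ‖ ≤ 100 := by
  by_cases h0 : ξ = 0
  · simp [h0]
  have hn : 0 < ‖ξ‖ := norm_pos_iff.2 h0
  have hpi := Real.pi_gt_three
  have h1 := circle_int_le (2 * π * ‖ξ‖) (arg ξ) (by positivity)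
  have h2 : mm ξ = ∫ t in (0:ℝ)..(2 * π), cexp ((2 * π * ‖ξ‖ * Real.cos (t - arg ξ) : ℝ) * I) := by
    rw [intervalIntegral.integral_of_le (by positivity)]
    unfold mm
    congr 1; ext t
    rw [Real.fourierChar_apply]
    congr 3
    rw [mul_assoc (2 * π)]
    congr 1
    have hre : ξ.re = ‖ξ‖ * Real.cos (arg ξ) := (Complex.norm_mul_cos_arg ξ).symm
    have him : ξ.im = ‖ξ‖ * Real.sin (arg ξ) := (Complex.norm_mul_sin_arg ξ).symm
    rw [Complex.inner, Real.cos_sub]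
    simp only [e, mul_re, conj_re, conj_im, exp_ofReal_mul_I_re, exp_ofReal_mul_I_im]
    generalize arg ξ = φ at *
    rw [hre, him]; ring
  rw [h2]
  rw [abs_of_pos (by positivity), le_div_iff₀ (by positivity)] at h1
  nlinarith [mul_nonneg (sq_nonneg ‖∫ t in (0:ℝ)..(2 * π),
    cexp ((2 * π * ‖ξ‖ * Real.cos (t - arg ξ) : ℝ) * I)‖) hn.le]

lemma char_sub_one (h ξ : ℂ) : ‖(𝐞 ⟪h, ξ⟫ : ℂ) - 1‖ ≤ 2 * π * (‖h‖ * ‖ξ‖) := by
  rw [Real.fourierChar_apply, mul_comm _ I]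
  refine Real.norm_exp_I_mul_ofReal_sub_one_le.trans ?_
  rw [norm_mul, Real.norm_of_nonneg (by positivity)]
  exact mul_le_mul_of_nonneg_left (norm_inner_le_norm _ _) (by positivity)

lemma mult_le (h ξ : ℂ) :
    ‖((𝐞 ⟪h, ξ⟫ : ℂ) - 1) * mm ξ‖ ^ 2 ≤ ‖h‖ * min (400 * π) (16 * π ^ 4 * ‖ξ‖ ^ 2 * ‖h‖) := by
  have h1 := char_sub_one h ξ
  have h2 : ‖(𝐞 ⟪h, ξ⟫ : ℂ) - 1‖ ≤ 2 := (norm_sub_le _ _).trans (by simp; norm_num)
  have h3 := mm_le ξ
  have h4 := mm_decay ξ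
  have hpi := Real.pi_pos
  rw [norm_mul, mul_pow, mul_min_of_nonneg _ _ (norm_nonneg h)]
  set a := ‖(𝐞 ⟪h, ξ⟫ : ℂ) - 1‖
  have ha : 0 ≤ a := norm_nonneg _
  apply le_min
  · have h5 : a ^ 2 ≤ 2 * (2 * π * (‖h‖ * ‖ξ‖)) := by nlinarith
    calc a ^ 2 * ‖mm ξ‖ ^ 2 ≤ 2 * (2 * π * (‖h‖ * ‖ξ‖)) * ‖mm ξ‖ ^ 2 := by gcongr
      _ = 4 * π * ‖h‖ * (‖mm ξ‖ ^ 2 * ‖ξ‖) := by ring
      _ ≤ 4 * π * ‖h‖ * 100 := by gcongr
      _ = _ := by ring
  · calc a ^ 2 * ‖mm ξ‖ ^ 2 ≤ (2 * π * (‖h‖ * ‖ξ‖)) ^ 2 * (2 * π) ^ 2 := by gcongr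
      _ = _ := by ring

theorem halfStmt : HalfStmt := by
  intro B hB hb γ hγ
  have hpi := Real.pi_pos
  set f : ℂ → ℂ := B.indicator fun _ => (1 : ℂ) with hfdef
  have hfin : volume B ≠ ⊤ := hb.measure_lt_top.ne
  have hm : Measurable f := measurable_const.indicator hB
  have hf2 : MemLp f 2 := memLp_indicator_const 2 hB 1 (Or.inr hfin)
  have hf1 : Integrable f := memLp_one_iff_integrable.1 (memLp_indicator_const 1 hB 1 (Or.inr hfin))
  have hΦ1 := cm_integrable hm hf1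
  have hΦ2 : MemLp (cm f) 2 := by
    rw [memLp_two_iff_integrable_sq_norm hΦ1.1]
    refine (hΦ1.norm.const_mul (2 * π)).mono' (hΦ1.1.norm.pow 2) (Eventually.of_forall fun u => ?_)
    have : ‖cm f u‖ ≤ 2 * π := by
      rw [hfdef, cm_ind B hB, Complex.norm_real, Real.norm_of_nonneg ENNReal.toReal_nonneg]
      exact ENNReal.toReal_le_of_le_ofReal (by positivity) (circ_le B u)
    rw [Real.norm_of_nonneg (by positivity), sq]
    gcongr
  obtain ⟨hF2, -⟩ := plancherel hf1 hf2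
  have hFi : Integrable fun ξ => ‖𝓕 f ξ‖ ^ 2 := (memLp_two_iff_integrable_sq_norm hF2.1).1 hF2
  set G : ℂ → ℝ := fun h => ∫ ξ, min (400 * π) (16 * π ^ 4 * ‖ξ‖ ^ 2 * ‖h‖) * ‖𝓕 f ξ‖ ^ 2 with hG
  have hGm : ∀ h : ℂ, AEStronglyMeasurable
      (fun ξ => min (400 * π) (16 * π ^ 4 * ‖ξ‖ ^ 2 * ‖h‖) * ‖𝓕 f ξ‖ ^ 2) volume := fun h =>
    (Continuous.aestronglyMeasurable (by fun_prop)).mul hFi.1
  have hGb : ∀ h ξ : ℂ, ‖min (400 * π) (16 * π ^ 4 * ‖ξ‖ ^ 2 * ‖h‖) * ‖𝓕 f ξ‖ ^ 2‖ ≤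
      400 * π * ‖𝓕 f ξ‖ ^ 2 := by
    intro h ξ
    rw [Real.norm_of_nonneg (by positivity)]
    gcongr
    exact min_le_left _ _
  have hGc : Continuous G := by
    refine continuous_of_dominated hGm (fun h => Eventually.of_forall (hGb h))
      (hFi.const_mul _) (Eventually.of_forall fun ξ => by fun_prop)
  have hG0 : G 0 = 0 := by
    simp only [hG, norm_zero, mul_zero]
    rw [min_eq_right (by positivity)]
    simp
  have hev : ∀ᶠ h in 𝓝 (0 : ℂ), G h < γ := hGc.continuousAt.eventually_lt continuousAt_const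
    (by rw [hG0]; exact hγ)
  obtain ⟨r, hr, hball⟩ := Metric.eventually_nhds_iff.1 hev
  refine ⟨r, hr, fun h hh => ?_⟩
  have hGh : G h < γ := hball (by simpa using hh)
  set F : ℂ → ℂ := fun u => cm f (u + h) - cm f u with hF
  have hF1 : Integrable F := (hΦ1.comp_add_right h).sub hΦ1
  have hF2' : MemLp F 2 :=
    (hΦ2.comp_measurePreserving (measurePreserving_add_right volume h)).sub hΦ2
  have hFF : ∀ ξ, 𝓕 F ξ = ((𝐞 ⟪h, ξ⟫ : ℂ) - 1) * mm ξ * 𝓕 f ξ := by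
    intro ξ
    have h1 : 𝓕 F ξ = 𝓕 (fun u => cm f (u + h)) ξ - 𝓕 (cm f) ξ := by
      simp only [Real.fourier_eq, hF, smul_sub]
      exact integral_sub ((Real.fourierIntegral_convergent_iff ξ).2 (hΦ1.comp_add_right h))
        ((Real.fourierIntegral_convergent_iff ξ).2 hΦ1)
    rw [h1, fourier_shift, fourier_cm hm hf1]; ring
  obtain ⟨hP1, hP2⟩ := plancherel hF1 hF2'
  have hsq : ∀ u, ((circ B (u + h)).toReal - (circ B u).toReal) ^ 2 = ‖F u‖ ^ 2 := by
    intro u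
    simp only [hF, hfdef, cm_ind B hB]
    rw [← Complex.ofReal_sub, Complex.norm_real, Real.norm_eq_abs, sq_abs]
  simp only [hsq]
  rw [← ofReal_integral_eq_lintegral_ofReal ((memLp_two_iff_integrable_sq_norm hF2'.1).1 hF2')
    (Eventually.of_forall fun u => by positivity)]
  apply ENNReal.ofReal_le_ofReal
  rw [← hP2]
  calc ∫ ξ, ‖𝓕 F ξ‖ ^ 2
      ≤ ∫ ξ, ‖h‖ * (min (400 * π) (16 * π ^ 4 * ‖ξ‖ ^ 2 * ‖h‖) * ‖𝓕 f ξ‖ ^ 2) := by
        refine integral_mono ((memLp_two_iff_integrable_sq_norm hP1.1).1 hP1)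
          (((hFi.const_mul _).mono' (hGm h) (Eventually.of_forall (hGb h))).const_mul _) fun ξ => ?_
        simp only
        rw [hFF, norm_mul, mul_pow, ← mul_assoc]
        exact mul_le_mul_of_nonneg_right (mult_le h ξ) (by positivity)
    _ = ‖h‖ * G h := integral_const_mul _ _
    _ ≤ γ * ‖h‖ := by rw [mul_comm]; exact mul_le_mul_of_nonneg_right hGh.le (norm_nonneg _)

end Crest.Agent.H5.P3
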