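import Mathlib

/-! Row 40 (P3): Plancherel for `L¹ ∩ L²`, decay of the Fourier transform of the circle. -/

set_option autoImplicit false

namespace Crest.Agent.H5.P3
open MeasureTheory Set Filter Topology Real FourierTransform Complex
open scoped FourierTransform SchwartzMap ContDiff

lemma fourier_cont {F : ℂ → ℂ} (h1 : Integrable F) : Continuous (𝓕 F) :=
  VectorFourier.fourierIntegral_continuous Real.continuous_fourierChar
    (innerSL ℝ).continuous₂ h1

lemma fourier_ae_eq {F : ℂ → ℂ} (h1 : Integrable F) (h2 : MemLp F 2) :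
    ((𝓕 (h2.toLp F) : Lp ℂ 2 (volume : Measure ℂ)) : ℂ → ℂ) =ᵐ[volume] 𝓕 F := by
  apply ae_eq_of_integral_contDiff_smul_eq
  · exact (Lp.memLp _).locallyIntegrable (by norm_num)
  · exact (fourier_cont h1).locallyIntegrable
  intro g hg hc
  have hc' : HasCompactSupport (fun x => (g x : ℂ)) := hc.comp_left (g := fun r : ℝ => (r : ℂ)) (by simp)
  have hg' : ContDiff ℝ ∞ (fun x => (g x : ℂ)) := Complex.ofRealCLM.contDiff.comp hg
  set φ : 𝓢(ℂ, ℂ) := hc'.toSchwartzMap hg' with hφ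
  have e1 := congrArg (fun T : 𝓢'(ℂ, ℂ) => T φ) (Lp.fourier_toTemperedDistribution_eq (h2.toLp F))
  simp only [TemperedDistribution.fourier_apply, Lp.toTemperedDistribution_apply] at e1
  have e2 : ∫ x, (𝓕 φ) x • (h2.toLp F : ℂ → ℂ) x = ∫ x, (𝓕 (φ : ℂ → ℂ)) x • F x := by
    apply integral_congr_ae
    filter_upwards [h2.coeFn_toLp] with x hx
    rw [hx, SchwartzMap.fourier_coe]
  have e3 : ∫ x, (𝓕 (φ : ℂ → ℂ)) x • F x = ∫ x, φ x • (𝓕 F) x := by
    have := VectorFourier.integral_fourierIntegral_smul_eq_flip (μ := volume) (ν := volume)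
      (L := innerₗ ℂ) (e := Real.fourierChar) Real.continuous_fourierChar
      (innerSL ℝ (E := ℂ)).continuous₂ φ.integrable h1
    simpa using! this
  rw [e2, e3] at e1
  have e4 : ∀ x, φ x = (g x : ℂ) := fun x => rfl
  simp only [e4, smul_eq_mul] at e1
  simp only [Complex.real_smul]
  exact e1.symm

lemma plancherel {F : ℂ → ℂ} (h1 : Integrable F) (h2 : MemLp F 2) :
    MemLp (𝓕 F) 2 ∧ ∫ ξ, ‖𝓕 F ξ‖ ^ 2 = ∫ x, ‖F x‖ ^ 2 := by
  have hae := fourier_ae_eq h1 h2
  refine ⟨(Lp.memLp _).ae_eq hae, ?_⟩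
  have hn := Lp.norm_fourier_eq (h2.toLp F)
  have key : ∀ G : Lp ℂ 2 (volume : Measure ℂ), ‖G‖ ^ 2 = ∫ x, ‖(G : ℂ → ℂ) x‖ ^ 2 := by
    intro G
    rw [← real_inner_self_eq_norm_sq, L2.inner_def]
    simp only [real_inner_self_eq_norm_sq]
  have a1 : ∫ ξ, ‖𝓕 F ξ‖ ^ 2 = ‖𝓕 (h2.toLp F)‖ ^ 2 := by
    rw [key]
    apply integral_congr_ae
    filter_upwards [hae] with x hx
    rw [hx]
  have a2 : ∫ x, ‖F x‖ ^ 2 = ‖h2.toLp F‖ ^ 2 := by
    rw [key]
    apply integral_congr_ae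
    filter_upwards [h2.coeFn_toLp] with x hx
    rw [hx]
  rw [a1, a2, hn]

/-- quarter-circle oscillatory integral -/
noncomputable def Jq (ρ : ℝ) : ℂ := ∫ t in (0:ℝ)..(π / 2), cexp ((ρ * Real.cos t : ℝ) * I)

lemma norm_int_le (ρ a b : ℝ) (hab : a ≤ b) :
    ‖∫ t in a..b, cexp ((ρ * Real.cos t : ℝ) * I)‖ ≤ b - a := by
  have := intervalIntegral.norm_integral_le_of_norm_le_const (a := a) (b := b) (C := 1)
    (f := fun t => cexp ((ρ * Real.cos t : ℝ) * I)) (fun x _ => by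
      rw [Complex.norm_exp_ofReal_mul_I])
  rwa [one_mul, abs_of_nonneg (by linarith)] at this

lemma mid_le (ρ l : ℝ) (hρ : ρ ≠ 0) (hl : 0 < l) (hl2 : l ≤ π / 2) :
    ‖∫ t in l..(π / 2), cexp ((ρ * Real.cos t : ℝ) * I)‖ ≤ 2 / (|ρ| * Real.sin l) := by
  have hpi := Real.pi_pos
  have hs : ∀ t ∈ uIcc l (π / 2), 0 < Real.sin t := by
    intro t ht
    rw [uIcc_of_le hl2] at ht
    exact Real.sin_pos_of_pos_of_lt_pi (by linarith [ht.1]) (by linarith [ht.2])
  have hc : ∀ t ∈ uIcc l (π / 2), 0 ≤ Real.cos t := by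
    intro t ht
    rw [uIcc_of_le hl2] at ht
    exact Real.cos_nonneg_of_neg_pi_div_two_le_of_le (by linarith [ht.1]) ht.2
  have hρ' : (ρ : ℂ) ≠ 0 := by exact_mod_cast hρ
  -- primitive
  set E : ℝ → ℂ := fun t => cexp ((ρ * Real.cos t : ℝ) * I) with hE
  have hEc : Continuous E := by rw [hE]; fun_prop
  have hEd : ∀ t, HasDerivAt E (E t * ((ρ * (-Real.sin t) : ℝ) * I)) t := by
    intro t
    have h1 : HasDerivAt (fun t => ρ * Real.cos t) (ρ * (-Real.sin t)) t :=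
      (Real.hasDerivAt_cos t).const_mul ρ
    exact (h1.ofReal_comp.mul_const I).cexp
  have hgd : ∀ t ∈ uIcc l (π / 2), HasDerivAt (fun t => ((Real.sin t)⁻¹ : ℝ))
      (-Real.cos t / Real.sin t ^ 2) t := fun t ht => (Real.hasDerivAt_sin t).inv (hs t ht).ne'
  have hcont : ContinuousOn (fun t => Real.cos t / Real.sin t ^ 2) (uIcc l (π / 2)) :=
    Real.continuous_cos.continuousOn.div (by fun_prop) fun t ht => pow_ne_zero _ (hs t ht).ne'
  have hG : ∀ t ∈ uIcc l (π / 2), HasDerivAt (fun t => E t * (((Real.sin t)⁻¹ : ℝ) : ℂ) * (I / ρ))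
      (E t - E t * ((Real.cos t / Real.sin t ^ 2 : ℝ) : ℂ) * (I / ρ)) t := by
    intro t ht
    have h := ((hEd t).mul (hgd t ht).ofReal_comp).mul_const (I / ρ)
    refine HasDerivAt.congr_deriv h ?_
    have hs' : (Real.sin t : ℂ) ≠ 0 := by exact_mod_cast (hs t ht).ne'
    generalize E t = a
    generalize Real.cos t = c at *
    generalize Real.sin t = s at *
    push_cast at hs' ⊢
    field_simp
    linear_combination (-(a * ρ * s ^ 2)) * I_mul_I
  have hi2 : IntervalIntegrable (fun t => E t * ((Real.cos t / Real.sin t ^ 2 : ℝ) : ℂ) * (I / ρ))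
      volume l (π / 2) := by
    apply ContinuousOn.intervalIntegrable
    exact (hEc.continuousOn.mul (Complex.continuous_ofReal.comp_continuousOn hcont)).mul
      continuousOn_const
  have hint := intervalIntegral.integral_eq_sub_of_hasDerivAt hG
    ((hEc.intervalIntegrable _ _).sub hi2)
  rw [intervalIntegral.integral_sub (hEc.intervalIntegrable _ _) hi2] at hint
  have hnE : ∀ t, ‖E t‖ = 1 := fun t => Complex.norm_exp_ofReal_mul_I _
  have hsl := hs l left_mem_uIcc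
  have hab : 0 < |ρ| := abs_pos.2 hρ
  have hI : ‖I / (ρ : ℂ)‖ = 1 / |ρ| := by simp
  have hrem : ‖∫ t in l..(π / 2), E t * ((Real.cos t / Real.sin t ^ 2 : ℝ) : ℂ) * (I / ρ)‖ ≤
      ((Real.sin l)⁻¹ - 1) * (1 / |ρ|) := by
    have hprim : ∫ t in l..(π / 2), Real.cos t / Real.sin t ^ 2 = (Real.sin l)⁻¹ - 1 := by
      have h := intervalIntegral.integral_eq_sub_of_hasDerivAt
        (f := fun t => -(Real.sin t)⁻¹) (f' := fun t => Real.cos t / Real.sin t ^ 2)
        (fun t ht => by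
          refine HasDerivAt.congr_deriv (hgd t ht).neg ?_
          ring) hcont.intervalIntegrable
      rw [h]; simp; ring
    refine (intervalIntegral.norm_integral_le_integral_norm hl2).trans (le_of_eq ?_)
    rw [← hprim, ← intervalIntegral.integral_mul_const]
    apply intervalIntegral.integral_congr
    intro t ht
    simp only [norm_mul, hnE, hI, one_mul, Complex.norm_real, Real.norm_eq_abs]
    rw [abs_of_nonneg (div_nonneg (hc t ht) (sq_nonneg _))]
  have heq : ∫ t in l..(π / 2), E t =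
      (E (π / 2) * (((Real.sin (π / 2))⁻¹ : ℝ) : ℂ) * (I / ρ) -
        E l * (((Real.sin l)⁻¹ : ℝ) : ℂ) * (I / ρ)) +
      ∫ t in l..(π / 2), E t * ((Real.cos t / Real.sin t ^ 2 : ℝ) : ℂ) * (I / ρ) := by
    rw [← hint]; ring
  rw [heq]
  have n1 : ‖E (π / 2) * (((Real.sin (π / 2))⁻¹ : ℝ) : ℂ) * (I / ρ)‖ = 1 / |ρ| := by
    simp only [norm_mul, hnE, hI, Real.sin_pi_div_two]; simp
  have n2 : ‖E l * (((Real.sin l)⁻¹ : ℝ) : ℂ) * (I / ρ)‖ = (Real.sin l)⁻¹ * (1 / |ρ|) := by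
    simp only [norm_mul, hnE, hI, one_mul, Complex.norm_real, Real.norm_eq_abs]
    rw [abs_of_pos (inv_pos.2 hsl)]
  refine (norm_add_le _ _).trans ?_
  refine (add_le_add (norm_sub_le _ _) hrem).trans (le_of_eq ?_)
  rw [n1, n2]
  field_simp
  ring

lemma Jq_le (ρ : ℝ) (hρ : ρ ≠ 0) : ‖Jq ρ‖ ≤ 5 / √|ρ| := by
  have hpi := Real.pi_pos
  have hpi3 := Real.pi_gt_three
  have hpi4 := Real.pi_lt_four
  have hab : 0 < |ρ| := abs_pos.2 hρ
  have hsq : 0 < √|ρ| := Real.sqrt_pos.2 hab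
  have hss : √|ρ| * √|ρ| = |ρ| := Real.mul_self_sqrt hab.le
  by_cases h1 : √|ρ| ≤ 1
  · have := norm_int_le ρ 0 (π / 2) (by linarith)
    refine this.trans ?_
    rw [le_div_iff₀ hsq]
    nlinarith
  · push Not at h1
    set l := (√|ρ|)⁻¹ with hl
    have hl0 : 0 < l := inv_pos.2 hsq
    have hl1 : l ≤ 1 := inv_le_one_of_one_le₀ h1.le
    have hEc : Continuous fun t : ℝ => cexp ((ρ * Real.cos t : ℝ) * I) := by fun_prop
    have hsplit := intervalIntegral.integral_add_adjacent_intervals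
      (hEc.intervalIntegrable (μ := volume) 0 l) (hEc.intervalIntegrable l (π / 2))
    unfold Jq
    rw [← hsplit]
    refine (norm_add_le _ _).trans ?_
    refine (add_le_add (norm_int_le ρ 0 l hl0.le) (mid_le ρ l hρ hl0 (by linarith))).trans ?_
    have hsin : 2 / π * l ≤ Real.sin l := Real.mul_le_sin hl0.le (by linarith)
    have h2 : l / 2 ≤ Real.sin l := by
      refine le_trans ?_ hsin
      have : 1 / 2 ≤ 2 / π := by rw [div_le_div_iff₀ (by norm_num) hpi]; linarith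
      nlinarith
    have h3 : 2 / (|ρ| * Real.sin l) ≤ 4 * l := by
      rw [div_le_iff₀ (by have := lt_of_lt_of_le (by linarith : 0 < l / 2) h2; positivity)]
      have h4 : l * l * |ρ| = 1 := by
        rw [hl, ← mul_inv, hss]; exact inv_mul_cancel₀ hab.ne'
      nlinarith [mul_le_mul_of_nonneg_left h2 (by positivity : 0 ≤ 4 * l * |ρ|)]
    have : 5 / √|ρ| = 5 * l := by rw [hl]; ring
    linarith

lemma circle_int_eq (ρ φ : ℝ) :
    ∫ t in (0:ℝ)..(2 * π), cexp ((ρ * Real.cos (t - φ) : ℝ) * I) = 2 * (Jq ρ + Jq (-ρ)) := by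
  have hEc : ∀ σ : ℝ, Continuous fun t : ℝ => cexp ((σ * Real.cos t : ℝ) * I) := by
    intro σ; fun_prop
  have hper : Function.Periodic (fun t : ℝ => cexp ((ρ * Real.cos t : ℝ) * I)) (2 * π) := by
    intro t; simp only [Real.cos_add_two_pi]
  rw [intervalIntegral.integral_comp_sub_right (fun t : ℝ => cexp ((ρ * Real.cos t : ℝ) * I)) φ]
  have h1 := hper.intervalIntegral_add_eq (0 - φ) (-π)
  rw [show 0 - φ + 2 * π = 2 * π - φ by ring, show -π + 2 * π = π by ring] at h1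
  rw [h1]
  have h2 := intervalIntegral.integral_add_adjacent_intervals
      ((hEc ρ).intervalIntegrable (μ := volume) (-π) 0) ((hEc ρ).intervalIntegrable 0 π)
  have h3 : ∫ t in (-π)..0, cexp ((ρ * Real.cos t : ℝ) * I) =
      ∫ t in (0:ℝ)..π, cexp ((ρ * Real.cos t : ℝ) * I) := by
    have := intervalIntegral.integral_comp_neg (a := 0) (b := π)
      (fun t : ℝ => cexp ((ρ * Real.cos t : ℝ) * I))
    simp only [Real.cos_neg, neg_zero] at this
    exact this.symm
  have h4 := intervalIntegral.integral_add_adjacent_intervals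
      ((hEc ρ).intervalIntegrable (μ := volume) 0 (π / 2)) ((hEc ρ).intervalIntegrable (π / 2) π)
  have h5 : ∫ t in (π / 2)..π, cexp ((ρ * Real.cos t : ℝ) * I) = Jq (-ρ) := by
    have := intervalIntegral.integral_comp_sub_left (a := 0) (b := π / 2)
      (fun t : ℝ => cexp ((ρ * Real.cos t : ℝ) * I)) π
    simp only [Real.cos_pi_sub, sub_zero] at this
    rw [show π - π / 2 = π / 2 by ring] at this
    rw [← this]
    unfold Jq
    simp only [mul_neg, neg_mul]
  rw [← h2, h3, ← h4, h5]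
  unfold Jq
  ring

lemma circle_int_le (ρ φ : ℝ) (hρ : ρ ≠ 0) :
    ‖∫ t in (0:ℝ)..(2 * π), cexp ((ρ * Real.cos (t - φ) : ℝ) * I)‖ ^ 2 ≤ 400 / |ρ| := by
  rw [circle_int_eq]
  have h1 := Jq_le ρ hρ
  have h2 := Jq_le (-ρ) (neg_ne_zero.2 hρ)
  rw [abs_neg] at h2
  have hab : 0 < |ρ| := abs_pos.2 hρ
  have h3 : ‖2 * (Jq ρ + Jq (-ρ))‖ ≤ 20 / √|ρ| := by
    rw [norm_mul]
    have := norm_add_le (Jq ρ) (Jq (-ρ))
    have e : (20 : ℝ) / √|ρ| = 2 * (5 / √|ρ| + 5 / √|ρ|) := by ring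
    rw [e]
    simp only [Complex.norm_ofNat]
    linarith
  refine (pow_le_pow_left₀ (norm_nonneg _) h3 2).trans (le_of_eq ?_)
  rw [div_pow, Real.sq_sqrt hab.le]
  norm_num

end Crest.Agent.H5.P3
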