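import Crest.Agent.H6.TkI

/-! Row 186: `B`-level facts for the twist statement. -/

set_option autoImplicit false

noncomputable section
namespace Crest.Agent.H5.Tk
open MulOpposite Finsupp Crest.Agent.H6.Tk

section gen
variable {R : Type} [Ring R] {I J L : Type}

lemma app_eq (Φ : (I →₀ R) →ₗ[R] (J →₀ R)) (x : I →₀ R) (l : J) :
    Φ x l = x.sum fun j a => a * Φ (single j 1) l := by
  induction x using Finsupp.induction_linear with
  | zero => simp
  | add x y hx hy => rw [map_add, Finsupp.add_apply, hx, hy, sum_add_index'] <;> simp [add_mul]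
  | single i r =>
    have : (single i r : I →₀ R) = r • single i 1 := by simp
    rw [sum_single_index (by simp), this, map_smul]; simp

lemma ext1 {M : Type} [AddCommGroup M] [Module R M] {Φ Ψ : (I →₀ R) →ₗ[R] M}
    (h : ∀ i, Φ (single i 1) = Ψ (single i 1)) : Φ = Ψ :=
  Finsupp.lhom_ext fun i r => by
    have : (single i r : I →₀ R) = r • single i 1 := by simp
    rw [this, map_smul, map_smul, h]

lemma add_self2 (h2 : (2 : R) = 0) {M : Type} [AddCommGroup M] [Module R M] (x : M) : x + x = 0 := by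
  rw [← two_smul R x, h2, zero_smul]

lemma map_add_self (h2 : (2 : R) = 0) {M N : Type} [AddCommGroup M] [Module R M] [AddCommGroup N]
    [Module R N] (f : M →ₗ[R] N) : f + f = 0 := LinearMap.ext fun x => add_self2 h2 (f x)

variable {P P' P'' : Cx R}

lemma δ_def (Φ : Ch P P' R) : δ P P' R Φ = Φ ∘ₗ P.d + P'.d ∘ₗ Φ := by rw [δ, tens_self]

lemma δ_add (Φ Ψ : Ch P P' R) : δ P P' R (Φ + Ψ) = δ P P' R Φ + δ P P' R Ψ := by
  simp only [δ_def, LinearMap.add_comp, LinearMap.comp_add]; abel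

lemma isC_add {n : ℤ} {Φ Ψ : Ch P P' R} (h : IsC P P' R n Φ) (h' : IsC P P' R n Ψ) :
    IsC P P' R n (Φ + Ψ) := fun i j => by
  obtain ⟨a, b, c⟩ := h i j
  obtain ⟨a', b', c'⟩ := h' i j
  refine ⟨fun hh => by simp [a hh, a' hh], ?_, ?_⟩
  · simp only [LinearMap.add_apply, Finsupp.add_apply, smul_add, b, b']
  · simp only [LinearMap.add_apply, Finsupp.add_apply, smul_add, c, c']

lemma isC_zero (n : ℤ) : IsC P P' R n 0 := fun i j => by simp

lemma isC_comp {n m : ℤ} {Φ : Ch P P' R} {Ψ : Ch P' P'' R} (h : IsC P P' R n Φ)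
    (h' : IsC P' P'' R m Ψ) : IsC P P'' R (n + m) (Ψ ∘ₗ Φ) := fun i l => by
  simp only [LinearMap.comp_apply, app_eq Ψ (Φ (single i 1)), Finsupp.sum]
  refine ⟨fun hh => Finset.sum_eq_zero fun j _ => ?_, ?_, ?_⟩
  · by_cases hj : P'.deg j = P.deg i + n
    · rw [(h' j l).1 (by omega), mul_zero]
    · rw [(h i j).1 hj, zero_mul]
  · rw [Finset.smul_sum]
    exact Finset.sum_congr rfl fun j _ => by
      rw [smul_eq_mul, ← mul_assoc, ← smul_eq_mul (P.ε i), (h i j).2.1]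
  · rw [Finset.smul_sum]
    exact Finset.sum_congr rfl fun j _ => by
      have := (h' j l).2.2
      rw [op_smul_eq_mul] at this ⊢
      rw [mul_assoc, this]

@[simp] lemma one_single (i : P.I) : P.one (single i 1) = single i (P.ε i) := by simp [Cx.one]

lemma isC_one : IsC P P R 0 P.one := fun i j => by
  classical
  rw [one_single, single_apply]
  split_ifs with h
  · subst h; simp [P.idem]
  · simp

lemma comp_one {n : ℤ} {Φ : Ch P P' R} (h : IsC P P' R n Φ) : Φ ∘ₗ P.one = Φ := ext1 fun i => by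
  have : (single i (P.ε i) : P.I →₀ R) = P.ε i • single i 1 := by simp
  rw [LinearMap.comp_apply, one_single, this, map_smul]
  ext j; exact (h i j).2.1

lemma one_apply (x : P.I →₀ R) (j : P.I) : P.one x j = x j * P.ε j := by
  classical
  induction x using Finsupp.induction_linear with
  | zero => simp
  | add x y hx hy => simp [hx, hy, add_mul]
  | single i r =>
    have : (single i r : P.I →₀ R) = r • single i 1 := by simp
    rw [this, map_smul, one_single]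
    by_cases h : i = j
    · subst h; simp
    · simp [h]

lemma one_comp {n : ℤ} {Φ : Ch P P' R} (h : IsC P P' R n Φ) : P'.one ∘ₗ Φ = Φ := ext1 fun i => by
  ext j; rw [LinearMap.comp_apply, one_apply]; exact (h i j).2.2

lemma isC_d : IsC P P R 1 P.d := P.d_isM

lemma δ_one (h2 : (2 : R) = 0) : δ P P R P.one = 0 := by
  rw [δ_def, one_comp isC_d, comp_one isC_d, map_add_self h2]

lemma isC_δ {n : ℤ} {Φ : Ch P P' R} (h : IsC P P' R n Φ) : IsC P P' R (n + 1) (δ P P' R Φ) := by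
  rw [δ_def]
  exact isC_add (add_comm 1 n ▸ isC_comp isC_d h) (isC_comp h isC_d)

lemma δ_comp (h2 : (2 : R) = 0) (Φ : Ch P P' R) (Ψ : Ch P' P'' R) :
    δ P P'' R (Ψ ∘ₗ Φ) = Ψ ∘ₗ δ P P' R Φ + δ P' P'' R Ψ ∘ₗ Φ := by
  simp only [δ_def, LinearMap.add_comp, LinearMap.comp_add, LinearMap.comp_assoc]
  rw [add_assoc, ← add_assoc (Ψ ∘ₗ P'.d ∘ₗ Φ), map_add_self h2, zero_add]

lemma δδ (h2 : (2 : R) = 0) (Φ : Ch P P' R) : δ P P' R (δ P P' R Φ) = 0 := by
  simp only [δ_def, LinearMap.add_comp, LinearMap.comp_add, LinearMap.comp_assoc, P.dd]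
  rw [← LinearMap.comp_assoc Φ P'.d P'.d, P'.dd]
  simpa using map_add_self h2 _

lemma pt_d : (pt R).d = 0 := rfl

def RowC (P : Cx R) (n : ℤ) (x : P.I →₀ R) : Prop := ∀ j, (P.deg j ≠ n → x j = 0) ∧ x j * P.ε j = x j

def rowOf (x : P.I →₀ R) : Ch (pt R) P R := Finsupp.linearCombination R fun _ => x

lemma rowOf_apply (x : P.I →₀ R) (i : (pt R).I) : rowOf x (single i 1) = x := by simp [rowOf]

lemma cy_rowOf {n : ℤ} {x : P.I →₀ R} (h : RowC P n x) (h0 : P.d x = 0) : Cy (pt R) P R n (rowOf x) :=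
  ⟨fun i j => by
    rw [rowOf_apply]
    exact ⟨fun hj => (h j).1 (by simpa [pt] using hj), one_mul _, (h j).2⟩, ext1 fun i => by
    rw [δ_def, pt_d, LinearMap.comp_zero, zero_add, LinearMap.comp_apply, rowOf_apply, h0]; rfl⟩

lemma bd_row {n : ℤ} {v : Ch (pt R) P R} (h : Bd (pt R) P R n v) :
    ∃ y, RowC P (n - 1) y ∧ P.d y = v (single () 1) := by
  obtain ⟨Ψ, p1, p2⟩ := h
  refine ⟨Ψ (single () 1), fun j => ⟨fun hj => (p1 () j).1 (by simpa [pt] using hj), (p1 () j).2.2⟩, ?_⟩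
  rw [← p2, δ_def, pt_d, LinearMap.comp_zero, zero_add]; rfl
end gen

section sm
variable {k R : Type} [Field k] [Ring R] [Algebra k R] {P P' : Cx R}

lemma isC_smul {n : ℤ} {Φ : Ch P P' R} (a : k) (h : IsC P P' R n Φ) : IsC P P' R n (a • Φ) :=
  fun i j => by
  obtain ⟨x, y, z⟩ := h i j
  rw [op_smul_eq_mul] at z
  rw [smul_eq_mul] at y
  refine ⟨fun hh => by simp [x hh], ?_, ?_⟩ <;> simp [y, z]

lemma δ_smul (a : k) (Φ : Ch P P' R) : δ P P' R (a • Φ) = a • δ P P' R Φ := by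
  simp only [δ_def, LinearMap.smul_comp, LinearMap.comp_smul, smul_add]

lemma two_zero [CharP k 2] : (2 : R) = 0 := by
  have : (2 : k) = 0 := CharTwo.two_eq_zero
  rw [← map_ofNat (algebraMap k R) 2, this, map_zero]
end sm

variable {k B : Type} [Field k] [CharP k 2] [Ring B] [Algebra k B] {m : ℕ} (X : BD k B m)

omit [CharP k 2] in
lemma d_ip : X.Qp.d (single X.ip 1) = 0 := by
  ext j
  exact (X.Qp.d_isM X.ip j).1 (by have := X.degp j; have := X.deg_ip; omega)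

open Classical in
/-- `Qp` with the top generator removed -/
def Qb : Cx B where
  I := X.Qp.I
  deg := X.Qp.deg
  fin := X.Qp.fin
  ε i := if i = X.ip then 0 else X.Qp.ε i
  idem i := by split_ifs <;> simp [X.Qp.idem]
  d := (LinearMap.id - lsingle X.ip ∘ₗ lapply X.ip) ∘ₗ X.Qp.d
  d_isM i j := by
    obtain ⟨a, b, c⟩ := X.Qp.d_isM i j
    by_cases hj : j = X.ip
    · subst hj; simp
    by_cases hi : i = X.ip
    · subst hi; simp [d_ip]
    simpa [hi, hj, single_apply, Ne.symm hj] using And.intro a (And.intro b c)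
  dd := by
    have h : X.Qp.d ∘ₗ (LinearMap.id - lsingle X.ip ∘ₗ lapply X.ip) = X.Qp.d := ext1 fun i => by
      have : ∀ r : B, X.Qp.d (single X.ip r) = 0 := fun r => by
        have : (single X.ip r : X.Qp.I →₀ B) = r • single X.ip 1 := by simp
        rw [this, map_smul, d_ip, smul_zero]
      simp [this]
    rw [LinearMap.comp_assoc, ← LinearMap.comp_assoc X.Qp.d _ X.Qp.d, h, X.Qp.dd,
      LinearMap.comp_zero]

omit [CharP k 2] in
lemma δ_Qb (Φ : Ch X.Qp X.Qp B) (h : Φ (single X.ip 1) = 0) :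
    δ (Qb X) X.Qp B Φ = δ X.Qp X.Qp B Φ := by
  rw [δ_def, δ_def]
  congr 1
  refine ext1 fun i => ?_
  have : ∀ r : B, Φ (single X.ip r) = 0 := fun r => by
    have : (single X.ip r : X.Qp.I →₀ B) = r • single X.ip 1 := by simp
    rw [this, map_smul, h, smul_zero]
  change Φ (X.Qp.d (single i 1) - single X.ip (X.Qp.d (single i 1) X.ip)) = _
  rw [map_sub, this, sub_zero]; rfl

omit [CharP k 2] in
lemma isC_Qb (n : ℤ) (Φ : Ch X.Qp X.Qp B) :
    IsC (Qb X) X.Qp B n Φ ↔ IsC X.Qp X.Qp B n Φ ∧ Φ (single X.ip 1) = 0 := by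
  classical
  have key : IsC (Qb X) X.Qp B n Φ ↔ ∀ (i j : X.Qp.I), (X.Qp.deg j ≠ X.Qp.deg i + n → Φ (single i 1) j = 0) ∧
      (if i = X.ip then 0 else X.Qp.ε i) • Φ (single i 1) j = Φ (single i 1) j ∧
      op (X.Qp.ε j) • Φ (single i 1) j = Φ (single i 1) j := by
    unfold IsC IsM Qb; congr!
  rw [key]
  constructor
  · intro h
    have z : Φ (single X.ip 1) = 0 := by
      ext j
      have := (h X.ip j).2.1
      rw [if_pos rfl, zero_smul] at this
      exact this.symm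
    refine ⟨fun i j => ?_, z⟩
    by_cases hi : i = X.ip
    · subst hi; rw [z]; simp
    · have := h i j
      rwa [if_neg hi] at this
  · rintro ⟨h, z⟩ i j
    by_cases hi : i = X.ip
    · subst hi; rw [z]; simp
    · rw [if_neg hi]; exact h i j

theorem endp (hK : KStmt) (n : ℤ) (u : Ch X.Qp X.Qp B) (hu : Cy X.Qp X.Qp B n u) :
    ∃ a : k, (n ≠ 0 → a = 0) ∧ Bd X.Qp X.Qp B n (u + a • X.Qp.one) := by
  classical
  have h2 : (2 : B) = 0 := two_zero (k := k)
  let a := X.χ (u (single X.ip 1) X.ip)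
  have ha : n ≠ 0 → a = 0 := fun hn => by
    simp only [a]; rw [(hu.1 X.ip X.ip).1 (by omega), map_zero]
  refine ⟨a, ha, ?_⟩
  set u' := u + a • X.Qp.one with hu'
  have c1 : IsC X.Qp X.Qp B n u' := by
    by_cases hn : n = 0
    · subst hn; exact isC_add hu.1 (isC_smul a isC_one)
    · rw [hu', ha hn, zero_smul, add_zero]; exact hu.1
  have c2 : δ X.Qp X.Qp B u' = 0 := by rw [hu', δ_add, hu.2, δ_smul, δ_one h2]; simp
  obtain ⟨y, p1, p2⟩ := bd_row (X.rowp n (rowOf (u' (single X.ip 1))) (cy_rowOf (fun j =>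
      ⟨fun h => (c1 X.ip j).1 (by rwa [X.deg_ip, zero_add]), (c1 X.ip j).2.2⟩) (by
      have := LinearMap.congr_fun c2 (single X.ip 1)
      rw [δ_def] at this
      simpa [d_ip] using this)) (by
      rw [rowOf_apply, hu']
      simp [X.χ_ip, a, CharTwo.add_self_eq_zero]))
  rw [rowOf_apply] at p2
  let h : Ch X.Qp X.Qp B := Finsupp.linearCombination B fun i => if i = X.ip then X.Qp.ε i • y else 0
  have hh : ∀ i, h (single i 1) = if i = X.ip then X.Qp.ε i • y else 0 := fun i => by simp [h]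
  have h1 : IsC X.Qp X.Qp B (n - 1) h := fun i j => by
    rw [hh]
    split_ifs with hi
    · subst hi
      refine ⟨fun hj => ?_, ?_, ?_⟩
      · simp [(p1 j).1 (by rwa [X.deg_ip, zero_add] at hj)]
      · simp [← mul_assoc, X.Qp.idem]
      · simp [mul_assoc, (p1 j).2]
    · simp
  have z : (u' + δ X.Qp X.Qp B h) (single X.ip 1) = 0 := by
    rw [δ_def]
    simp only [LinearMap.add_apply, LinearMap.comp_apply, d_ip, map_zero, zero_add, hh, if_true,
      map_smul, p2]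
    have : X.Qp.ε X.ip • u' (single X.ip 1) = u' (single X.ip 1) := by
      ext j; exact (c1 X.ip j).2.1
    rw [this, add_self2 h2]
  have c3 : IsC X.Qp X.Qp B n (u' + δ X.Qp X.Qp B h) :=
    isC_add c1 (by have := isC_δ h1; rwa [sub_add_cancel] at this)
  obtain ⟨(Θ : Ch X.Qp X.Qp B), t1, t2⟩ := (hK B h2 (Qb X) X.Qp B n).1 ⟨0, X.degp⟩
    (fun (i : X.Qp.I) v hv hi => X.rowp _ v hv (by
      have := congrArg (fun y => X.χ (y X.ip)) hi
      simp only [Finsupp.smul_apply, smul_eq_mul, map_mul] at this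
      rw [← this]
      have : X.χ ((Qb X).ε i) = 0 := by
        change X.χ (if i = X.ip then 0 else X.Qp.ε i) = 0
        split_ifs with h
        · exact map_zero _
        · exact X.χp i h
      rw [this, zero_mul])) (u' + δ X.Qp X.Qp B h) ⟨(isC_Qb X n _).2 ⟨c3, z⟩,
        (δ_Qb X _ z).trans (by rw [δ_add, c2, δδ h2, add_zero]; rfl)⟩
  obtain ⟨t3, z'⟩ := (isC_Qb X _ _).1 t1
  refine ⟨Θ + h, isC_add t3 h1, ?_⟩
  have t4 : δ X.Qp X.Qp B Θ = u' + δ X.Qp X.Qp B h := (δ_Qb X Θ z').symm.trans t2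
  rw [δ_add, t4, add_assoc, map_add_self h2, add_zero]

section cop
variable {R : Type} [Ring R] {I J : Type} {M : Type} [AddCommGroup M] [Module R M]

def cop (A : (I →₀ R) →ₗ[R] M) (C : (J →₀ R) →ₗ[R] M) : (I ⊕ J →₀ R) →ₗ[R] M :=
  Finsupp.linearCombination R (Sum.elim (fun i => A (single i 1)) fun j => C (single j 1))
def iL : (I →₀ R) →ₗ[R] (I ⊕ J →₀ R) := lmapDomain R R Sum.inl
def iR : (J →₀ R) →ₗ[R] (I ⊕ J →₀ R) := lmapDomain R R Sum.inr
@[simp] lemma iL_single (i : I) (r : R) : (iL (single i r) : I ⊕ J →₀ R) = single (.inl i) r := by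
  simp [iL]
@[simp] lemma iR_single (j : J) (r : R) : (iR (single j r) : I ⊕ J →₀ R) = single (.inr j) r := by
  simp [iR]
@[simp] lemma iL_inl (x : I →₀ R) (i : I) : (iL x : I ⊕ J →₀ R) (.inl i) = x i :=
  mapDomain_apply Sum.inl_injective x i
@[simp] lemma iR_inr (x : J →₀ R) (j : J) : (iR x : I ⊕ J →₀ R) (.inr j) = x j :=
  mapDomain_apply Sum.inr_injective x j
@[simp] lemma iL_inr (x : I →₀ R) (j : J) : (iL x : I ⊕ J →₀ R) (.inr j) = 0 :=
  mapDomain_of_notMem_range x _ (by simp)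
@[simp] lemma iR_inl (x : J →₀ R) (i : I) : (iR x : I ⊕ J →₀ R) (.inl i) = 0 :=
  mapDomain_of_notMem_range x _ (by simp)
lemma cop_L (A : (I →₀ R) →ₗ[R] M) (C : (J →₀ R) →ₗ[R] M) : cop A C ∘ₗ iL = A :=
  ext1 fun i => by simp [cop]
lemma cop_R (A : (I →₀ R) →ₗ[R] M) (C : (J →₀ R) →ₗ[R] M) : cop A C ∘ₗ iR = C :=
  ext1 fun i => by simp [cop]
lemma cop_ext {Φ Ψ : (I ⊕ J →₀ R) →ₗ[R] M} (h1 : Φ ∘ₗ iL = Ψ ∘ₗ iL) (h2 : Φ ∘ₗ iR = Ψ ∘ₗ iR) :
    Φ = Ψ := ext1 fun i => by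
  cases i with
  | inl i => simpa using LinearMap.congr_fun h1 (single i 1)
  | inr i => simpa using LinearMap.congr_fun h2 (single i 1)
end cop

/-- the cone of `φ` -/
def cone : Cx B where
  I := X.Qp.I ⊕ X.Qm.I
  deg := Sum.elim (fun i => X.Qp.deg i - 1) X.Qm.deg
  fin n := ((X.Qp.fin (n + 1)).image Sum.inl |>.union ((X.Qm.fin n).image Sum.inr)).subset (by
    rintro (i | i) h
    · exact Or.inl ⟨i, by simp at h ⊢; omega, rfl⟩
    · exact Or.inr ⟨i, h, rfl⟩)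
  ε := Sum.elim X.Qp.ε X.Qm.ε
  idem := by rintro (i | i); exacts [X.Qp.idem i, X.Qm.idem i]
  d := cop (iL ∘ₗ X.Qp.d + iR ∘ₗ X.φ) (iR ∘ₗ X.Qm.d)
  d_isM := by
    rintro (i | i) (j | j)
    · obtain ⟨a, b, c⟩ := X.Qp.d_isM i j
      simpa [cop] using And.intro (fun h => a (by omega)) (And.intro b c)
    · obtain ⟨a, b, c⟩ := X.φ_cy.1 i j
      simpa [cop] using And.intro (fun h => a (by omega)) (And.intro b c)
    · simp [cop]
    · obtain ⟨a, b, c⟩ := X.Qm.d_isM i j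
      simpa [cop] using And.intro a (And.intro b c)
  dd := by
    have h := X.φ_cy.2
    rw [δ_def] at h
    refine cop_ext ?_ ?_
    · rw [LinearMap.comp_assoc, cop_L, LinearMap.comp_add, ← LinearMap.comp_assoc, cop_L,
        ← LinearMap.comp_assoc, cop_R, LinearMap.add_comp, LinearMap.comp_assoc, X.Qp.dd,
        LinearMap.comp_assoc, LinearMap.comp_assoc, add_assoc, ← LinearMap.comp_add, h]
      simp
    · rw [LinearMap.comp_assoc, cop_R, ← LinearMap.comp_assoc, cop_R, LinearMap.comp_assoc, X.Qm.dd]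
      simp

omit [CharP k 2] in
lemma isC_cone {P' : Cx B} (n : ℤ) (Φ : (X.Qp.I ⊕ X.Qm.I →₀ B) →ₗ[B] (P'.I →₀ B)) :
    IsC (cone X) P' B n Φ ↔ IsC X.Qp P' B (n - 1) (Φ ∘ₗ iL) ∧ IsC X.Qm P' B n (Φ ∘ₗ iR) := by
  constructor
  · intro h
    refine ⟨fun i j => ?_, fun i j => ?_⟩
    · rw [LinearMap.comp_apply, iL_single]
      obtain ⟨a, b, c⟩ := h (.inl i) j
      exact ⟨fun hh => a (by change _ ≠ X.Qp.deg i - 1 + n; omega), b, c⟩
    · rw [LinearMap.comp_apply, iR_single]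
      exact h (.inr i) j
  · rintro ⟨h1, h2⟩ (i | i) j
    · have := h1 i j
      rw [LinearMap.comp_apply, iL_single] at this
      exact ⟨fun hh => this.1 (by change _ ≠ X.Qp.deg i - 1 + n at hh; omega), this.2⟩
    · have := h2 i j
      rw [LinearMap.comp_apply, iR_single] at this
      exact this

omit [CharP k 2] in
lemma δ_cone {P' : Cx B} (A : Ch X.Qp P' B) (C : Ch X.Qm P' B) :
    δ (cone X) P' B (cop A C) = cop (δ X.Qp P' B A + C ∘ₗ X.φ) (δ X.Qm P' B C) := by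
  have key : (cop A C ∘ₗ cop (iL ∘ₗ X.Qp.d + iR ∘ₗ X.φ) (iR ∘ₗ X.Qm.d) + P'.d ∘ₗ cop A C :
      (X.Qp.I ⊕ X.Qm.I →₀ B) →ₗ[B] (P'.I →₀ B)) =
      cop (δ X.Qp P' B A + C ∘ₗ X.φ) (δ X.Qm P' B C) := by
    rw [δ_def, δ_def]
    refine cop_ext ?_ ?_
    · rw [LinearMap.add_comp, LinearMap.comp_assoc, LinearMap.comp_assoc, cop_L, cop_L, cop_L,
        LinearMap.comp_add, ← LinearMap.comp_assoc, cop_L, ← LinearMap.comp_assoc, cop_R]
      abel
    · rw [LinearMap.add_comp, LinearMap.comp_assoc, LinearMap.comp_assoc, cop_R, cop_R, cop_R,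
        ← LinearMap.comp_assoc, cop_R]
  exact (δ_def _).trans key

omit [CharP k 2] in
lemma van_cone_iff {P' : Cx B} (n : ℤ) : Van (cone X) P' B n ↔
    ∀ (A : Ch X.Qp P' B) (C : Ch X.Qm P' B), IsC X.Qp P' B (n - 1) A → IsC X.Qm P' B n C →
      δ X.Qp P' B A + C ∘ₗ X.φ = 0 → δ X.Qm P' B C = 0 →
      ∃ (r : Ch X.Qp P' B) (v : Ch X.Qm P' B), IsC X.Qp P' B (n - 1 - 1) r ∧ IsC X.Qm P' B (n - 1) v ∧
        δ X.Qp P' B r + v ∘ₗ X.φ = A ∧ δ X.Qm P' B v = C := by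
  have e : ∀ Φ : (X.Qp.I ⊕ X.Qm.I →₀ B) →ₗ[B] (P'.I →₀ B), Φ = cop (Φ ∘ₗ iL) (Φ ∘ₗ iR) :=
    fun Φ => cop_ext (cop_L _ _).symm (cop_R _ _).symm
  constructor
  · intro h A C hA hC h1 h2
    obtain ⟨(Ψ : (X.Qp.I ⊕ X.Qm.I →₀ B) →ₗ[B] (P'.I →₀ B)), p1, p2⟩ := h (cop A C)
      ⟨(isC_cone X n _).2 ⟨by rwa [cop_L], by rwa [cop_R]⟩, (δ_cone X A C).trans (by
        rw [h1, h2]; exact cop_ext (cop_L _ _) (cop_R _ _))⟩
    obtain ⟨q1, q2⟩ := (isC_cone X _ _).1 p1
    rw [e Ψ] at p2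
    have p3 := (δ_cone X _ _).symm.trans p2
    refine ⟨_, _, q1, q2, ?_, ?_⟩
    · exact (cop_L _ _).symm.trans ((congrArg (· ∘ₗ iL) p3).trans (cop_L _ _))
    · exact (cop_R _ _).symm.trans ((congrArg (· ∘ₗ iR) p3).trans (cop_R _ _))
  · rintro h (Φ : (X.Qp.I ⊕ X.Qm.I →₀ B) →ₗ[B] (P'.I →₀ B)) ⟨h1, h2⟩
    obtain ⟨q1, q2⟩ := (isC_cone X _ _).1 h1
    rw [e Φ] at h2
    have p3 := (δ_cone X _ _).symm.trans h2
    obtain ⟨r, v, a, b, c, d⟩ := h _ _ q1 q2
      ((cop_L _ _).symm.trans (congrArg (· ∘ₗ iL) p3)) ((cop_R _ _).symm.trans (congrArg (· ∘ₗ iR) p3))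
    refine ⟨cop r v, (isC_cone X _ _).2 ⟨by rwa [cop_L], by rwa [cop_R]⟩, (δ_cone X r v).trans ?_⟩
    rw [c, d]; exact (e Φ).symm

omit [CharP k 2] in
lemma col_apply {P : Cx B} (i j : P.I) (o : (pt B).I) :
    P.col i (single j 1) o = P.one (single j 1) i := by
  obtain rfl : o = () := rfl
  exact single_eq_same

omit [CharP k 2] in
lemma col_cy : Cy X.Qm (pt B) B m (X.Qm.col X.im) := by
  classical
  refine ⟨fun i j => ?_, ext1 fun i => ?_⟩
  · rw [col_apply, one_single, single_apply]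
    split_ifs with h
    · subst h; simp [X.Qm.idem, X.deg_im, pt]
    · simp
  · rw [δ_def, pt_d, LinearMap.zero_comp, add_zero]
    change single () (X.Qm.one (X.Qm.d (single i 1)) X.im) = 0
    rw [one_apply, (X.Qm.d_isM i X.im).1 (by have := X.degm i; have := X.deg_im; omega)]
    simp

theorem col_cone (n : ℤ) : Van (cone X) (pt B) B n := by
  have h2 : (2 : B) = 0 := two_zero (k := k)
  refine (van_cone_iff X n).2 fun wp wm hp hm h1 h0 => ?_
  obtain ⟨k1, k2⟩ := col_cy X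
  have sm : ∀ (c : k) (n : ℤ), (n ≠ m → c = 0) → IsC X.Qm (pt B) B n (c • X.Qm.col X.im) :=
    fun c n hc => by
      by_cases h : n = m
      · rw [h]; exact isC_smul c k1
      · rw [hc h, zero_smul]; exact isC_zero n
  let c := X.χ (wm (single X.im 1) ())
  have hc : n ≠ m → c = 0 := fun h => by
    simp only [c]
    rw [(hm X.im ()).1 (by have := X.deg_im; change (0 : ℤ) ≠ _; omega), map_zero]
  obtain ⟨y, y1, y2⟩ := X.colm n (wm + c • X.Qm.col X.im)
    ⟨isC_add hm (sm c n hc), by rw [δ_add, δ_smul, h0, k2]; simp⟩ (by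
      rw [LinearMap.add_apply, Finsupp.add_apply, LinearMap.smul_apply, Finsupp.smul_apply,
        col_apply]
      simp [X.χ_im, c, CharTwo.add_self_eq_zero])
  have hx : IsC X.Qp (pt B) B (n - 1) (wp + y ∘ₗ X.φ) :=
    isC_add hp (zero_add (n - 1) ▸ isC_comp X.φ_cy.1 y1)
  have e1 : δ X.Qp (pt B) B (wp + y ∘ₗ X.φ) = c • (X.Qm.col X.im ∘ₗ X.φ) := by
    rw [δ_add, δ_comp h2, X.φ_cy.2, y2, LinearMap.comp_zero, zero_add, LinearMap.add_comp,
      ← add_assoc, h1, zero_add, LinearMap.smul_comp]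
  have c0 : c = 0 := by
    by_contra hne
    have hn : n = m := by by_contra h; exact hne (hc h)
    subst hn
    exact X.colp' ⟨c⁻¹ • (wp + y ∘ₗ X.φ), isC_smul _ hx, by
      rw [δ_smul, e1, smul_smul, inv_mul_cancel₀ hne, one_smul]⟩
  rw [c0, zero_smul] at e1
  rw [c0, zero_smul, add_zero] at y2
  obtain ⟨a1, c', a2⟩ := X.colp (n - 1) _ ⟨hx, e1⟩
  obtain ⟨c'', hc'', z, z1, z2⟩ : ∃ c'' : k, (n - 1 ≠ m → c'' = 0) ∧
      Bd X.Qp (pt B) B (n - 1) (wp + y ∘ₗ X.φ + c'' • (X.Qm.col X.im ∘ₗ X.φ)) := by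
    by_cases h : n - 1 = m
    · exact ⟨c', fun h' => absurd h h', a2⟩
    · exact ⟨0, fun _ => rfl, by simpa using a1 h⟩
  refine ⟨z, y + c'' • X.Qm.col X.im, z1, isC_add y1 (sm c'' _ hc''), ?_, ?_⟩
  · rw [z2, LinearMap.add_comp, LinearMap.smul_comp, add_assoc wp, add_assoc wp, map_add_self h2,
      add_zero]
  · rw [δ_add, δ_smul, k2, y2]; simp

theorem cone_pair (hK : KStmt) (n : ℤ) (A : Ch X.Qp X.Qm B) (C : Ch X.Qm X.Qm B)
    (hA : IsC X.Qp X.Qm B (n - 1) A) (hC : IsC X.Qm X.Qm B n C)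
    (h1 : δ X.Qp X.Qm B A + C ∘ₗ X.φ = 0) (h0 : δ X.Qm X.Qm B C = 0) :
    ∃ (r : Ch X.Qp X.Qm B) (v : Ch X.Qm X.Qm B), IsC X.Qp X.Qm B (n - 1 - 1) r ∧
      IsC X.Qm X.Qm B (n - 1) v ∧ δ X.Qp X.Qm B r + v ∘ₗ X.φ = A ∧ δ X.Qm X.Qm B v = C :=
  (van_cone_iff X n).1 ((hK B (two_zero (k := k)) (cone X) X.Qm B n).2 ⟨-m, X.degm⟩
    fun _ w hw _ => col_cone X _ w hw) A C hA hC h1 h0

end Crest.Agent.H5.Tk
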