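import Crest.Agent.H5.TkA

/-! Row 186: blocks of cochains over the dual numbers. -/

set_option autoImplicit false

noncomputable section
namespace Crest.Agent.H5.Tk
open MulOpposite Finsupp Crest.Agent.H6.Tk TrivSqZeroExt

section blocks
variable {B : Type} [Ring B] {I J L : Type}

def FF (g : J ↪ I) (x : I →₀ DualNumber B) : J →₀ B :=
  (x.comapDomain g g.injective.injOn).mapRange fst (by simp)
def SS (g : J ↪ I) (x : I →₀ DualNumber B) : J →₀ B :=
  (x.comapDomain g g.injective.injOn).mapRange snd (by simp)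
@[simp] lemma FF_apply (g : J ↪ I) (x : I →₀ DualNumber B) (j : J) : FF g x j = (x (g j)).fst := rfl
@[simp] lemma SS_apply (g : J ↪ I) (x : I →₀ DualNumber B) (j : J) : SS g x j = (x (g j)).snd := rfl
lemma FF_add (g : J ↪ I) (x y : I →₀ DualNumber B) : FF g (x + y) = FF g x + FF g y := by ext; simp
lemma SS_add (g : J ↪ I) (x y : I →₀ DualNumber B) : SS g (x + y) = SS g x + SS g y := by ext; simp
lemma FF_zero (g : J ↪ I) : FF g (0 : I →₀ DualNumber B) = 0 := by ext; simp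
lemma SS_zero (g : J ↪ I) : SS g (0 : I →₀ DualNumber B) = 0 := by ext; simp
lemma FF_smul (g : J ↪ I) (a : DualNumber B) (x : I →₀ DualNumber B) :
    FF g (a • x) = a.fst • FF g x := by ext; simp
lemma SS_smul (g : J ↪ I) (a : DualNumber B) (x : I →₀ DualNumber B) :
    SS g (a • x) = a.fst • SS g x + a.snd • FF g x := by ext; simp

def emb (f : J ↪ I) (x : J →₀ B) : I →₀ DualNumber B := x.sum fun j b => single (f j) (inl b)
def emb' (f : J ↪ I) (x : J →₀ B) : I →₀ DualNumber B := x.sum fun j b => single (f j) (inr b)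
lemma emb_add (f : J ↪ I) (x y : J →₀ B) : emb f (x + y) = emb f x + emb f y :=
  sum_add_index' (by simp) (by simp)
lemma emb'_add (f : J ↪ I) (x y : J →₀ B) : emb' f (x + y) = emb' f x + emb' f y :=
  sum_add_index' (by simp) (fun _ _ _ => by rw [inr_add, single_add])
lemma emb_single (f : J ↪ I) (j : J) (b : B) : emb f (single j b) = single (f j) (inl b) :=
  sum_single_index (by simp)
lemma emb'_single (f : J ↪ I) (j : J) (b : B) : emb' f (single j b) = single (f j) (inr b) :=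
  sum_single_index (by simp)
lemma emb_zero (f : J ↪ I) : emb f (0 : J →₀ B) = 0 := rfl
lemma emb'_zero (f : J ↪ I) : emb' f (0 : J →₀ B) = 0 := rfl

lemma emb_eq (f : J ↪ I) (x : J →₀ B) : emb f x = mapDomain f (x.mapRange inl (by simp)) := by
  rw [mapDomain, sum_mapRange_index (by simp)]; rfl
lemma emb'_eq (f : J ↪ I) (x : J →₀ B) : emb' f x = mapDomain f (x.mapRange inr (by simp)) := by
  rw [mapDomain, sum_mapRange_index (by simp)]; rfl

lemma FF_emb_same (f : J ↪ I) (x : J →₀ B) : FF f (emb f x) = x := by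
  ext j; simp [emb_eq, mapDomain_apply f.injective]
lemma SS_emb'_same (f : J ↪ I) (x : J →₀ B) : SS f (emb' f x) = x := by
  ext j; simp [emb'_eq, mapDomain_apply f.injective]
lemma FF_emb_ne {f : J ↪ I} {g : L ↪ I} (h : ∀ i j, f i ≠ g j) (x : J →₀ B) : FF g (emb f x) = 0 := by
  ext j; rw [FF_apply, emb_eq, mapDomain_of_notMem_range _ _ (by rintro ⟨i, hi⟩; exact h i j hi)]; rfl
lemma SS_emb'_ne {f : J ↪ I} {g : L ↪ I} (h : ∀ i j, f i ≠ g j) (x : J →₀ B) : SS g (emb' f x) = 0 := by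
  ext j; rw [SS_apply, emb'_eq, mapDomain_of_notMem_range _ _ (by rintro ⟨i, hi⟩; exact h i j hi)]; rfl
lemma SS_emb (f : J ↪ I) (g : L ↪ I) (x : J →₀ B) : SS g (emb f x) = 0 := by
  classical
  ext j; simp [emb, Finsupp.sum, single_apply, snd_sum, apply_ite snd]
lemma FF_emb' (f : J ↪ I) (g : L ↪ I) (x : J →₀ B) : FF g (emb' f x) = 0 := by
  classical
  ext j; simp [emb', Finsupp.sum, single_apply, fst_sum, apply_ite fst]
lemma single_split (f : J ↪ I) (j : J) (a : DualNumber B) :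
    single (f j) a = emb f (single j a.fst) + emb' f (single j a.snd) := by
  rw [emb_single, emb'_single, ← single_add, inl_fst_add_inr_snd_eq]

variable (Φ : (I →₀ DualNumber B) →ₗ[DualNumber B] (I →₀ DualNumber B)) (f : J ↪ I) (g : L ↪ I)

def b0 : (J →₀ B) →ₗ[B] (L →₀ B) := Finsupp.linearCombination B fun i => FF g (Φ (single (f i) 1))
def b1 : (J →₀ B) →ₗ[B] (L →₀ B) := Finsupp.linearCombination B fun i => SS g (Φ (single (f i) 1))
lemma b0_single (i : J) : b0 Φ f g (single i 1) = FF g (Φ (single (f i) 1)) := by simp [b0]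
lemma b1_single (i : J) : b1 Φ f g (single i 1) = SS g (Φ (single (f i) 1)) := by simp [b1]

lemma Φ_single (p : I) (a : DualNumber B) : Φ (single p a) = a • Φ (single p 1) := by
  rw [← map_smul]; simp

lemma FF_Φ_emb (x : J →₀ B) : FF g (Φ (emb f x)) = b0 Φ f g x := by
  induction x using Finsupp.induction_linear with
  | zero => rw [emb_zero, map_zero, map_zero, FF_zero]
  | add x y hx hy => rw [emb_add, map_add, map_add, FF_add, hx, hy]
  | single i b => rw [emb_single, Φ_single, FF_smul]; simp [b0]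
lemma SS_Φ_emb (x : J →₀ B) : SS g (Φ (emb f x)) = b1 Φ f g x := by
  induction x using Finsupp.induction_linear with
  | zero => rw [emb_zero, map_zero, map_zero, SS_zero]
  | add x y hx hy => rw [emb_add, map_add, map_add, SS_add, hx, hy]
  | single i b => rw [emb_single, Φ_single, SS_smul]; simp [b1]
lemma FF_Φ_emb' (x : J →₀ B) : FF g (Φ (emb' f x)) = 0 := by
  induction x using Finsupp.induction_linear with
  | zero => rw [emb'_zero, map_zero, FF_zero]
  | add x y hx hy => rw [emb'_add, map_add, FF_add, hx, hy, add_zero]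
  | single i b => rw [emb'_single, Φ_single, FF_smul]; simp
lemma SS_Φ_emb' (x : J →₀ B) : SS g (Φ (emb' f x)) = b0 Φ f g x := by
  induction x using Finsupp.induction_linear with
  | zero => rw [emb'_zero, map_zero, map_zero, SS_zero]
  | add x y hx hy => rw [emb'_add, map_add, map_add, SS_add, hx, hy]
  | single i b => rw [emb'_single, Φ_single, SS_smul]; simp [b0]
end blocks

variable {k B : Type} [Field k] [Ring B] [Algebra k B] {m : ℕ} {X : BD k B m} (Y : PD X)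

def l (w : ℕ) : X.Qp.I ↪ Y.P.I := ⟨fun i => Y.e (.inl (w, i)), fun i j h => by simpa using h⟩
def r (w : ℕ) : X.Qm.I ↪ Y.P.I := ⟨fun i => Y.e (.inr (w, i)), fun i j h => by simpa using h⟩

lemma cases_lr (p : Y.P.I) : (∃ w i, p = l Y w i) ∨ ∃ w i, p = r Y w i := by
  obtain ⟨x, rfl⟩ := Y.e.surjective p
  rcases x with ⟨w, i⟩ | ⟨w, i⟩
  exacts [Or.inl ⟨w, i, rfl⟩, Or.inr ⟨w, i, rfl⟩]

lemma wt_l (w : ℕ) (i : X.Qp.I) : Y.wt (l Y w i) = w := by simp [PD.wt, l]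
lemma wt_r (w : ℕ) (i : X.Qm.I) : Y.wt (r Y w i) = -1 - w := by simp [PD.wt, r]
lemma deg_l (w : ℕ) (i : X.Qp.I) : Y.P.deg (l Y w i) = X.Qp.deg i - w := Y.deg_l w i
lemma deg_r (w : ℕ) (i : X.Qm.I) : Y.P.deg (r Y w i) = X.Qm.deg i + w + 1 := Y.deg_r w i
lemma ε_l (w : ℕ) (i : X.Qp.I) : Y.P.ε (l Y w i) = inl (X.Qp.ε i) := Y.ε_l w i
lemma ε_r (w : ℕ) (i : X.Qm.I) : Y.P.ε (r Y w i) = inl (X.Qm.ε i) := Y.ε_r w i

lemma dl0 (i : X.Qp.I) : Y.P.d (single (l Y 0 i) 1) =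
    emb (l Y 0) (X.Qp.d (single i 1)) + emb' (r Y 0) (X.φ (single i 1)) := Y.d_l0 i
lemma dl (w : ℕ) (i : X.Qp.I) : Y.P.d (single (l Y (w + 1) i) 1) =
    emb (l Y (w + 1)) (X.Qp.d (single i 1)) + emb' (l Y w) (X.Qp.one (single i 1)) := by
  rw [one_single, emb'_single]; exact Y.d_l w i
lemma dr (w : ℕ) (i : X.Qm.I) : Y.P.d (single (r Y w i) 1) =
    emb (r Y w) (X.Qm.d (single i 1)) + emb' (r Y (w + 1)) (X.Qm.one (single i 1)) := by
  rw [one_single, emb'_single]; exact Y.d_r w i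

open Classical in
lemma F_ll (w w' : ℕ) (x : X.Qp.I →₀ B) : FF (l Y w) (emb (l Y w') x) = if w' = w then x else 0 := by
  split_ifs with h
  · rw [h, FF_emb_same]
  · exact FF_emb_ne (fun i j e => h (by simpa [l] using (show w' = w ∧ i = j by simpa [l] using e).1)) x
open Classical in
lemma F_rr (w w' : ℕ) (x : X.Qm.I →₀ B) : FF (r Y w) (emb (r Y w') x) = if w' = w then x else 0 := by
  split_ifs with h
  · rw [h, FF_emb_same]
  · exact FF_emb_ne (fun i j e => h (show w' = w ∧ i = j by simpa [r] using e).1) x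
lemma F_lr (w w' : ℕ) (x : X.Qm.I →₀ B) : FF (l Y w) (emb (r Y w') x) = 0 :=
  FF_emb_ne (fun i j e => by simp [l, r] at e) x
lemma F_rl (w w' : ℕ) (x : X.Qp.I →₀ B) : FF (r Y w) (emb (l Y w') x) = 0 :=
  FF_emb_ne (fun i j e => by simp [l, r] at e) x
open Classical in
lemma S_ll (w w' : ℕ) (x : X.Qp.I →₀ B) : SS (l Y w) (emb' (l Y w') x) = if w' = w then x else 0 := by
  split_ifs with h
  · rw [h, SS_emb'_same]
  · exact SS_emb'_ne (fun i j e => h (show w' = w ∧ i = j by simpa [l] using e).1) x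
open Classical in
lemma S_rr (w w' : ℕ) (x : X.Qm.I →₀ B) : SS (r Y w) (emb' (r Y w') x) = if w' = w then x else 0 := by
  split_ifs with h
  · rw [h, SS_emb'_same]
  · exact SS_emb'_ne (fun i j e => h (show w' = w ∧ i = j by simpa [r] using e).1) x
lemma S_lr (w w' : ℕ) (x : X.Qm.I →₀ B) : SS (l Y w) (emb' (r Y w') x) = 0 :=
  SS_emb'_ne (fun i j e => by simp [l, r] at e) x
lemma S_rl (w w' : ℕ) (x : X.Qp.I →₀ B) : SS (r Y w) (emb' (l Y w') x) = 0 :=
  SS_emb'_ne (fun i j e => by simp [l, r] at e) x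

/-! blocks of `d` -/
lemma b0d_ll (w w' : ℕ) : b0 Y.P.d (l Y w') (l Y w) = if w' = w then X.Qp.d else 0 := ext1 fun i => by
  rw [b0_single]
  cases w' <;> simp only [dl0, dl, FF_add, F_ll, FF_emb', add_zero] <;> split_ifs <;> rfl
lemma b0d_rr (w w' : ℕ) : b0 Y.P.d (r Y w') (r Y w) = if w' = w then X.Qm.d else 0 := ext1 fun i => by
  rw [b0_single]
  simp only [dr, FF_add, F_rr, FF_emb', add_zero]; split_ifs <;> rfl
lemma b0d_lr (w w' : ℕ) : b0 Y.P.d (l Y w') (r Y w) = 0 := ext1 fun i => by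
  rw [b0_single]
  cases w' <;> simp only [dl0, dl, FF_add, F_rl, FF_emb', add_zero] <;> rfl
lemma b0d_rl (w w' : ℕ) : b0 Y.P.d (r Y w') (l Y w) = 0 := ext1 fun i => by
  rw [b0_single]
  simp only [dr, FF_add, F_lr, FF_emb', add_zero]; rfl
lemma b1d_ll (w w' : ℕ) : b1 Y.P.d (l Y w') (l Y w) = if w' = w + 1 then X.Qp.one else 0 :=
  ext1 fun i => by
  rw [b1_single]
  cases w' <;> simp only [dl0, dl, SS_add, S_ll, S_lr, SS_emb, zero_add, Nat.add_right_cancel_iff]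
  · rfl
  · split_ifs <;> rfl
lemma b1d_rr (w w' : ℕ) : b1 Y.P.d (r Y w') (r Y w) = if w' + 1 = w then X.Qm.one else 0 :=
  ext1 fun i => by
  rw [b1_single]
  simp only [dr, SS_add, S_rr, SS_emb, zero_add]; split_ifs <;> rfl
lemma b1d_lr (w w' : ℕ) : b1 Y.P.d (l Y w') (r Y w) = if w' = 0 ∧ w = 0 then X.φ else 0 :=
  ext1 fun i => by
  rw [b1_single]
  cases w' <;> simp only [dl0, dl, SS_add, S_rr, S_rl, SS_emb, zero_add]
  · cases w <;> simp
  · simp
lemma b1d_rl (w w' : ℕ) : b1 Y.P.d (r Y w') (l Y w) = 0 := ext1 fun i => by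
  rw [b1_single]
  simp only [dr, SS_add, S_lr, SS_emb, zero_add]; rfl

lemma ind_lr {p : (Y.P.I →₀ DualNumber B) → Prop} (h0 : p 0) (ha : ∀ x y, p x → p y → p (x + y))
    (h1 : ∀ w x, p (emb (l Y w) x)) (h2 : ∀ w x, p (emb' (l Y w) x))
    (h3 : ∀ w x, p (emb (r Y w) x)) (h4 : ∀ w x, p (emb' (r Y w) x)) (x : Y.P.I →₀ DualNumber B) :
    p x := by
  induction x using Finsupp.induction_linear with
  | zero => exact h0
  | add x y hx hy => exact ha _ _ hx hy
  | single q a =>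
    rcases cases_lr Y q with ⟨w, i, rfl⟩ | ⟨w, i, rfl⟩ <;> rw [single_split]
    exacts [ha _ _ (h1 _ _) (h2 _ _), ha _ _ (h3 _ _) (h4 _ _)]

macro "blk" : tactic => `(tactic|
  (simp only [FF_Φ_emb, SS_Φ_emb, FF_Φ_emb', SS_Φ_emb', b0d_ll, b0d_rr, b0d_lr, b0d_rl, b1d_ll, b1d_rr,
    b1d_lr, b1d_rl, F_ll, F_rr, F_lr, F_rl, S_ll, S_rr, S_lr, S_rl, SS_emb, FF_emb', map_zero,
    zero_add, add_zero, LinearMap.zero_apply] <;> (try split_ifs) <;> (try simp_all) <;> (try omega)))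

lemma D1 (w : ℕ) (x : Y.P.I →₀ DualNumber B) : FF (l Y w) (Y.P.d x) = X.Qp.d (FF (l Y w) x) := by
  induction x using ind_lr Y with
  | h0 => simp [FF_zero]
  | ha x y hx hy => simp only [map_add, FF_add, hx, hy]
  | _ => blk
lemma D2 (w : ℕ) (x : Y.P.I →₀ DualNumber B) :
    SS (l Y w) (Y.P.d x) = X.Qp.d (SS (l Y w) x) + X.Qp.one (FF (l Y (w + 1)) x) := by
  induction x using ind_lr Y with
  | h0 => simp [FF_zero, SS_zero]
  | ha x y hx hy => simp only [map_add, FF_add, SS_add, hx, hy]; abel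
  | _ => blk
lemma D3 (w : ℕ) (x : Y.P.I →₀ DualNumber B) : FF (r Y w) (Y.P.d x) = X.Qm.d (FF (r Y w) x) := by
  induction x using ind_lr Y with
  | h0 => simp [FF_zero]
  | ha x y hx hy => simp only [map_add, FF_add, hx, hy]
  | _ => blk
lemma D4 (x : Y.P.I →₀ DualNumber B) :
    SS (r Y 0) (Y.P.d x) = X.Qm.d (SS (r Y 0) x) + X.φ (FF (l Y 0) x) := by
  induction x using ind_lr Y with
  | h0 => simp [FF_zero, SS_zero]
  | ha x y hx hy => simp only [map_add, FF_add, SS_add, hx, hy]; abel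
  | _ => blk
lemma D5 (w : ℕ) (x : Y.P.I →₀ DualNumber B) :
    SS (r Y (w + 1)) (Y.P.d x) = X.Qm.d (SS (r Y (w + 1)) x) + X.Qm.one (FF (r Y w) x) := by
  induction x using ind_lr Y with
  | h0 => simp [FF_zero, SS_zero]
  | ha x y hx hy => simp only [map_add, FF_add, SS_add, hx, hy]; abel
  | _ => blk

variable (Φ : Ch Y.P Y.P (DualNumber B))

lemma δ_ll0 (w : ℕ) : b0 (δ Y.P Y.P _ Φ) (l Y w) (l Y w) = δ X.Qp X.Qp B (b0 Φ (l Y w) (l Y w)) :=
  ext1 fun i => by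
  rw [δ_def, δ_def]
  simp only [b0_single, LinearMap.add_apply, LinearMap.comp_apply, FF_add, D1]
  cases w <;> simp only [dl0, dl, map_add, FF_add, FF_Φ_emb, FF_Φ_emb', add_zero]
lemma δ_rr0 (w : ℕ) : b0 (δ Y.P Y.P _ Φ) (r Y w) (r Y w) = δ X.Qm X.Qm B (b0 Φ (r Y w) (r Y w)) :=
  ext1 fun i => by
  rw [δ_def, δ_def]
  simp only [b0_single, LinearMap.add_apply, LinearMap.comp_apply, FF_add, D3, dr, map_add,
    FF_Φ_emb, FF_Φ_emb', add_zero]
lemma δ_ll1 (w : ℕ) : b1 (δ Y.P Y.P _ Φ) (l Y (w + 1)) (l Y w) =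
    δ X.Qp X.Qp B (b1 Φ (l Y (w + 1)) (l Y w)) + b0 Φ (l Y w) (l Y w) ∘ₗ X.Qp.one +
      X.Qp.one ∘ₗ b0 Φ (l Y (w + 1)) (l Y (w + 1)) := ext1 fun i => by
  rw [δ_def, δ_def]
  simp only [b0_single, b1_single, LinearMap.add_apply, LinearMap.comp_apply, SS_add, D2, dl, map_add,
    SS_Φ_emb, SS_Φ_emb']
  abel
lemma δ_lr1 : b1 (δ Y.P Y.P _ Φ) (l Y 0) (r Y 0) =
    δ X.Qp X.Qm B (b1 Φ (l Y 0) (r Y 0)) + b0 Φ (r Y 0) (r Y 0) ∘ₗ X.φ +
      X.φ ∘ₗ b0 Φ (l Y 0) (l Y 0) := ext1 fun i => by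
  rw [δ_def, δ_def]
  simp only [b0_single, b1_single, LinearMap.add_apply, LinearMap.comp_apply, SS_add, D4, dl0, map_add,
    SS_Φ_emb, SS_Φ_emb']
  abel
lemma δ_rr1 (w : ℕ) : b1 (δ Y.P Y.P _ Φ) (r Y w) (r Y (w + 1)) =
    δ X.Qm X.Qm B (b1 Φ (r Y w) (r Y (w + 1))) + b0 Φ (r Y (w + 1)) (r Y (w + 1)) ∘ₗ X.Qm.one +
      X.Qm.one ∘ₗ b0 Φ (r Y w) (r Y w) := ext1 fun i => by
  rw [δ_def, δ_def]
  simp only [b0_single, b1_single, LinearMap.add_apply, LinearMap.comp_apply, SS_add, D5, dr, map_add,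
    SS_Φ_emb, SS_Φ_emb']
  abel

/-- weight zero cochains -/
def W0 : Prop := ∀ p p', (Y.wt p' ≠ Y.wt p → (Φ (single p 1) p').fst = 0) ∧
  (Y.wt p' ≠ Y.wt p - 1 → (Φ (single p 1) p').snd = 0)

lemma ent0 {J L : Type} (f : J ↪ Y.P.I) (g : L ↪ Y.P.I) (i : J) (j : L) :
    (Φ (single (f i) 1) (g j)).fst = b0 Φ f g (single i 1) j := by rw [b0_single, FF_apply]
lemma ent1 {J L : Type} (f : J ↪ Y.P.I) (g : L ↪ Y.P.I) (i : J) (j : L) :
    (Φ (single (f i) 1) (g j)).snd = b1 Φ f g (single i 1) j := by rw [b1_single, SS_apply]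

lemma W0_d : W0 Y Y.P.d := fun p p' => by
  rcases cases_lr Y p with ⟨w, i, rfl⟩ | ⟨w, i, rfl⟩ <;>
    rcases cases_lr Y p' with ⟨w', j, rfl⟩ | ⟨w', j, rfl⟩ <;>
    simp only [ent0, ent1, wt_l, wt_r, b0d_ll, b0d_rr, b0d_lr, b0d_rl, b1d_ll, b1d_rr, b1d_lr,
      b1d_rl] <;> constructor <;> intro h <;> first | rfl | (rw [if_neg (by omega)]; rfl)

end Crest.Agent.H5.Tk
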