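import Crest.Agent.H5.TkB

/-! Row 186: weight multipliers. -/

set_option autoImplicit false

noncomputable section
namespace Crest.Agent.H5.Tk
open MulOpposite Finsupp Crest.Agent.H6.Tk TrivSqZeroExt

variable {k B : Type} [Field k] [Ring B] [Algebra k B]

def mu (g : ℤ → k) (ω : ℤ) (a : DualNumber B) : DualNumber B :=
  inl (g ω • a.fst) + inr (g (ω + 1) • a.snd)

@[simp] lemma mu_fst (g : ℤ → k) (ω : ℤ) (a : DualNumber B) : (mu g ω a).fst = g ω • a.fst := by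
  simp [mu]
@[simp] lemma mu_snd (g : ℤ → k) (ω : ℤ) (a : DualNumber B) :
    (mu g ω a).snd = g (ω + 1) • a.snd := by simp [mu]
lemma mu_zero (g : ℤ → k) (ω : ℤ) : mu g ω (0 : DualNumber B) = 0 := by ext <;> simp
lemma mu_add (g : ℤ → k) (ω : ℤ) (a b : DualNumber B) : mu g ω (a + b) = mu g ω a + mu g ω b := by
  ext <;> simp
lemma mu_sum (g : ℤ → k) (ω : ℤ) {ι : Type} (s : Finset ι) (f : ι → DualNumber B) :
    mu g ω (∑ i ∈ s, f i) = ∑ i ∈ s, mu g ω (f i) := by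
  classical
  induction s using Finset.induction_on with
  | empty => simp [mu_zero]
  | insert a s h ih => rw [Finset.sum_insert h, Finset.sum_insert h, mu_add, ih]

lemma mu_mul_left (g : ℤ → k) {ω ω' : ℤ} (a b : DualNumber B) (h0 : ω' ≠ ω → b.fst = 0)
    (h1 : ω' ≠ ω + 1 → b.snd = 0) : mu g ω (b * a) = b * mu g ω' a := by
  by_cases e0 : ω' = ω
  · have := h1 (by omega)
    subst e0
    ext <;> simp [this]
  · have z := h0 e0
    by_cases e1 : ω' = ω + 1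
    · subst e1
      ext <;> simp [z]
    · have z' := h1 e1
      ext <;> simp [z, z']

lemma mu_mul_right (g : ℤ → k) {ω ω' : ℤ} (a b : DualNumber B) (h0 : ω' ≠ ω → b.fst = 0)
    (h1 : ω' ≠ ω + 1 → b.snd = 0) : mu g ω (a * b) = mu g ω' a * b := by
  by_cases e0 : ω' = ω
  · have := h1 (by omega)
    subst e0
    ext <;> simp [this]
  · have z := h0 e0
    by_cases e1 : ω' = ω + 1
    · subst e1
      ext <;> simp [z]
    · have z' := h1 e1
      ext <;> simp [z, z']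

variable {m : ℕ} {X : BD k B m} (Y : PD X)

def Mg (g : ℤ → k) (u : Ch Y.P Y.P (DualNumber B)) : Ch Y.P Y.P (DualNumber B) :=
  Finsupp.linearCombination (DualNumber B) fun i =>
    (u (single i 1)).sum fun j a => single j (mu g (Y.wt j - Y.wt i) a)

lemma Mg_ent (g : ℤ → k) (u : Ch Y.P Y.P (DualNumber B)) (i j : Y.P.I) :
    Mg Y g u (single i 1) j = mu g (Y.wt j - Y.wt i) (u (single i 1) j) := by
  classical
  simp only [Mg, linearCombination_single, one_smul, Finsupp.sum, Finsupp.finsetSum_apply,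
    single_apply, Finset.sum_ite_eq', mem_support_iff]
  split_ifs with h
  · rfl
  · rw [not_not.1 h, mu_zero]

lemma ext2 {u v : Ch Y.P Y.P (DualNumber B)} (h : ∀ i j, u (single i 1) j = v (single i 1) j) :
    u = v := ext1 fun i => Finsupp.ext (h i)

lemma Mg_add (g : ℤ → k) (u v : Ch Y.P Y.P (DualNumber B)) : Mg Y g (u + v) = Mg Y g u + Mg Y g v :=
  ext2 Y fun i j => by simp only [Mg_ent, LinearMap.add_apply, Finsupp.add_apply, mu_add]

lemma Mg_zero (g : ℤ → k) : Mg Y g 0 = 0 := ext2 Y fun i j => by simp [Mg_ent, mu_zero]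

lemma Mg_Mg (g h : ℤ → k) (u : Ch Y.P Y.P (DualNumber B)) : Mg Y g (Mg Y h u) = Mg Y (g * h) u :=
  ext2 Y fun i j => by simp only [Mg_ent]; ext <;> simp [mul_smul]

lemma Mg_add' (g h : ℤ → k) (u : Ch Y.P Y.P (DualNumber B)) :
    Mg Y (g + h) u = Mg Y g u + Mg Y h u :=
  ext2 Y fun i j => by
    simp only [Mg_ent, LinearMap.add_apply, Finsupp.add_apply]; ext <;> simp [add_smul]

lemma Mg_one (u : Ch Y.P Y.P (DualNumber B)) : Mg Y 1 u = u :=
  ext2 Y fun i j => by simp only [Mg_ent]; ext <;> simp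

lemma ε_snd (p : Y.P.I) : (Y.P.ε p).snd = 0 := by
  rcases cases_lr Y p with ⟨w, i, rfl⟩ | ⟨w, i, rfl⟩ <;> simp [ε_l, ε_r]

lemma isC_Mg (g : ℤ → k) {n : ℤ} {u : Ch Y.P Y.P (DualNumber B)} (h : IsC Y.P Y.P _ n u) :
    IsC Y.P Y.P _ n (Mg Y g u) := fun i j => by
  obtain ⟨a, b, c⟩ := h i j
  rw [op_smul_eq_mul] at c ⊢
  rw [smul_eq_mul] at b ⊢
  rw [Mg_ent]
  refine ⟨fun hh => by rw [a hh, mu_zero], ?_, ?_⟩
  · rw [← mu_mul_left g _ _ (fun h => absurd rfl h) (fun _ => ε_snd Y i), b]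
  · rw [← mu_mul_right g _ _ (fun h => absurd rfl h) (fun _ => ε_snd Y j), c]

lemma Mg_comp (g : ℤ → k) (u t : Ch Y.P Y.P (DualNumber B)) (ht : W0 Y t) :
    Mg Y g (u ∘ₗ t) = Mg Y g u ∘ₗ t := ext2 Y fun i l => by
  rw [Mg_ent, LinearMap.comp_apply, LinearMap.comp_apply, app_eq u, app_eq (Mg Y g u), Finsupp.sum,
    Finsupp.sum, mu_sum]
  refine Finset.sum_congr rfl fun j _ => ?_
  rw [Mg_ent]
  exact mu_mul_left g _ _ (fun h => (ht i j).1 (by omega)) (fun h => (ht i j).2 (by omega))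

lemma comp_Mg (g : ℤ → k) (u t : Ch Y.P Y.P (DualNumber B)) (ht : W0 Y t) :
    Mg Y g (t ∘ₗ u) = t ∘ₗ Mg Y g u := ext2 Y fun i l => by
  rw [Mg_ent, LinearMap.comp_apply, LinearMap.comp_apply, app_eq t, app_eq t, Finsupp.sum, mu_sum,
    Finsupp.sum_of_support_subset (s := (u (single i 1)).support) _ (fun j hj => by
      rw [mem_support_iff] at hj ⊢
      intro h; rw [Mg_ent, h, mu_zero] at hj; exact hj rfl) _ (by simp)]
  refine Finset.sum_congr rfl fun j _ => ?_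
  rw [Mg_ent]
  exact mu_mul_right g _ _ (fun h => (ht j l).1 (by omega)) (fun h => (ht j l).2 (by omega))

lemma Mg_δ (g : ℤ → k) (u : Ch Y.P Y.P (DualNumber B)) :
    Mg Y g (δ Y.P Y.P _ u) = δ Y.P Y.P _ (Mg Y g u) := by
  rw [δ_def, δ_def, Mg_add, Mg_comp Y g _ _ (W0_d Y), comp_Mg Y g _ _ (W0_d Y)]

lemma cy_Mg (g : ℤ → k) {n : ℤ} {u : Ch Y.P Y.P (DualNumber B)} (h : Cy Y.P Y.P _ n u) :
    Cy Y.P Y.P _ n (Mg Y g u) := ⟨isC_Mg Y g h.1, by rw [← Mg_δ, h.2, Mg_zero]⟩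

lemma bd_Mg (g : ℤ → k) {n : ℤ} {u : Ch Y.P Y.P (DualNumber B)} (h : Bd Y.P Y.P _ n u) :
    Bd Y.P Y.P _ n (Mg Y g u) := by
  obtain ⟨v, a, rfl⟩ := h
  exact ⟨Mg Y g v, isC_Mg Y g a, (Mg_δ Y g v).symm⟩

lemma cj_eq {q : k} (hq : q ≠ 0) (u : Ch Y.P Y.P (DualNumber B)) :
    Y.cj q u = Mg Y (fun ω => q ^ ω) u := by
  unfold PD.cj Mg
  congr 1
  funext i
  congr 1
  funext j a
  congr 1
  ext <;> simp [σ, zpow_add_one₀ hq, mul_smul]

lemma Mg_W0 (g : ℤ → k) (hg : g 0 = 1) {u : Ch Y.P Y.P (DualNumber B)} (h : W0 Y u) : Mg Y g u = u :=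
  ext2 Y fun i j => by
    rw [Mg_ent]
    ext
    · by_cases e : Y.wt j = Y.wt i
      · simp [e, hg]
      · simp [(h i j).1 e]
    · by_cases e : Y.wt j = Y.wt i - 1
      · simp [e, hg]
      · simp [(h i j).2 e]

def π0 (k : Type) [Field k] (ω : ℤ) : k := if ω = 0 then 1 else 0

lemma W0_Mg (u : Ch Y.P Y.P (DualNumber B)) : W0 Y (Mg Y (π0 k) u) := fun i j => by
  rw [Mg_ent]
  constructor <;> intro h
  · rw [mu_fst, π0, if_neg (by omega), zero_smul]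
  · rw [mu_snd, π0, if_neg (by omega), zero_smul]

lemma W0_δ {u : Ch Y.P Y.P (DualNumber B)} (h : W0 Y u) : W0 Y (δ Y.P Y.P _ u) := by
  rw [← Mg_W0 Y (π0 k) (by simp [π0]) h, ← Mg_δ]; exact W0_Mg Y _

lemma W0_one : W0 Y Y.P.one := fun i j => by
  classical
  rw [one_single, single_apply]
  split_ifs with h
  · subst h; exact ⟨fun h => absurd rfl h, fun _ => ε_snd Y i⟩
  · simp

lemma W0_add_smul {u v : Ch Y.P Y.P (DualNumber B)} (a : k) (h : W0 Y u) (h' : W0 Y v) :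
    W0 Y (u + a • v) := fun i j =>
  ⟨fun e => by simp [(h i j).1 e, (h' i j).1 e], fun e => by simp [(h i j).2 e, (h' i j).2 e]⟩

end Crest.Agent.H5.Tk
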