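import Crest.Agent.H5.TkC

/-! Row 186: weight zero cocycles and the twist statement. -/

set_option autoImplicit false

noncomputable section
namespace Crest.Agent.H5.Tk
open MulOpposite Finsupp Crest.Agent.H6.Tk TrivSqZeroExt

variable {k B : Type} [Field k] [Ring B] [Algebra k B] {m : ℕ} {X : BD k B m} (Y : PD X)

/-- the condition `IsC` at one entry -/
def Ent (n : ℤ) (Φ : Ch Y.P Y.P (DualNumber B)) (i j : Y.P.I) : Prop :=
  (Y.P.deg j ≠ Y.P.deg i + n → Φ (single i 1) j = 0) ∧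
    Y.P.ε i • Φ (single i 1) j = Φ (single i 1) j ∧ op (Y.P.ε j) • Φ (single i 1) j = Φ (single i 1) j

lemma ent_iff {P1 P2 : Cx B} (f : P1.I ↪ Y.P.I) (g : P2.I ↪ Y.P.I) (c : ℤ)
    (hd : ∀ i j, Y.P.deg (g j) - Y.P.deg (f i) = P2.deg j - P1.deg i + c)
    (hf : ∀ i, Y.P.ε (f i) = inl (P1.ε i)) (hg : ∀ j, Y.P.ε (g j) = inl (P2.ε j)) (n : ℤ)
    (Φ : Ch Y.P Y.P (DualNumber B)) :
    (∀ i j, Ent Y n Φ (f i) (g j)) ↔
      IsC P1 P2 B (n - c) (b0 Φ f g) ∧ IsC P1 P2 B (n - c) (b1 Φ f g) := by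
  have key : ∀ i j, Ent Y n Φ (f i) (g j) ↔
      ((P2.deg j ≠ P1.deg i + (n - c) → b0 Φ f g (single i 1) j = 0) ∧
        P1.ε i • b0 Φ f g (single i 1) j = b0 Φ f g (single i 1) j ∧
        op (P2.ε j) • b0 Φ f g (single i 1) j = b0 Φ f g (single i 1) j) ∧
      ((P2.deg j ≠ P1.deg i + (n - c) → b1 Φ f g (single i 1) j = 0) ∧
        P1.ε i • b1 Φ f g (single i 1) j = b1 Φ f g (single i 1) j ∧
        op (P2.ε j) • b1 Φ f g (single i 1) j = b1 Φ f g (single i 1) j) := fun i j => by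
    have e : Y.P.deg (g j) ≠ Y.P.deg (f i) + n ↔ P2.deg j ≠ P1.deg i + (n - c) := by
      have := hd i j; omega
    rw [Ent, ← ent0, ← ent1, e, hf, hg]
    generalize Φ (single (f i) 1) (g j) = a
    simp only [TrivSqZeroExt.ext_iff, smul_eq_mul, op_smul_eq_mul, fst_mul, DualNumber.snd_mul,
      fst_inl, snd_inl, zero_mul, mul_zero, add_zero, zero_add, fst_zero, snd_zero]
    tauto
  simp only [key, forall_and]
  unfold IsC IsM
  simp only [forall_and]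

lemma ent_ll (w w' : ℕ) (n : ℤ) (Φ : Ch Y.P Y.P (DualNumber B)) :
    (∀ i j, Ent Y n Φ (l Y w' i) (l Y w j)) ↔ IsC X.Qp X.Qp B (n - (w' - w)) (b0 Φ (l Y w') (l Y w)) ∧
      IsC X.Qp X.Qp B (n - (w' - w)) (b1 Φ (l Y w') (l Y w)) :=
  ent_iff Y _ _ _ (fun i j => by rw [deg_l, deg_l]; ring) (ε_l Y _) (ε_l Y _) n Φ
lemma ent_lr (w w' : ℕ) (n : ℤ) (Φ : Ch Y.P Y.P (DualNumber B)) :
    (∀ i j, Ent Y n Φ (l Y w' i) (r Y w j)) ↔
      IsC X.Qp X.Qm B (n - (w' + w + 1)) (b0 Φ (l Y w') (r Y w)) ∧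
      IsC X.Qp X.Qm B (n - (w' + w + 1)) (b1 Φ (l Y w') (r Y w)) :=
  ent_iff Y _ _ _ (fun i j => by rw [deg_l, deg_r]; ring) (ε_l Y _) (ε_r Y _) n Φ
lemma ent_rl (w w' : ℕ) (n : ℤ) (Φ : Ch Y.P Y.P (DualNumber B)) :
    (∀ i j, Ent Y n Φ (r Y w' i) (l Y w j)) ↔
      IsC X.Qm X.Qp B (n - (-w' - w - 1)) (b0 Φ (r Y w') (l Y w)) ∧
      IsC X.Qm X.Qp B (n - (-w' - w - 1)) (b1 Φ (r Y w') (l Y w)) :=
  ent_iff Y _ _ _ (fun i j => by rw [deg_l, deg_r]; ring) (ε_r Y _) (ε_l Y _) n Φ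
lemma ent_rr (w w' : ℕ) (n : ℤ) (Φ : Ch Y.P Y.P (DualNumber B)) :
    (∀ i j, Ent Y n Φ (r Y w' i) (r Y w j)) ↔ IsC X.Qm X.Qm B (n - (w - w')) (b0 Φ (r Y w') (r Y w)) ∧
      IsC X.Qm X.Qm B (n - (w - w')) (b1 Φ (r Y w') (r Y w)) :=
  ent_iff Y _ _ _ (fun i j => by rw [deg_r, deg_r]; ring) (ε_r Y _) (ε_r Y _) n Φ

lemma W0_ext {Φ Ψ : Ch Y.P Y.P (DualNumber B)} (hΦ : W0 Y Φ) (hΨ : W0 Y Ψ)
    (h1 : ∀ w, b0 Φ (l Y w) (l Y w) = b0 Ψ (l Y w) (l Y w))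
    (h2 : ∀ w, b0 Φ (r Y w) (r Y w) = b0 Ψ (r Y w) (r Y w))
    (h3 : ∀ w, b1 Φ (l Y (w + 1)) (l Y w) = b1 Ψ (l Y (w + 1)) (l Y w))
    (h4 : b1 Φ (l Y 0) (r Y 0) = b1 Ψ (l Y 0) (r Y 0))
    (h5 : ∀ w, b1 Φ (r Y w) (r Y (w + 1)) = b1 Ψ (r Y w) (r Y (w + 1))) : Φ = Ψ :=
  ext2 Y fun p p' => by
  refine TrivSqZeroExt.ext ?_ ?_
  · by_cases e : Y.wt p' = Y.wt p
    · rcases cases_lr Y p with ⟨w, i, rfl⟩ | ⟨w, i, rfl⟩ <;>
        rcases cases_lr Y p' with ⟨w', j, rfl⟩ | ⟨w', j, rfl⟩ <;> simp only [wt_l, wt_r] at e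
      · obtain rfl : w' = w := by omega
        rw [ent0, ent0, h1]
      · omega
      · omega
      · obtain rfl : w' = w := by omega
        rw [ent0, ent0, h2]
    · rw [(hΦ p p').1 e, (hΨ p p').1 e]
  · by_cases e : Y.wt p' = Y.wt p - 1
    · rcases cases_lr Y p with ⟨w, i, rfl⟩ | ⟨w, i, rfl⟩ <;>
        rcases cases_lr Y p' with ⟨w', j, rfl⟩ | ⟨w', j, rfl⟩ <;> simp only [wt_l, wt_r] at e
      · obtain rfl : w = w' + 1 := by omega
        rw [ent1, ent1, h3]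
      · obtain rfl : w = 0 := by omega
        obtain rfl : w' = 0 := by omega
        rw [ent1, ent1, h4]
      · omega
      · obtain rfl : w' = w + 1 := by omega
        rw [ent1, ent1, h5]
    · rw [(hΦ p p').2 e, (hΨ p p').2 e]

section mk
variable (vp : ℕ → Ch X.Qp X.Qp B) (vm : ℕ → Ch X.Qm X.Qm B) (r0 : Ch X.Qp X.Qm B)

def mkW : Ch Y.P Y.P (DualNumber B) := Finsupp.linearCombination (DualNumber B) fun p =>
  Sum.elim (fun x => emb (l Y x.1) (vp x.1 (single x.2 1)) +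
      emb' (r Y 0) (if x.1 = 0 then r0 (single x.2 1) else 0))
    (fun x => emb (r Y x.1) (vm x.1 (single x.2 1))) (Y.e.symm p)

lemma mkW_l (w : ℕ) (i : X.Qp.I) : mkW Y vp vm r0 (single (l Y w i) 1) =
    emb (l Y w) (vp w (single i 1)) + emb' (r Y 0) (if w = 0 then r0 (single i 1) else 0) := by
  simp [mkW, l]
lemma mkW_r (w : ℕ) (i : X.Qm.I) : mkW Y vp vm r0 (single (r Y w i) 1) =
    emb (r Y w) (vm w (single i 1)) := by
  simp [mkW, r]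

lemma m0_ll (w w' : ℕ) : b0 (mkW Y vp vm r0) (l Y w') (l Y w) = if w' = w then vp w' else 0 :=
  ext1 fun i => by
  rw [b0_single, mkW_l, FF_add, F_ll, FF_emb', add_zero]; split_ifs <;> rfl
lemma m0_lr (w w' : ℕ) : b0 (mkW Y vp vm r0) (l Y w') (r Y w) = 0 := ext1 fun i => by
  rw [b0_single, mkW_l, FF_add, F_rl, FF_emb', add_zero]; rfl
lemma m0_rl (w w' : ℕ) : b0 (mkW Y vp vm r0) (r Y w') (l Y w) = 0 := ext1 fun i => by
  rw [b0_single, mkW_r, F_lr]; rfl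
lemma m0_rr (w w' : ℕ) : b0 (mkW Y vp vm r0) (r Y w') (r Y w) = if w' = w then vm w' else 0 :=
  ext1 fun i => by
  rw [b0_single, mkW_r, F_rr]; split_ifs <;> rfl
lemma m1_ll (w w' : ℕ) : b1 (mkW Y vp vm r0) (l Y w') (l Y w) = 0 := ext1 fun i => by
  rw [b1_single, mkW_l, SS_add, SS_emb, S_lr, add_zero]; rfl
lemma m1_lr (w w' : ℕ) : b1 (mkW Y vp vm r0) (l Y w') (r Y w) = if w' = 0 ∧ w = 0 then r0 else 0 :=
  ext1 fun i => by
  rw [b1_single, mkW_l, SS_add, SS_emb, S_rr, zero_add]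
  cases w <;> cases w' <;> simp
lemma m1_rl (w w' : ℕ) : b1 (mkW Y vp vm r0) (r Y w') (l Y w) = 0 := ext1 fun i => by
  rw [b1_single, mkW_r, SS_emb]; rfl
lemma m1_rr (w w' : ℕ) : b1 (mkW Y vp vm r0) (r Y w') (r Y w) = 0 := ext1 fun i => by
  rw [b1_single, mkW_r, SS_emb]; rfl

lemma W0_mkW : W0 Y (mkW Y vp vm r0) := fun p p' => by
  rcases cases_lr Y p with ⟨w, i, rfl⟩ | ⟨w, i, rfl⟩ <;>
    rcases cases_lr Y p' with ⟨w', j, rfl⟩ | ⟨w', j, rfl⟩ <;>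
    simp only [ent0, ent1, wt_l, wt_r, m0_ll, m0_rr, m0_lr, m0_rl, m1_ll, m1_rr, m1_lr,
      m1_rl] <;> constructor <;> intro h <;> first | rfl | (rw [if_neg (by omega)]; rfl)

lemma isC_mkW {n : ℤ} (hp : ∀ w, IsC X.Qp X.Qp B n (vp w)) (hm : ∀ w, IsC X.Qm X.Qm B n (vm w))
    (hr : IsC X.Qp X.Qm B (n - 1) r0) : IsC Y.P Y.P _ n (mkW Y vp vm r0) := fun p p' => by
  rcases cases_lr Y p with ⟨w, i, rfl⟩ | ⟨w, i, rfl⟩ <;>
    rcases cases_lr Y p' with ⟨w', j, rfl⟩ | ⟨w', j, rfl⟩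
  · refine (ent_ll Y w' w n _).2 ⟨?_, ?_⟩ i j
    · rw [m0_ll]; split_ifs with h
      · subst h; simpa using hp w
      · exact isC_zero _
    · rw [m1_ll]; exact isC_zero _
  · refine (ent_lr Y w' w n _).2 ⟨?_, ?_⟩ i j
    · rw [m0_lr]; exact isC_zero _
    · rw [m1_lr]; split_ifs with h
      · obtain ⟨rfl, rfl⟩ := h; simpa using hr
      · exact isC_zero _
  · refine (ent_rl Y w' w n _).2 ⟨?_, ?_⟩ i j
    · rw [m0_rl]; exact isC_zero _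
    · rw [m1_rl]; exact isC_zero _
  · refine (ent_rr Y w' w n _).2 ⟨?_, ?_⟩ i j
    · rw [m0_rr]; split_ifs with h
      · subst h; simpa using hm w
      · exact isC_zero _
    · rw [m1_rr]; exact isC_zero _
end mk

lemma b0_zero {I J L : Type} (f : J ↪ I) (g : L ↪ I) :
    b0 (0 : (I →₀ DualNumber B) →ₗ[DualNumber B] (I →₀ DualNumber B)) f g = 0 :=
  ext1 fun i => by rw [b0_single]; exact FF_zero g
lemma b1_zero {I J L : Type} (f : J ↪ I) (g : L ↪ I) :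
    b1 (0 : (I →₀ DualNumber B) →ₗ[DualNumber B] (I →₀ DualNumber B)) f g = 0 :=
  ext1 fun i => by rw [b1_single]; exact SS_zero g

lemma δ_zero' {R : Type} [Ring R] {P P' : Cx R} : δ P P' R 0 = 0 := by simp [δ_def]

lemma solve2 {R : Type} [Ring R] (h2 : (2 : R) = 0) {M N : Type} [AddCommGroup M] [Module R M]
    [AddCommGroup N] [Module R N] {x y : M →ₗ[R] N} (h : x + y = 0) : x = y := by
  rw [← add_zero x, ← map_add_self h2 y, ← add_assoc, h, zero_add]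

variable [CharP k 2]

theorem w0_bd (hK : KStmt) (n : ℤ) (u : Ch Y.P Y.P (DualNumber B)) (hu : Cy Y.P Y.P _ n u)
    (hw : W0 Y u) (hb : Bd X.Qp X.Qp B n (b0 u (l Y 0) (l Y 0))) : Bd Y.P Y.P _ n u := by
  have h2 : (2 : B) = 0 := two_zero (k := k)
  obtain ⟨v0, c0, e0⟩ := hb
  have cll : ∀ w, IsC X.Qp X.Qp B n (b0 u (l Y w) (l Y w)) := fun w => by
    simpa using ((ent_ll Y w w n u).1 fun i j => hu.1 _ _).1
  have crr : ∀ w, IsC X.Qm X.Qm B n (b0 u (r Y w) (r Y w)) := fun w => by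
    simpa using ((ent_rr Y w w n u).1 fun i j => hu.1 _ _).1
  have cll1 : ∀ w, IsC X.Qp X.Qp B (n - 1) (b1 u (l Y (w + 1)) (l Y w)) := fun w => by
    simpa using ((ent_ll Y w (w + 1) n u).1 fun i j => hu.1 _ _).2
  have crr1 : ∀ w, IsC X.Qm X.Qm B (n - 1) (b1 u (r Y w) (r Y (w + 1))) := fun w => by
    simpa using ((ent_rr Y (w + 1) w n u).1 fun i j => hu.1 _ _).2
  have clr : IsC X.Qp X.Qm B (n - 1) (b1 u (l Y 0) (r Y 0)) := by
    simpa using ((ent_lr Y 0 0 n u).1 fun i j => hu.1 _ _).2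
  have q1 := δ_lr1 Y u
  rw [hu.2, b1_zero] at q1
  have q0 := δ_rr0 Y u 0
  rw [hu.2, b0_zero] at q0
  obtain ⟨r0, v1, d1, d2, d3, d4⟩ := cone_pair X hK n (b1 u (l Y 0) (r Y 0) + X.φ ∘ₗ v0)
    (b0 u (r Y 0) (r Y 0)) (isC_add clr (by simpa using isC_comp c0 X.φ_cy.1)) (crr 0) (by
      rw [δ_add, δ_comp h2, X.φ_cy.2, e0, LinearMap.zero_comp, add_zero, add_right_comm]
      exact q1.symm) q0.symm
  let vp : ℕ → Ch X.Qp X.Qp B := fun w => Nat.rec v0 (fun w x => x + b1 u (l Y (w + 1)) (l Y w)) w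
  let vm : ℕ → Ch X.Qm X.Qm B := fun w => Nat.rec v1 (fun w x => x + b1 u (r Y w) (r Y (w + 1))) w
  have sp : ∀ w, vp (w + 1) = vp w + b1 u (l Y (w + 1)) (l Y w) := fun _ => rfl
  have sm : ∀ w, vm (w + 1) = vm w + b1 u (r Y w) (r Y (w + 1)) := fun _ => rfl
  have hp : ∀ w, IsC X.Qp X.Qp B (n - 1) (vp w) := fun w => by
    induction w with
    | zero => exact c0
    | succ w ih => exact isC_add ih (cll1 w)
  have hm : ∀ w, IsC X.Qm X.Qm B (n - 1) (vm w) := fun w => by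
    induction w with
    | zero => exact d2
    | succ w ih => exact isC_add ih (crr1 w)
  refine ⟨mkW Y vp vm r0, isC_mkW Y vp vm r0 hp hm d1,
    W0_ext Y (W0_δ Y (W0_mkW Y vp vm r0)) hw (fun w => ?_) (fun w => ?_) (fun w => ?_) ?_ fun w => ?_⟩
  · rw [δ_ll0, m0_ll, if_pos rfl]
    induction w with
    | zero => exact e0
    | succ w ih =>
      have q := δ_ll1 Y u w
      rw [hu.2, b1_zero, comp_one (cll w), one_comp (cll (w + 1))] at q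
      rw [sp, δ_add, ih, add_comm]
      exact solve2 h2 q.symm
  · rw [δ_rr0, m0_rr, if_pos rfl]
    induction w with
    | zero => exact d4
    | succ w ih =>
      have q := δ_rr1 Y u w
      rw [hu.2, b1_zero, comp_one (crr (w + 1)), one_comp (crr w), add_right_comm] at q
      rw [sm, δ_add, ih, add_comm]
      exact solve2 h2 q.symm
  · rw [δ_ll1, m1_ll, m0_ll, m0_ll, if_pos rfl, if_pos rfl, δ_zero', zero_add, comp_one (hp w),
      one_comp (hp (w + 1)), sp, ← add_assoc, map_add_self h2, zero_add]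
  · rw [δ_lr1, m1_lr, m0_rr, m0_ll, if_pos ⟨rfl, rfl⟩, if_pos rfl, if_pos rfl]
    change δ X.Qp X.Qm B r0 + v1 ∘ₗ X.φ + X.φ ∘ₗ v0 = _
    rw [d3, add_assoc, map_add_self h2, add_zero]
  · rw [δ_rr1, m1_rr, m0_rr, m0_rr, if_pos rfl, if_pos rfl, δ_zero', zero_add, comp_one (hm (w + 1)),
      one_comp (hm w), sm, add_right_comm, map_add_self h2, zero_add]

theorem w0_main (hK : KStmt) (n : ℤ) (u : Ch Y.P Y.P (DualNumber B)) (hu : Cy Y.P Y.P _ n u)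
    (hw : W0 Y u) : ∃ a : k, (n ≠ 0 → a = 0) ∧ Bd Y.P Y.P _ n (u + a • Y.P.one) := by
  have h2 : (2 : DualNumber B) = 0 := two_zero (k := k)
  have q0 := δ_ll0 Y u 0
  rw [hu.2, b0_zero] at q0
  obtain ⟨a, ha, hb⟩ := endp X hK n (b0 u (l Y 0) (l Y 0))
    ⟨by simpa using ((ent_ll Y 0 0 n u).1 fun i j => hu.1 _ _).1, q0.symm⟩
  refine ⟨a, ha, w0_bd Y hK n _ ⟨?_, ?_⟩ (W0_add_smul Y a hw (W0_one Y)) ?_⟩
  · by_cases hn : n = 0
    · subst hn; exact isC_add hu.1 (isC_smul a isC_one)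
    · rw [ha hn, zero_smul, add_zero]; exact hu.1
  · rw [δ_add, hu.2, δ_smul, δ_one h2]; simp
  · convert hb using 1
    refine ext1 fun i => ?_
    ext j
    classical
    rw [← ent0]
    simp [← ent0, single_apply, ε_l, apply_ite fst]

def ρ0 (q : k) (ω : ℤ) : k := if ω = 0 then 0 else (1 + q ^ ω)⁻¹

lemma ρ_key {q : k} (hq : ∀ n : ℕ, 0 < n → q ^ n ≠ 1) :
    ρ0 q + (fun ω : ℤ => q ^ ω) * ρ0 q = 1 + π0 k := by
  funext ω
  simp only [Pi.add_apply, Pi.mul_apply, Pi.one_apply, ρ0, π0]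
  split_ifs with h
  · simp [CharTwo.add_self_eq_zero]
  · have : 1 + q ^ ω ≠ 0 := fun e => by
      have e1 : q ^ ω = 1 := by
        rw [← CharTwo.neg_eq 1]; exact (neg_eq_of_add_eq_zero_right e).symm
      obtain ⟨n, rfl | rfl⟩ := ω.eq_nat_or_neg
      · exact hq n (by omega) (by simpa using e1)
      · exact hq n (by omega) (by simpa using e1)
    field_simp
    ring

theorem twStmt (hK : KStmt) : TwStmt := by
  intro k _ _ q hq0 hq B _ _ m X Y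
  have h2 : (2 : DualNumber B) = 0 := two_zero (k := k)
  have key : ∀ u, Mg Y (ρ0 q) u + Mg Y (fun ω => q ^ ω) (Mg Y (ρ0 q) u) = u + Mg Y (π0 k) u :=
    fun u => by rw [Mg_Mg, ← Mg_add', ρ_key hq, Mg_add', Mg_one]
  refine ⟨fun u v => ?_, fun n u h => ?_, fun u => ?_, ?_, fun n u hn hu hb => ?_, fun n u hu => ?_⟩
  · simp only [cj_eq Y hq0, Mg_add]
  · rw [cj_eq Y hq0]; exact isC_Mg Y _ h
  · simp only [cj_eq Y hq0, Mg_δ]
  · rw [cj_eq Y hq0]; exact Mg_W0 Y _ (by simp) (W0_one Y)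
  · obtain ⟨a, ha, s, s1, s2⟩ := w0_main Y hK n _ (cy_Mg Y (π0 k) hu) (W0_Mg Y u)
    rw [ha hn, zero_smul, add_zero] at s2
    obtain ⟨t, t1, t2⟩ := bd_Mg Y (ρ0 q) hb
    rw [cj_eq Y hq0, Mg_add, Mg_Mg, mul_comm, ← Mg_Mg, key] at t2
    exact ⟨t + s, isC_add t1 s1, by rw [δ_add, t2, s2, add_assoc, map_add_self h2, add_zero]⟩
  · obtain ⟨a, ha, hb⟩ := w0_main Y hK n _ (cy_Mg Y (π0 k) hu) (W0_Mg Y u)
    refine ⟨a, Mg Y (ρ0 q) u, ha, cy_Mg Y _ hu, ?_⟩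
    rw [cj_eq Y hq0, add_assoc, key, add_add_add_comm, map_add_self h2, zero_add, add_comm]
    exact hb

end Crest.Agent.H5.Tk
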